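import Mathlib

/-! Conditional expectations on finite sets and a spectral principle. -/

set_option autoImplicit false
open Finset

namespace Crest.Agent.R299

/-- spectral principle for symmetric operators on functions on a finite type -/
theorem spec_nonneg {ι : Type*} [Fintype ι] (T : (ι → ℝ) →ₗ[ℝ] (ι → ℝ))
    (hT : ∀ f g : ι → ℝ, ∑ i, T f i * g i = ∑ i, f i * T g i) (α β γ : ℝ)
    (h : ∀ (μ : ℝ) (f : ι → ℝ), f ≠ 0 → T f = μ • f → 0 ≤ α * μ ^ 2 + β * μ + γ) (f : ι → ℝ) :
    0 ≤ α * ∑ i, (T f i) ^ 2 + β * ∑ i, f i * T f i + γ * ∑ i, (f i) ^ 2 := by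
  classical
  let e : EuclideanSpace ℝ ι ≃ₗ[ℝ] (ι → ℝ) := WithLp.linearEquiv 2 ℝ (ι → ℝ)
  let T' : EuclideanSpace ℝ ι →ₗ[ℝ] EuclideanSpace ℝ ι := e.symm.toLinearMap ∘ₗ T ∘ₗ e.toLinearMap
  have hin : ∀ x y : EuclideanSpace ℝ ι, inner ℝ x y = ∑ i, e x i * e y i := by
    intro x y
    rw [PiLp.inner_apply]
    refine Finset.sum_congr rfl fun i _ => ?_
    simp [e, mul_comm]
  have hT'e : ∀ x, e (T' x) = T (e x) := by intro x; simp [T']
  have hs : T'.IsSymmetric := by
    intro x y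
    rw [hin, hin, hT'e, hT'e, hT]
  let b := hs.eigenvectorBasis rfl
  let μ := hs.eigenvalues rfl
  have hb : ∀ i, T' (b i) = μ i • b i := fun i => hs.apply_eigenvectorBasis rfl i
  have hμ : ∀ i, 0 ≤ α * μ i ^ 2 + β * μ i + γ := by
    intro i
    refine h (μ i) (e (b i)) ?_ ?_
    · intro h0
      have : b i = 0 := e.injective (by rw [h0, map_zero])
      exact b.orthonormal.ne_zero i this
    · rw [← hT'e, hb, map_smul]
  set x : EuclideanSpace ℝ ι := e.symm f with hx
  have hex : e x = f := by simp [hx]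
  have h1 : ∀ i, inner ℝ (b i) (T' x) = μ i * inner ℝ (b i) x := by
    intro i
    rw [← hs, hb, inner_smul_left]; simp
  have e1 : ∑ i, (T f i) ^ 2 = ∑ i, μ i ^ 2 * (inner ℝ (b i) x) ^ 2 := by
    have := b.sum_inner_mul_inner (T' x) (T' x)
    rw [hin (T' x) (T' x), hT'e, hex] at this
    rw [show ∑ i, (T f i) ^ 2 = ∑ i, T f i * T f i from by simp [sq], ← this]
    refine Finset.sum_congr rfl fun i _ => ?_
    rw [real_inner_comm, h1]; ring
  have e2 : ∑ i, f i * T f i = ∑ i, μ i * (inner ℝ (b i) x) ^ 2 := by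
    have := b.sum_inner_mul_inner x (T' x)
    rw [hin x (T' x), hT'e, hex] at this
    rw [← this]
    refine Finset.sum_congr rfl fun i _ => ?_
    rw [real_inner_comm, h1]; ring
  have e3 : ∑ i, (f i) ^ 2 = ∑ i, (inner ℝ (b i) x) ^ 2 := by
    have := b.sum_inner_mul_inner x x
    rw [hin x x, hex] at this
    rw [show ∑ i, (f i) ^ 2 = ∑ i, f i * f i from by simp [sq], ← this]
    refine Finset.sum_congr rfl fun i _ => ?_
    rw [real_inner_comm]; ring
  rw [e1, e2, e3, Finset.mul_sum, Finset.mul_sum, Finset.mul_sum, ← Finset.sum_add_distrib,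
    ← Finset.sum_add_distrib]
  refine Finset.sum_nonneg fun i _ => ?_
  have := mul_nonneg (hμ i) (sq_nonneg (inner ℝ (b i) x))
  nlinarith [this]

variable {Ω : Type*} [Fintype Ω]

open Classical in
/-- the class of `x` -/
noncomputable def cls (r : Ω → Ω → Prop) (x : Ω) : Finset Ω := univ.filter (r x)

@[simp] theorem mem_cls {r : Ω → Ω → Prop} {x y : Ω} : y ∈ cls r x ↔ r x y := by
  simp [cls]

/-- average over the class -/
noncomputable def P (r : Ω → Ω → Prop) : (Ω → ℝ) →ₗ[ℝ] (Ω → ℝ) where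
  toFun f x := (∑ y ∈ cls r x, f y) / (cls r x).card
  map_add' f g := by ext x; simp [Finset.sum_add_distrib, add_div]
  map_smul' c f := by ext x; simp [← Finset.mul_sum, mul_div_assoc]

theorem P_apply (r : Ω → Ω → Prop) (f : Ω → ℝ) (x : Ω) :
    P r f x = (∑ y ∈ cls r x, f y) / (cls r x).card := rfl

variable {r r' : Ω → Ω → Prop}

theorem cls_eq (hr : Equivalence r) {x y : Ω} (h : r x y) : cls r x = cls r y := by
  ext z; simp only [mem_cls]
  exact ⟨fun hz => hr.trans (hr.symm h) hz, fun hz => hr.trans h hz⟩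

theorem card_cls_pos (hr : Equivalence r) (x : Ω) : (0 : ℝ) < (cls r x).card := by
  have : 0 < (cls r x).card := Finset.card_pos.2 ⟨x, mem_cls.2 (hr.refl x)⟩
  exact_mod_cast this

theorem P_congr (hr : Equivalence r) (f : Ω → ℝ) {x y : Ω} (h : r x y) : P r f x = P r f y := by
  rw [P_apply, P_apply, cls_eq hr h]

theorem P_le (hr : Equivalence r) {f : Ω → ℝ} {x : Ω} {c : ℝ} (h : ∀ y, r x y → f y ≤ c) :
    P r f x ≤ c := by
  rw [P_apply, div_le_iff₀ (card_cls_pos hr x)]
  calc ∑ y ∈ cls r x, f y ≤ ∑ y ∈ cls r x, c := Finset.sum_le_sum fun y hy => h y (mem_cls.1 hy)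
    _ = c * (cls r x).card := by simp [mul_comm]

theorem P_eq_of_const (hr : Equivalence r) {f : Ω → ℝ} {x : Ω} {c : ℝ} (h : ∀ y, r x y → f y = c) :
    P r f x = c := by
  rw [P_apply, div_eq_iff (card_cls_pos hr x).ne']
  rw [Finset.sum_congr rfl fun y hy => h y (mem_cls.1 hy)]
  simp [mul_comm]

theorem P_local {f g : Ω → ℝ} {x : Ω} (h : ∀ y, r x y → f y = g y) : P r f x = P r g x := by
  rw [P_apply, P_apply, Finset.sum_congr rfl fun y hy => h y (mem_cls.1 hy)]

theorem P_eq_of_cls_eq {f : Ω → ℝ} {x : Ω} (h : ∀ y, r x y ↔ r' x y) : P r f x = P r' f x := by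
  have : cls r x = cls r' x := by ext y; simp [h]
  rw [P_apply, P_apply, this]

theorem P_selfadj (hr : Equivalence r) (f g : Ω → ℝ) :
    ∑ x, P r f x * g x = ∑ x, f x * P r g x := by
  classical
  have h1 : ∀ f g : Ω → ℝ, ∑ x, P r f x * g x =
      ∑ x, ∑ y, if r x y then f y * g x / (cls r x).card else 0 := by
    intro f g
    refine Finset.sum_congr rfl fun x _ => ?_
    rw [P_apply, Finset.sum_div, Finset.sum_mul, ← Finset.sum_filter]
    refine Finset.sum_congr (by ext y; simp) fun y _ => by ring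
  have h2 : ∑ x, f x * P r g x = ∑ x, P r g x * f x := by simp [mul_comm]
  rw [h2, h1, h1, Finset.sum_comm]
  refine Finset.sum_congr rfl fun x _ => Finset.sum_congr rfl fun y _ => ?_
  by_cases h : r x y
  · rw [if_pos h, if_pos (hr.symm h), cls_eq hr h]; ring
  · rw [if_neg h, if_neg fun h' => h (hr.symm h')]

theorem eq_of_inner {f g : Ω → ℝ} (h : ∀ u : Ω → ℝ, ∑ x, f x * u x = ∑ x, g x * u x) : f = g := by
  classical
  ext x
  simpa [Pi.single_apply] using h (Pi.single x 1)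

/-- `r ≤ r'`: averaging an `r'`-average over `r` does nothing -/
theorem P_P_left (hr : Equivalence r) (hr' : Equivalence r') (hle : ∀ x y, r x y → r' x y)
    (f : Ω → ℝ) : P r (P r' f) = P r' f := by
  ext x
  exact P_eq_of_const hr fun y hy => (P_congr hr' f (hle x y hy)).symm

theorem P_P_right (hr : Equivalence r) (hr' : Equivalence r') (hle : ∀ x y, r x y → r' x y)
    (f : Ω → ℝ) : P r' (P r f) = P r' f := by
  refine eq_of_inner fun u => ?_
  rw [P_selfadj hr', P_selfadj hr, P_P_left hr hr' hle, P_selfadj hr']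

theorem P_idem (hr : Equivalence r) (f : Ω → ℝ) : P r (P r f) = P r f :=
  P_P_left hr hr (fun _ _ h => h) f

theorem sum_P (hr : Equivalence r) (f : Ω → ℝ) : ∑ x, P r f x = ∑ x, f x := by
  have := P_selfadj hr f (fun _ => 1)
  simp only [mul_one] at this
  rw [this]
  refine Finset.sum_congr rfl fun x _ => ?_
  rw [P_eq_of_const hr (c := 1) fun _ _ => rfl, mul_one]

theorem sum_nonneg_of_cls (hr : Equivalence r) {F : Ω → ℝ}
    (h : ∀ x, 0 ≤ ∑ y ∈ cls r x, F y) : 0 ≤ ∑ x, F x := by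
  rw [← sum_P hr]
  exact Finset.sum_nonneg fun x _ => div_nonneg (h x) (card_cls_pos hr x).le

/-- transport of averages along a bijection between classes -/
theorem P_bij {Ω' : Type*} [Fintype Ω'] {s : Ω' → Ω' → Prop} {x : Ω} {x' : Ω'} (φ : Ω → Ω')
    (h1 : ∀ y, r x y → s x' (φ y)) (h2 : ∀ y z, r x y → r x z → φ y = φ z → y = z)
    (h3 : ∀ y', s x' y' → ∃ y, r x y ∧ φ y = y') (g : Ω' → ℝ) :
    P s g x' = P r (fun y => g (φ y)) x := by
  have hs : ∀ F : Ω' → ℝ, ∑ y ∈ cls r x, F (φ y) = ∑ y ∈ cls s x', F y := by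
    intro F
    refine Finset.sum_bij (fun y _ => φ y) (fun y hy => mem_cls.2 (h1 y (mem_cls.1 hy)))
      (fun y hy z hz h => h2 y z (mem_cls.1 hy) (mem_cls.1 hz) h) ?_ (fun _ _ => rfl)
    intro y' hy'
    obtain ⟨y, hy, e⟩ := h3 y' (mem_cls.1 hy')
    exact ⟨y, mem_cls.2 hy, e⟩
  have hc : ((cls r x).card : ℝ) = (cls s x').card := by simpa using hs fun _ => 1
  rw [P_apply, P_apply, hs, hc]

theorem P_invol {σ : Ω → Ω} (hσ : Function.Involutive σ) (h : ∀ x y, r x y → r (σ x) (σ y))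
    (f : Ω → ℝ) (x : Ω) : P r f (σ x) = P r (fun y => f (σ y)) x := by
  refine P_bij σ (fun y hy => h x y hy) (fun y z _ _ e => hσ.injective e) ?_ f
  intro y hy
  refine ⟨σ y, ?_, hσ y⟩
  have := h _ _ hy
  rwa [hσ x] at this

theorem P_comp_invol (hr : Equivalence r) {σ : Ω → Ω} (hσ : Function.Involutive σ)
    (h : ∀ x, r x (σ x)) (f : Ω → ℝ) : P r (fun y => f (σ y)) = P r f := by
  ext x
  rw [← P_invol hσ (fun x y hxy => hr.trans (hr.symm (h x)) (hr.trans hxy (h y))) f x]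
  exact (P_congr hr f (h x)).symm

/-- commutation from the diamond property -/
theorem P_comm (hr : Equivalence r) (hr' : Equivalence r')
    (h1 : ∀ x y, r x y → r' x y → x = y)
    (h2 : ∀ x y z, r x y → r' x z → ∃ w, r' y w ∧ r z w) (f : Ω → ℝ) :
    P r (P r' f) = P r' (P r f) := by
  classical
  -- class sizes
  have hc : ∀ {r r' : Ω → Ω → Prop}, Equivalence r → Equivalence r' →
      (∀ x y, r x y → r' x y → x = y) → (∀ x y z, r x y → r' x z → ∃ w, r' y w ∧ r z w) →
      ∀ x z, r' x z → (cls r x).card ≤ (cls r z).card := by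
    intro r r' hr hr' h1 h2 x z hxz
    choose! w hw using fun y (hy : r x y) => h2 x y z hy hxz
    refine Finset.card_le_card_of_injOn w (fun y hy => ?_) (fun y hy y' hy' e => ?_)
    · exact Finset.mem_coe.2 (mem_cls.2 (hw y (mem_cls.1 (Finset.mem_coe.1 hy))).2)
    · have a := mem_cls.1 (Finset.mem_coe.1 hy)
      have a' := mem_cls.1 (Finset.mem_coe.1 hy')
      refine h1 y y' (hr.trans (hr.symm a) a') (hr'.trans (hw y a).1 ?_)
      rw [e]; exact hr'.symm (hw y' a').1
  have h1' : ∀ x y, r' x y → r x y → x = y := fun x y a b => h1 x y b a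
  have h2' : ∀ x y z, r' x y → r x z → ∃ w, r y w ∧ r' z w := by
    intro x y z a b
    obtain ⟨w, c, d⟩ := h2 x z y b a
    exact ⟨w, d, c⟩
  have hc1 : ∀ x z, r' x z → (cls r x).card = (cls r z).card := fun x z h =>
    le_antisymm (hc hr hr' h1 h2 x z h) (hc hr hr' h1 h2 z x (hr'.symm h))
  have hc2 : ∀ x z, r x z → (cls r' x).card = (cls r' z).card := fun x z h =>
    le_antisymm (hc hr' hr h1' h2' x z h) (hc hr' hr h1' h2' z x (hr.symm h))
  have key : ∀ {r r' : Ω → Ω → Prop}, Equivalence r → Equivalence r' →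
      (∀ x y, r x y → r' x y → x = y) → (∀ x z, r x z → (cls r' x).card = (cls r' z).card) →
      ∀ x, P r (P r' f) x = (∑ w ∈ univ.filter (fun w => ∃ y, r x y ∧ r' y w), f w) /
        ((cls r x).card * (cls r' x).card) := by
    intro r r' hr hr' h1 hc x
    rw [P_apply, ← div_div, div_right_comm]
    congr 1
    rw [Finset.sum_congr rfl (g := fun y => (∑ w ∈ cls r' y, f w) / (cls r' x).card)
      fun y hy => by rw [P_apply, hc x y (mem_cls.1 hy)], ← Finset.sum_div]
    congr 1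
    rw [Finset.sum_sigma']
    refine Finset.sum_bij (fun p _ => p.2) ?_ ?_ ?_ (fun _ _ => rfl)
    · rintro ⟨y, w⟩ hp
      simp only [Finset.mem_sigma, mem_cls] at hp
      simp only [Finset.mem_filter, Finset.mem_univ, true_and]
      exact ⟨y, hp⟩
    · rintro ⟨y, w⟩ hp ⟨y', w'⟩ hp' e
      simp only [Finset.mem_sigma, mem_cls] at hp hp' e
      subst e
      have : y = y' := h1 y y' (hr.trans (hr.symm hp.1) hp'.1) (hr'.trans hp.2 (hr'.symm hp'.2))
      subst this; rfl
    · intro w hw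
      simp only [Finset.mem_filter, Finset.mem_univ, true_and] at hw
      obtain ⟨y, a, b⟩ := hw
      exact ⟨⟨y, w⟩, by simp [a, b], rfl⟩
  ext x
  rw [key hr hr' h1 hc2, key hr' hr h1' hc1, mul_comm]
  congr 2
  ext w
  simp only [Finset.mem_filter, Finset.mem_univ, true_and]
  constructor
  · rintro ⟨y, a, b⟩
    obtain ⟨z, c, d⟩ := h2 y x w (hr.symm a) b
    exact ⟨z, c, hr.symm d⟩
  · rintro ⟨y, a, b⟩
    obtain ⟨z, c, d⟩ := h2' y x w (hr'.symm a) b
    exact ⟨z, c, hr'.symm d⟩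

/-- product of two commuting orthogonal projections is nonnegative -/
theorem inner_proj_nonneg (A B : (Ω → ℝ) →ₗ[ℝ] (Ω → ℝ))
    (hA : ∀ f g : Ω → ℝ, ∑ x, A f x * g x = ∑ x, f x * A g x)
    (hB : ∀ f g : Ω → ℝ, ∑ x, B f x * g x = ∑ x, f x * B g x)
    (hAA : ∀ f, A (A f) = A f) (hBB : ∀ f, B (B f) = B f) (hAB : ∀ f, A (B f) = B (A f))
    (f : Ω → ℝ) : 0 ≤ ∑ x, A f x * B f x := by
  have : ∑ x, A f x * B f x = ∑ x, A (B f) x * A (B f) x := by
    rw [hA (B f), hAA, hB f (A (B f)), ← hAB, hBB, hA f]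
  rw [this]
  exact Finset.sum_nonneg fun x _ => mul_self_nonneg _

end Crest.Agent.R299
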