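import Mathlib
import Crest.Agent.R299.Proj

/-! Abstract slices (uniform `a`-subsets of `K`): Bernoulli--Laplace gap and a degree-two bound. -/

set_option autoImplicit false
set_option linter.unusedSectionVars false
open Finset

namespace Crest.Agent.R299

/-- a finite family of subsets of `K` of size `a`, closed under transpositions -/
structure Slice (Φ : Type*) (V : Type*) [DecidableEq V] where
  K : Finset V
  z : Φ → V → Bool
  τ : V → V → Φ → Φ
  a : ℕ
  hτ : ∀ x ∈ K, ∀ y ∈ K, ∀ X, ∀ w ∈ K, z (τ x y X) w = z X (Equiv.swap x y w)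
  inj : ∀ X Y, (∀ w ∈ K, z X w = z Y w) → X = Y
  cnt : ∀ X, (K.filter (fun w => z X w = true)).card = a

namespace Slice

variable {Φ V : Type*} [DecidableEq V] (S : Slice Φ V)

theorem swap_mem {x y w : V} (hx : x ∈ S.K) (hy : y ∈ S.K) (hw : w ∈ S.K) :
    Equiv.swap x y w ∈ S.K := by
  rw [Equiv.swap_apply_def]; split_ifs <;> assumption

theorem invol {x y : V} (hx : x ∈ S.K) (hy : y ∈ S.K) : Function.Involutive (S.τ x y) := by
  intro X
  refine S.inj _ _ fun w hw => ?_
  rw [S.hτ x hx y hy _ w hw, S.hτ x hx y hy _ _ (S.swap_mem hx hy hw), Equiv.swap_apply_self]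

theorem fix {x y : V} (hx : x ∈ S.K) (hy : y ∈ S.K) {X : Φ} (h : S.z X x = S.z X y) :
    S.τ x y X = X := by
  refine S.inj _ _ fun w hw => ?_
  rw [S.hτ x hx y hy _ w hw, Equiv.swap_apply_def]
  split_ifs with h1 h2
  · rw [h1, h]
  · rw [h2, h]
  · rfl

theorem symm {x y : V} (hx : x ∈ S.K) (hy : y ∈ S.K) (X : Φ) : S.τ x y X = S.τ y x X := by
  refine S.inj _ _ fun w hw => ?_
  rw [S.hτ x hx y hy _ w hw, S.hτ y hy x hx _ w hw, Equiv.swap_comm]

theorem conj {x y p q : V} (hx : x ∈ S.K) (hy : y ∈ S.K) (hp : p ∈ S.K) (hq : q ∈ S.K) (X : Φ) :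
    S.τ x y (S.τ p q X) = S.τ p q (S.τ (Equiv.swap p q x) (Equiv.swap p q y) X) := by
  refine S.inj _ _ fun w hw => ?_
  rw [S.hτ x hx y hy _ w hw, S.hτ p hp q hq _ _ (S.swap_mem hx hy hw), S.hτ p hp q hq _ w hw,
    S.hτ _ (S.swap_mem hp hq hx) _ (S.swap_mem hp hq hy) _ _ (S.swap_mem hp hq hw),
    (Equiv.swap p q).injective.swap_apply]

/-- connectivity -/
theorem conn {α : Type*} (f : Φ → α) (hf : ∀ x ∈ S.K, ∀ y ∈ S.K, ∀ X, f (S.τ x y X) = f X)
    (X Y : Φ) : f X = f Y := by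
  classical
  induction' hm : (S.K.filter fun w => S.z X w ≠ S.z Y w).card using Nat.strong_induction_on
    with m ih generalizing X
  by_cases h0 : ∀ w ∈ S.K, S.z X w = S.z Y w
  · rw [S.inj X Y h0]
  have hAB : (S.K.filter fun w => S.z X w = true).card =
      (S.K.filter fun w => S.z Y w = true).card := by rw [S.cnt, S.cnt]
  have hne : (S.K.filter fun w => S.z X w = true) ≠ (S.K.filter fun w => S.z Y w = true) := by
    intro e
    refine h0 fun w hw => ?_
    have := Finset.ext_iff.1 e w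
    simp only [Finset.mem_filter, hw, true_and] at this
    exact Bool.eq_iff_iff.2 this
  obtain ⟨x, hx, hx'⟩ : ∃ x, x ∈ (S.K.filter fun w => S.z X w = true) ∧
      x ∉ (S.K.filter fun w => S.z Y w = true) := by
    by_contra hc
    push Not at hc
    exact hne (Finset.eq_of_subset_of_card_le hc hAB.ge)
  obtain ⟨y, hy, hy'⟩ : ∃ x, x ∈ (S.K.filter fun w => S.z Y w = true) ∧
      x ∉ (S.K.filter fun w => S.z X w = true) := by
    by_contra hc
    push Not at hc
    exact hne (Finset.eq_of_subset_of_card_le hc hAB.le).symm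
  simp only [Finset.mem_filter, not_and] at hx hx' hy hy'
  have hx2 := hx' hx.1
  have hy2 := hy' hy.1
  rw [← hf x hx.1 y hy.1 X]
  refine ih _ ?_ _ rfl
  rw [← hm]
  refine Finset.card_lt_card ⟨fun w hw => ?_, fun hsub => ?_⟩
  · simp only [Finset.mem_filter] at hw ⊢
    refine ⟨hw.1, ?_⟩
    have h := hw.2
    rw [S.hτ x hx.1 y hy.1 _ w hw.1, Equiv.swap_apply_def] at h
    split_ifs at h with h1 h2
    · subst h1; simp_all
    · subst h2; simp_all
    · exact h
  · have : x ∈ S.K.filter fun w => S.z X w ≠ S.z Y w := by simp [hx.1, hx.2, hx2]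
    have h := (Finset.mem_filter.1 (hsub this)).2
    rw [S.hτ x hx.1 y hy.1 _ x hx.1, Equiv.swap_apply_left] at h
    simp_all

variable [Fintype Φ]

theorem sum_τ {x y : V} (hx : x ∈ S.K) (hy : y ∈ S.K) (F : Φ → ℝ) :
    ∑ X, F (S.τ x y X) = ∑ X, F X :=
  Equiv.sum_comp (S.invol hx hy).toPerm F

theorem sum_split {p q : V} (hp : p ∈ S.K) (hq : q ∈ S.K) (hpq : p ≠ q) (F : V → ℝ) :
    ∑ x ∈ S.K, F x = F p + F q + ∑ x ∈ (S.K.erase p).erase q, F x := by
  rw [← Finset.add_sum_erase _ _ hp,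
    ← Finset.add_sum_erase _ _ (Finset.mem_erase.2 ⟨hpq.symm, hq⟩), add_assoc]

/-- the Bernoulli--Laplace spectral gap -/
theorem gap (f : Φ → ℝ) (hf : ∑ X, f X = 0) :
    4 * S.K.card * ∑ X, f X ^ 2 ≤ ∑ x ∈ S.K, ∑ y ∈ S.K, ∑ X, (f X - f (S.τ x y X)) ^ 2 := by
  classical
  set k : ℝ := (S.K.card : ℝ) with hk
  let L : (Φ → ℝ) →ₗ[ℝ] (Φ → ℝ) :=
    { toFun := fun f X => ∑ x ∈ S.K, ∑ y ∈ S.K, (f X - f (S.τ x y X))
      map_add' := by
        intro f g; ext X
        simp only [Pi.add_apply, ← Finset.sum_add_distrib]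
        refine Finset.sum_congr rfl fun _ _ => Finset.sum_congr rfl fun _ _ => by ring
      map_smul' := by
        intro c f; ext X
        simp only [Pi.smul_apply, smul_eq_mul, RingHom.id_apply, Finset.mul_sum]
        refine Finset.sum_congr rfl fun _ _ => Finset.sum_congr rfl fun _ _ => by ring }
  have hL : ∀ f X, L f X = ∑ x ∈ S.K, ∑ y ∈ S.K, (f X - f (S.τ x y X)) := fun _ _ => rfl
  have hLi : ∀ f g : Φ → ℝ, ∑ X, L f X * g X =
      ∑ x ∈ S.K, ∑ y ∈ S.K, (∑ X, f X * g X - ∑ X, f (S.τ x y X) * g X) := by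
    intro f g
    simp only [hL, Finset.sum_mul]
    rw [Finset.sum_comm]
    refine Finset.sum_congr rfl fun x _ => ?_
    rw [Finset.sum_comm]
    refine Finset.sum_congr rfl fun y _ => ?_
    rw [← Finset.sum_sub_distrib]
    exact Finset.sum_congr rfl fun _ _ => by ring
  have hLs : ∀ f g : Φ → ℝ, ∑ X, L f X * g X = ∑ X, f X * L g X := by
    intro f g
    rw [show ∑ X, f X * L g X = ∑ X, L g X * f X from by simp [mul_comm], hLi, hLi]
    refine Finset.sum_congr rfl fun x hx => Finset.sum_congr rfl fun y hy => ?_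
    rw [← S.sum_τ hx hy (fun X => f (S.τ x y X) * g X)]
    simp only [S.invol hx hy _]
    simp [mul_comm]
  have hT : Equivalence (fun _ _ : Φ => True) := ⟨fun _ => trivial, fun _ => trivial,
    fun _ _ => trivial⟩
  have hE : ∀ f : Φ → ℝ, ∑ X, f X = 0 → P (fun _ _ : Φ => True) f = 0 := by
    intro f hf; ext X
    have : cls (fun _ _ : Φ => True) X = univ := by ext; simp
    rw [P_apply, this, hf]; simp
  have key := spec_nonneg (L + (2 * k) • P (fun _ _ : Φ => True)) ?_ 0 1 (-(2 * k)) ?_ f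
  · simp only [LinearMap.add_apply, LinearMap.smul_apply, hE f hf, smul_zero, add_zero, zero_mul,
      zero_add, one_mul] at key
    have h2 : ∑ x ∈ S.K, ∑ y ∈ S.K, ∑ X, (f X - f (S.τ x y X)) ^ 2 = 2 * ∑ X, f X * L f X := by
      rw [← hLs, hLi, Finset.mul_sum]
      refine Finset.sum_congr rfl fun x hx => ?_
      rw [Finset.mul_sum]
      refine Finset.sum_congr rfl fun y hy => ?_
      have := S.sum_τ hx hy (fun X => f X * f X)
      have h3 : ∑ X, (f X - f (S.τ x y X)) ^ 2 = ∑ X, f X * f X +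
          ∑ X, f (S.τ x y X) * f (S.τ x y X) - 2 * ∑ X, f (S.τ x y X) * f X := by
        rw [Finset.mul_sum, ← Finset.sum_add_distrib, ← Finset.sum_sub_distrib]
        exact Finset.sum_congr rfl fun _ _ => by ring
      rw [h3, this]; ring
    rw [h2]; linarith
  · intro f g
    simp only [LinearMap.add_apply, LinearMap.smul_apply, Pi.add_apply, Pi.smul_apply, smul_eq_mul,
      add_mul, mul_add, Finset.sum_add_distrib, hLs]
    congr 1
    have := P_selfadj hT f g
    simp only [mul_assoc (2 * k), mul_left_comm _ (2 * k), ← Finset.mul_sum, this]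
  · intro μ f hf0 hf
    by_contra hlt
    have hlt : μ < 2 * k := by linarith [not_le.1 hlt]
    have hs : ∑ X, f X = 0 := by
      have h1 : ∑ X, (L + (2 * k) • P (fun _ _ : Φ => True)) f X = μ * ∑ X, f X := by
        rw [hf]; simp [Finset.mul_sum]
      have h2 : ∑ X, L f X = 0 := by
        have := hLs f (fun _ => 1)
        simpa [hL] using this
      simp only [LinearMap.add_apply, LinearMap.smul_apply, Pi.add_apply, Pi.smul_apply,
        smul_eq_mul, Finset.sum_add_distrib, h2, ← Finset.mul_sum, sum_P hT] at h1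
      have : (2 * k - μ) * ∑ X, f X = 0 := by linarith
      rcases mul_eq_zero.1 this with h | h
      · linarith
      · exact h
    have hLf : ∀ X, L f X = μ * f X := by
      intro X
      have := congrFun hf X
      simpa [hE f hs] using this
    have hconst : ¬ ∀ x ∈ S.K, ∀ y ∈ S.K, ∀ X, f (S.τ x y X) = f X := by
      intro h
      obtain ⟨X, hX⟩ : ∃ X, f X ≠ 0 := by
        by_contra hc; push Not at hc; exact hf0 (funext hc)
      have : ∑ Y, f Y = ∑ Y : Φ, f X := Finset.sum_congr rfl fun Y _ => S.conn f h Y X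
      rw [hs, Finset.sum_const, nsmul_eq_mul] at this
      have hc : (0 : ℝ) < (univ : Finset Φ).card := by
        exact_mod_cast Finset.card_pos.2 ⟨X, Finset.mem_univ _⟩
      rcases mul_eq_zero.1 this.symm with h | h
      · exact hc.ne' h
      · exact hX h
    push Not at hconst
    obtain ⟨x0, hx0, y0, hy0, X0, h0⟩ := hconst
    obtain ⟨⟨p, q, X⟩, hmem, hmax⟩ := Finset.exists_max_image (S.K ×ˢ S.K ×ˢ (univ : Finset Φ))
      (fun t => f (S.τ t.1 t.2.1 t.2.2) - f t.2.2) ⟨(x0, y0, X0), by simp [hx0, hy0]⟩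
    simp only [Finset.mem_product, Finset.mem_univ, and_true] at hmem
    obtain ⟨hp, hq⟩ := hmem
    set l := f (S.τ p q X) - f X with hl
    have hmax' : ∀ x ∈ S.K, ∀ y ∈ S.K, ∀ Y, f (S.τ x y Y) - f Y ≤ l := fun x hx y hy Y =>
      hmax (x, y, Y) (by simp [hx, hy])
    have hlpos : 0 < l := by
      have a := hmax' x0 hx0 y0 hy0 X0
      have b := hmax' x0 hx0 y0 hy0 (S.τ x0 y0 X0)
      rw [S.invol hx0 hy0] at b
      rcases lt_or_gt_of_ne h0 with h | h <;> linarith
    have hz : S.z X p ≠ S.z X q := by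
      intro h; rw [hl, S.fix hp hq h] at hlpos; simp at hlpos
    have hpq : p ≠ q := by rintro rfl; exact hz rfl
    -- the difference function
    let D : V → V → ℝ := fun x y => l - (f (S.τ p q (S.τ x y X)) - f (S.τ x y X))
    have hD0 : ∀ x y, 0 ≤ D x y := fun x y => by
      have := hmax' p hp q hq (S.τ x y X); simp only [D]; linarith
    have hsum : ∑ x ∈ S.K, ∑ y ∈ S.K, D x y = μ * l := by
      have h1 := hLf (S.τ p q X)
      have h2 := hLf X
      rw [hL] at h1 h2
      have h3 : ∑ x ∈ S.K, ∑ y ∈ S.K, f (S.τ x y (S.τ p q X)) =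
          ∑ x ∈ S.K, ∑ y ∈ S.K, f (S.τ p q (S.τ x y X)) := by
        refine Finset.sum_bijective (Equiv.swap p q) (Equiv.bijective _) ?_ ?_
        · intro x
          exact ⟨fun h => S.swap_mem hp hq h, fun h => by simpa using S.swap_mem hp hq h⟩
        intro x hx
        refine Finset.sum_bijective (Equiv.swap p q) (Equiv.bijective _) ?_ ?_
        · intro x
          exact ⟨fun h => S.swap_mem hp hq h, fun h => by simpa using S.swap_mem hp hq h⟩
        intro y hy
        rw [S.conj hx hy hp hq]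
      simp only [Finset.sum_sub_distrib] at h1 h2
      simp only [D, hl, Finset.sum_sub_distrib]
      rw [← h3]
      linarith
    have hpq2 : D p q = 2 * l := by simp only [D]; rw [S.invol hp hq]; ring
    have hqp2 : D q p = 2 * l := by simp only [D]; rw [S.symm hq hp, S.invol hp hq]; ring
    have hw : ∀ w ∈ (S.K.erase p).erase q, l ≤ D p w + D q w := by
      intro w hw
      simp only [Finset.mem_erase] at hw
      obtain ⟨hwq, hwp, hw⟩ := hw
      by_cases h : S.z X w = S.z X q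
      · have : S.τ p q (S.τ p w X) = S.τ p w X := by
          refine S.fix hp hq ?_
          rw [S.hτ p hp w hw _ p hp, S.hτ p hp w hw _ q hq, Equiv.swap_apply_left,
            Equiv.swap_apply_of_ne_of_ne hpq.symm hwq.symm, h]
        have h2 : D p w = l := by simp only [D, this]; ring
        linarith [hD0 q w]
      · have : S.τ p q (S.τ q w X) = S.τ q w X := by
          refine S.fix hp hq ?_
          rw [S.hτ q hq w hw _ p hp, S.hτ q hq w hw _ q hq, Equiv.swap_apply_left,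
            Equiv.swap_apply_of_ne_of_ne hpq hwp.symm]
          revert h hz
          cases S.z X p <;> cases S.z X q <;> cases S.z X w <;> simp
        have h2 : D q w = l := by simp only [D, this]; ring
        linarith [hD0 p w]
    have hcard : (((S.K.erase p).erase q).card : ℝ) = k - 2 := by
      have := S.sum_split hp hq hpq (fun _ => 1)
      simp only [Finset.sum_const, nsmul_eq_mul, mul_one] at this
      linarith
    have hA : (k - 2) * l ≤ ∑ w ∈ (S.K.erase p).erase q, D p w +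
        ∑ w ∈ (S.K.erase p).erase q, D q w := by
      rw [← Finset.sum_add_distrib, ← hcard]
      simpa using Finset.sum_le_sum hw
    have hB : (k - 2) * l ≤ ∑ w ∈ (S.K.erase p).erase q, ∑ y ∈ S.K, D w y := by
      refine hA.trans ?_
      rw [← Finset.sum_add_distrib]
      refine Finset.sum_le_sum fun w hw => ?_
      have hwK : w ∈ S.K := Finset.mem_of_mem_erase (Finset.mem_of_mem_erase hw)
      rw [S.sum_split hp hq hpq]
      have e1 : D w p = D p w := by simp only [D]; rw [S.symm hwK hp]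
      have e2 : D w q = D q w := by simp only [D]; rw [S.symm hwK hq]
      have : 0 ≤ ∑ y ∈ (S.K.erase p).erase q, D w y := Finset.sum_nonneg fun _ _ => hD0 _ _
      linarith
    rw [S.sum_split hp hq hpq, S.sum_split hp hq hpq (D p), S.sum_split hp hq hpq (D q)] at hsum
    have := hD0 p p
    have := hD0 q q
    nlinarith

open Classical in
/-- the states that split `x` and `y` -/
noncomputable def spl (x y : V) : Finset Φ := univ.filter fun X => S.z X x ≠ S.z X y

theorem spl_comm (x y : V) : S.spl x y = S.spl y x := by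
  ext X; simp only [spl, Finset.mem_filter, Finset.mem_univ, true_and, ne_comm]

theorem card_spl_right {x y y' : V} (hx : x ∈ S.K) (hy : y ∈ S.K) (hy' : y' ∈ S.K) (h : x ≠ y)
    (h' : x ≠ y') : (S.spl x y).card = (S.spl x y').card := by
  refine Finset.card_bijective (S.τ y y') (S.invol hy hy').bijective fun X => ?_
  simp only [spl, Finset.mem_filter, Finset.mem_univ, true_and]
  rw [S.hτ y hy y' hy' _ x hx, S.hτ y hy y' hy' _ y' hy', Equiv.swap_apply_right,
    Equiv.swap_apply_of_ne_of_ne h h']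

theorem card_spl {x y x' y' : V} (hx : x ∈ S.K) (hy : y ∈ S.K) (hx' : x' ∈ S.K) (hy' : y' ∈ S.K)
    (h : x ≠ y) (h' : x' ≠ y') : (S.spl x y).card = (S.spl x' y').card := by
  by_cases e : x = y'
  · subst e
    rw [S.card_spl_right hx hy hx' h h'.symm, S.spl_comm]
  · rw [S.card_spl_right hx hy hy' h e, S.spl_comm, S.card_spl_right hy' hx hx' (Ne.symm e) h'.symm,
      S.spl_comm]

/-- 0/1 value -/
def ξ (X : Φ) (w : V) : ℝ := if S.z X w = true then 1 else 0

theorem sum_ξ (X : Φ) : ∑ w ∈ S.K, S.ξ X w = S.a := by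
  simp only [ξ]
  rw [Finset.sum_boole, S.cnt]

theorem deg1 {δ : ℝ} (hδ : ∀ x ∈ S.K, ∀ y ∈ S.K, x ≠ y → ((S.spl x y).card : ℝ) = δ)
    (c : V → ℝ) (hc : ∑ w ∈ S.K, c w = 0) :
    ∑ X, (∑ w ∈ S.K, c w * S.ξ X w) ^ 2 = δ / 2 * ∑ w ∈ S.K, c w ^ 2 := by
  classical
  have h1 : ∀ X, (∑ w ∈ S.K, c w * S.ξ X w) ^ 2 =
      ∑ x ∈ S.K, ∑ y ∈ S.K, (-1 / 2) * (c x * c y) * (S.ξ X x - S.ξ X y) ^ 2 := by
    intro X
    have e : ∀ x y, (-1 / 2) * (c x * c y) * (S.ξ X x - S.ξ X y) ^ 2 =
        (c x * S.ξ X x) * (c y * S.ξ X y) - (1 / 2) * (c x * S.ξ X x ^ 2) * c y -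
          (1 / 2) * c x * (c y * S.ξ X y ^ 2) := by intro x y; ring
    simp only [e, Finset.sum_sub_distrib, ← Finset.mul_sum, ← Finset.sum_mul, hc]
    ring
  have h2 : ∀ x ∈ S.K, ∀ y ∈ S.K, ∑ X, (S.ξ X x - S.ξ X y) ^ 2 = δ - if x = y then δ else 0 := by
    intro x hx y hy
    by_cases h : x = y
    · simp [h]
    · rw [if_neg h, sub_zero, ← hδ x hx y hy h, spl, Finset.card_filter]
      push_cast
      refine Finset.sum_congr rfl fun X _ => ?_
      simp only [ξ]
      cases S.z X x <;> cases S.z X y <;> simp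
  simp only [h1]
  rw [Finset.sum_comm]
  have h3 : ∀ x ∈ S.K, ∑ X, ∑ y ∈ S.K, (-1 / 2) * (c x * c y) * (S.ξ X x - S.ξ X y) ^ 2 =
      δ / 2 * c x ^ 2 := by
    intro x hx
    rw [Finset.sum_comm]
    simp only [← Finset.mul_sum]
    rw [Finset.sum_congr rfl fun y hy => by rw [h2 x hx y hy]]
    have e : ∀ y, (-1 / 2) * (c x * c y) * (δ - if x = y then δ else 0) =
        (-1 / 2 * c x * δ) * c y + if x = y then δ / 2 * c x ^ 2 else 0 := by
      intro y; split_ifs with h
      · subst h; ring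
      · ring
    simp only [e, Finset.sum_add_distrib, ← Finset.mul_sum, hc, Finset.sum_ite_eq, hx, if_true]
    ring
  rw [Finset.sum_congr rfl h3, Finset.mul_sum]

theorem dual {δ : ℝ} (hδ : ∀ x ∈ S.K, ∀ y ∈ S.K, x ≠ y → ((S.spl x y).card : ℝ) = δ) (hδ0 : 0 ≤ δ)
    (c : V → ℝ) (hc : ∑ w ∈ S.K, c w = 0) (f g : Φ → ℝ) (hg : ∀ X, g X ^ 2 = f X ^ 2)
    (h : ∑ w ∈ S.K, c w ^ 2 = ∑ X, g X * ∑ w ∈ S.K, c w * S.ξ X w) :
    ∑ w ∈ S.K, c w ^ 2 ≤ δ / 2 * ∑ X, f X ^ 2 := by
  have cs := Finset.sum_mul_sq_le_sq_mul_sq univ g (fun X => ∑ w ∈ S.K, c w * S.ξ X w)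
  rw [← h, S.deg1 hδ c hc] at cs
  simp only [hg] at cs
  set A := ∑ w ∈ S.K, c w ^ 2
  set B := ∑ X, f X ^ 2
  have hA : 0 ≤ A := Finset.sum_nonneg fun _ _ => sq_nonneg _
  have hB : 0 ≤ B := Finset.sum_nonneg fun _ _ => sq_nonneg _
  rcases hA.eq_or_lt with h0 | h0
  · rw [← h0]; positivity
  · have : A * A ≤ (δ / 2 * B) * A := by nlinarith
    exact le_of_mul_le_mul_right this h0

/-- the degree-two bound -/
theorem deg2 (f : Φ → ℝ) (hf : ∑ X, f X = 0) :
    ∑ x ∈ S.K, ∑ y ∈ S.K, (∑ X ∈ S.spl x y, f X) ^ 2 / (S.spl x y).card ≤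
      S.K.card * ∑ X, f X ^ 2 := by
  classical
  have hB : 0 ≤ ∑ X, f X ^ 2 := Finset.sum_nonneg fun _ _ => sq_nonneg _
  by_cases hex : ∃ x ∈ S.K, ∃ y ∈ S.K, (S.spl x y).Nonempty
  swap
  · push Not at hex
    rw [Finset.sum_eq_zero]
    · positivity
    intro x hx
    refine Finset.sum_eq_zero fun y hy => ?_
    rw [hex x hx y hy]; simp
  obtain ⟨x0, hx0, y0, hy0, X0, hX0⟩ := hex
  have hz0 : S.z X0 x0 ≠ S.z X0 y0 := by simpa [spl] using hX0
  have hxy0 : x0 ≠ y0 := by rintro rfl; exact hz0 rfl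
  set δ : ℝ := ((S.spl x0 y0).card : ℝ) with hδdef
  have hδ : ∀ x ∈ S.K, ∀ y ∈ S.K, x ≠ y → ((S.spl x y).card : ℝ) = δ := fun x hx y hy h => by
    rw [hδdef, S.card_spl hx hy hx0 hy0 h hxy0]
  have hδ0 : 0 < δ := by rw [hδdef]; exact_mod_cast Finset.card_pos.2 ⟨X0, hX0⟩
  set k : ℝ := (S.K.card : ℝ) with hk
  set a : ℝ := (S.a : ℝ) with ha
  have ha1 : 1 ≤ a ∧ a + 1 ≤ k := by
    have h1 := S.sum_ξ X0
    rw [S.sum_split hx0 hy0 hxy0] at h1
    have h2 := S.sum_split hx0 hy0 hxy0 (fun _ => 1)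
    have h3 : S.ξ X0 x0 + S.ξ X0 y0 = 1 := by
      simp only [ξ]; revert hz0; cases S.z X0 x0 <;> cases S.z X0 y0 <;> simp
    have h4 : 0 ≤ ∑ w ∈ (S.K.erase x0).erase y0, S.ξ X0 w :=
      Finset.sum_nonneg fun w _ => by simp only [ξ]; split_ifs <;> norm_num
    have h5 : ∑ w ∈ (S.K.erase x0).erase y0, S.ξ X0 w ≤ ∑ w ∈ (S.K.erase x0).erase y0, (1 : ℝ) :=
      Finset.sum_le_sum fun w _ => by simp only [ξ]; split_ifs <;> norm_num
    simp only [Finset.sum_const, nsmul_eq_mul, mul_one] at h2 h5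
    constructor <;> linarith
  let c : V → V → ℝ := fun x y => ∑ X ∈ S.spl x y, f X
  let μ : V → ℝ := fun x => ∑ X, f X * S.ξ X x
  have hcx : ∀ x y, c x y = ∑ X, f X * (S.ξ X x + (1 - 2 * S.ξ X x) * S.ξ X y) := by
    intro x y
    simp only [c, spl, Finset.sum_filter]
    refine Finset.sum_congr rfl fun X _ => ?_
    simp only [ξ]
    cases S.z X x <;> cases S.z X y <;> norm_num
  have hcxx : ∀ x, c x x = 0 := by intro x; simp [c, spl]
  have hμ0 : ∑ x ∈ S.K, μ x = 0 := by
    simp only [μ]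
    rw [Finset.sum_comm]
    simp only [← Finset.mul_sum, S.sum_ξ, ← Finset.sum_mul, hf, zero_mul]
  have hμ : ∑ x ∈ S.K, μ x ^ 2 ≤ δ / 2 * ∑ X, f X ^ 2 := by
    refine S.dual hδ hδ0.le μ hμ0 f f (fun _ => rfl) ?_
    simp only [Finset.mul_sum]
    rw [Finset.sum_comm]
    refine Finset.sum_congr rfl fun x _ => ?_
    rw [sq]
    conv_lhs => rw [show μ x * μ x = μ x * ∑ X, f X * S.ξ X x from rfl, Finset.mul_sum]
    exact Finset.sum_congr rfl fun X _ => by ring
  have hrow : ∀ x, ∑ y ∈ S.K, c x y = (k - 2 * a) * μ x := by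
    intro x
    simp only [hcx]
    rw [Finset.sum_comm]
    simp only [← Finset.mul_sum, Finset.sum_add_distrib, S.sum_ξ, Finset.sum_const, nsmul_eq_mul]
    have : ∀ X, f X * (k * S.ξ X x + (1 - 2 * S.ξ X x) * a) =
        (k - 2 * a) * (f X * S.ξ X x) + a * f X := by intro X; ring
    simp only [← hk, ← ha, this, Finset.sum_add_distrib, ← Finset.mul_sum, hf, μ]
    ring
  have hk1 : 0 < k - 1 := by linarith
  have hx : ∀ x ∈ S.K, ∑ y ∈ S.K, c x y ^ 2 ≤
      δ / 2 * ∑ X, f X ^ 2 + (k - 2 * a) ^ 2 / (k - 1) * μ x ^ 2 := by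
    intro x hx
    set m := (k - 2 * a) * μ x / (k - 1) with hm
    let e : V → ℝ := fun y => if y = x then 0 else c x y - m
    have he : ∀ y, e y = c x y - m + if y = x then m else 0 := by
      intro y; simp only [e]; split_ifs with h
      · rw [h, hcxx]; ring
      · ring
    have he0 : ∑ y ∈ S.K, e y = 0 := by
      simp only [he, Finset.sum_add_distrib, Finset.sum_sub_distrib, hrow, Finset.sum_const,
        nsmul_eq_mul, Finset.sum_ite_eq', hx, if_true, ← hk]
      rw [hm]; field_simp; ring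
    have hee : ∑ y ∈ S.K, e y ^ 2 = ∑ y ∈ S.K, e y * c x y := by
      have : ∀ y, e y ^ 2 = e y * c x y - m * e y := by
        intro y; simp only [e]; split_ifs <;> ring
      simp only [this, Finset.sum_sub_distrib, ← Finset.mul_sum, he0]; ring
    have h1 : ∑ y ∈ S.K, e y ^ 2 ≤ δ / 2 * ∑ X, f X ^ 2 := by
      refine S.dual hδ hδ0.le e he0 f (fun X => f X * (1 - 2 * S.ξ X x)) (fun X => ?_) ?_
      · simp only [ξ]; split_ifs <;> ring
      rw [hee]
      simp only [hcx, Finset.mul_sum]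
      rw [Finset.sum_comm]
      refine Finset.sum_congr rfl fun X _ => ?_
      have : ∀ y, e y * (f X * (S.ξ X x + (1 - 2 * S.ξ X x) * S.ξ X y)) =
          (f X * S.ξ X x) * e y + f X * (1 - 2 * S.ξ X x) * (e y * S.ξ X y) := by intro y; ring
      simp only [this, Finset.sum_add_distrib, ← Finset.mul_sum, he0]
      ring
    have h2 : ∑ y ∈ S.K, c x y ^ 2 = ∑ y ∈ S.K, e y ^ 2 + m * ∑ y ∈ S.K, c x y := by
      rw [hee, Finset.mul_sum, ← Finset.sum_add_distrib]
      refine Finset.sum_congr rfl fun y _ => ?_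
      simp only [e]; split_ifs with h
      · rw [h, hcxx]; ring
      · ring
    rw [h2, hrow]
    have : m * ((k - 2 * a) * μ x) = (k - 2 * a) ^ 2 / (k - 1) * μ x ^ 2 := by
      rw [hm]; field_simp
    linarith
  have htot : ∑ x ∈ S.K, ∑ y ∈ S.K, c x y ^ 2 ≤ δ * (k * ∑ X, f X ^ 2) := by
    refine (Finset.sum_le_sum hx).trans ?_
    rw [Finset.sum_add_distrib, ← Finset.mul_sum, ← Finset.mul_sum]
    simp only [Finset.sum_const, nsmul_eq_mul, ← hk]
    have h1 : (k - 2 * a) ^ 2 / (k - 1) ≤ k := by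
      rw [div_le_iff₀ hk1]; nlinarith [ha1.1, ha1.2]
    have h2 : 0 ≤ ∑ x ∈ S.K, μ x ^ 2 := Finset.sum_nonneg fun _ _ => sq_nonneg _
    have h3 : (k - 2 * a) ^ 2 / (k - 1) * ∑ x ∈ S.K, μ x ^ 2 ≤ k * (δ / 2 * ∑ X, f X ^ 2) :=
      mul_le_mul h1 hμ h2 (by linarith)
    nlinarith
  have : ∑ x ∈ S.K, ∑ y ∈ S.K, (∑ X ∈ S.spl x y, f X) ^ 2 / (S.spl x y).card =
      (∑ x ∈ S.K, ∑ y ∈ S.K, c x y ^ 2) / δ := by
    rw [Finset.sum_div]
    refine Finset.sum_congr rfl fun x hx => ?_
    rw [Finset.sum_div]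
    refine Finset.sum_congr rfl fun y hy => ?_
    by_cases h : x = y
    · subst h
      have := hcxx x
      simp only [c] at this ⊢
      rw [this]; simp
    · rw [hδ x hx y hy h]
  rw [this, div_le_iff₀ hδ0]
  linarith

end Slice

end Crest.Agent.R299
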