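import Mathlib
import Crest.Agent.R299.Slice

/-! The three-row inequality for 0/1 matrices with fixed margins. -/

set_option autoImplicit false
set_option linter.unusedSectionVars false
open Finset

namespace Crest.Agent.R299

/-- integer value of a Boolean -/
def bv (b : Bool) : ℤ := if b then 1 else 0

@[simp] theorem bv_true : bv true = 1 := rfl
@[simp] theorem bv_false : bv false = 0 := rfl

theorem dc {Ω C : Type*} (Φ Q : Finset Ω) (Z Z' : Ω → Finset C) (a b : ℕ) (hb : 0 < b)
    (F : C → Ω → Ω) (hF : ∀ z, Function.Involutive (F z)) (hΦ : Φ.Nonempty)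
    (ha : ∀ N ∈ Φ, (Z N).card = a) (hb' : ∀ N ∈ Q, (Z' N).card = b)
    (h1 : ∀ N ∈ Φ, ∀ z ∈ Z N, F z N ∈ Q ∧ z ∈ Z' (F z N))
    (h2 : ∀ N ∈ Q, ∀ z ∈ Z' N, F z N ∈ Φ ∧ z ∈ Z (F z N))
    (ψ : Ω → ℝ) (l : ℝ) (hψ : ∀ N ∈ Φ, ∀ z ∈ Z N, ψ (F z N) ≤ ψ N + l) :
    ∑ N ∈ Q, ψ N ≤ Q.card * ((∑ N ∈ Φ, ψ N) / Φ.card + l) := by
  have key : ∀ G : Ω → ℝ, ∑ N ∈ Φ, ∑ z ∈ Z N, G (F z N) = b * ∑ N ∈ Q, G N := by
    intro G
    have : b * ∑ N ∈ Q, G N = ∑ N ∈ Q, ∑ z ∈ Z' N, G N := by
      rw [Finset.mul_sum]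
      refine Finset.sum_congr rfl fun N hN => ?_
      rw [Finset.sum_const, hb' N hN, nsmul_eq_mul]
    rw [this, Finset.sum_sigma', Finset.sum_sigma']
    refine Finset.sum_bij' (fun p _ => ⟨F p.2 p.1, p.2⟩) (fun p _ => ⟨F p.2 p.1, p.2⟩) ?_ ?_ ?_ ?_
      (fun _ _ => rfl)
    · rintro ⟨N, z⟩ hp
      simp only [Finset.mem_sigma] at hp ⊢
      exact h1 N hp.1 z hp.2
    · rintro ⟨N, z⟩ hp
      simp only [Finset.mem_sigma] at hp ⊢
      exact h2 N hp.1 z hp.2
    · rintro ⟨N, z⟩ _; simp [hF z N]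
    · rintro ⟨N, z⟩ _; simp [hF z N]
  have k1 := key ψ
  have k2 := key (fun _ => 1)
  have k3 : ∑ N ∈ Φ, ∑ z ∈ Z N, ψ (F z N) ≤ ∑ N ∈ Φ, a * (ψ N + l) := by
    refine Finset.sum_le_sum fun N hN => ?_
    rw [← ha N hN, ← nsmul_eq_mul, ← Finset.sum_const]
    exact Finset.sum_le_sum fun z hz => hψ N hN z hz
  have k4 : ∑ N ∈ Φ, ∑ z ∈ Z N, (1 : ℝ) = a * Φ.card := by
    rw [Finset.sum_congr rfl (g := fun _ => (a : ℝ)) fun N hN => by simp [ha N hN]]
    simp [mul_comm]
  rw [k4] at k2
  simp only [Finset.sum_const, nsmul_eq_mul, mul_one] at k2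
  rw [k1, ← Finset.mul_sum, Finset.sum_add_distrib, Finset.sum_const, nsmul_eq_mul] at k3
  have hΦ' : (0 : ℝ) < Φ.card := by exact_mod_cast hΦ.card_pos
  have hb0 : (0 : ℝ) < b := by exact_mod_cast hb
  refine le_of_mul_le_mul_left ?_ hb0
  refine k3.trans (le_of_eq ?_)
  rw [← mul_assoc, ← k2]
  field_simp

variable {C : Type*} [Fintype C] [DecidableEq C]

/-- three-row matrices -/
abbrev Mat (C : Type*) := Fin 3 → C → Bool

def rowsum (M : Mat C) (i : Fin 3) : ℤ := ∑ c, bv (M i c)
def colsum (M : Mat C) (c : C) : ℤ := ∑ i, bv (M i c)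
def r0 (M N : Mat C) : Prop := (∀ i, rowsum M i = rowsum N i) ∧ ∀ c, colsum M c = colsum N c
def rr (i : Fin 3) (M N : Mat C) : Prop := r0 M N ∧ M i = N i

theorem r0_equiv : Equivalence (r0 (C := C)) :=
  ⟨fun _ => ⟨fun _ => rfl, fun _ => rfl⟩, fun h => ⟨fun i => (h.1 i).symm, fun c => (h.2 c).symm⟩,
    fun h h' => ⟨fun i => (h.1 i).trans (h'.1 i), fun c => (h.2 c).trans (h'.2 c)⟩⟩

theorem rr_equiv (i : Fin 3) : Equivalence (rr (C := C) i) :=
  ⟨fun M => ⟨r0_equiv.refl M, rfl⟩, fun h => ⟨r0_equiv.symm h.1, h.2.symm⟩,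
    fun h h' => ⟨r0_equiv.trans h.1 h'.1, h.2.trans h'.2⟩⟩

theorem sum3 {α : Type*} [AddCommMonoid α] {i j k : Fin 3} (hij : i ≠ j) (hik : i ≠ k) (hjk : j ≠ k)
    (φ : Fin 3 → α) : ∑ t, φ t = φ i + φ j + φ k := by
  have : (univ : Finset (Fin 3)) = {i, j, k} := by
    revert i j k; decide
  rw [this, Finset.sum_insert (by simp [hij, hik]), Finset.sum_pair hjk, add_assoc]

theorem cases3 {i j k : Fin 3} (hij : i ≠ j) (hik : i ≠ k) (hjk : j ≠ k) (t : Fin 3) :
    t = i ∨ t = j ∨ t = k := by revert i j k t; decide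

theorem exists3 (k : Fin 3) : ∃ i j : Fin 3, i ≠ j ∧ i ≠ k ∧ j ≠ k := by revert k; decide

theorem sum_bv_swap (ρ : C → Bool) (a b : C) : ∑ c, bv (ρ (Equiv.swap a b c)) = ∑ c, bv (ρ c) :=
  Equiv.sum_comp (Equiv.swap a b) (fun c => bv (ρ c))

/-- column swap -/
def cs (a b : C) (M : Mat C) : Mat C := fun i c => M i (Equiv.swap a b c)

theorem cs_invol (a b : C) : Function.Involutive (cs a b) := by
  intro M; ext i c; simp [cs]

theorem rowsum_cs (a b : C) (M : Mat C) (i : Fin 3) : rowsum (cs a b M) i = rowsum M i :=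
  sum_bv_swap _ _ _

theorem colsum_cs (a b : C) (M : Mat C) (c : C) :
    colsum (cs a b M) c = colsum M (Equiv.swap a b c) := rfl

theorem r0_cs {a b : C} {M : Mat C} (h : colsum M a = colsum M b) : r0 M (cs a b M) := by
  refine ⟨fun i => (rowsum_cs a b M i).symm, fun c => ?_⟩
  rw [colsum_cs, Equiv.swap_apply_def]
  split_ifs with h1 h2
  · rw [h1, h]
  · rw [h2, h]
  · rfl

theorem rr_cs (a b : C) (i : Fin 3) (M N : Mat C) (h : rr i M N) : rr i (cs a b M) (cs a b N) := by
  refine ⟨⟨fun t => ?_, fun c => ?_⟩, ?_⟩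
  · rw [rowsum_cs, rowsum_cs, h.1.1]
  · rw [colsum_cs, colsum_cs, h.1.2]
  · ext c; simp only [cs]; rw [h.2]

theorem comp_swap_eq {ρ : C → Bool} {a b : C} (h : ρ a = ρ b) :
    (fun c => ρ (Equiv.swap a b c)) = ρ := by
  ext c
  rw [Equiv.swap_apply_def]
  split_ifs with h1 h2
  · rw [h1, h]
  · rw [h2, h]
  · rfl

/-- single move in row `t` -/
def Mv (t : Fin 3) (N N' : Mat C) : Prop := ∃ a b, N' t = fun c => N t (Equiv.swap a b c)
/-- single same-type move in row `t` -/
def Sm (t : Fin 3) (N N' : Mat C) : Prop :=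
  ∃ a b, colsum N a = colsum N b ∧ N' t = fun c => N t (Equiv.swap a b c)

theorem Mv.symm {t : Fin 3} {N N' : Mat C} (h : Mv t N N') : Mv t N' N := by
  obtain ⟨a, b, h⟩ := h
  exact ⟨a, b, by rw [h]; ext c; simp⟩

section
variable {i j k : Fin 3} (hij : i ≠ j) (hik : i ≠ k) (hjk : j ≠ k)
include hij hik hjk

theorem colsum3 (M : Mat C) (c : C) : colsum M c = bv (M i c) + bv (M j c) + bv (M k c) :=
  sum3 hij hik hjk _

theorem cnt_eq (N : Mat C) :
    ((univ.filter fun z => N i z = true ∧ N j z = false).card : ℤ) =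
      rowsum N i - (univ.filter fun z => colsum N z - bv (N k z) = 2).card := by
  rw [rowsum, Finset.card_filter, Finset.card_filter]
  push_cast
  rw [← Finset.sum_sub_distrib]
  refine Finset.sum_congr rfl fun z _ => ?_
  rw [colsum3 hij hik hjk]
  cases N i z <;> cases N j z <;> cases N k z <;> simp

theorem cnt_congr {M N : Mat C} (h : rr k M N) :
    (univ.filter fun z => M i z = true ∧ M j z = false).card =
      (univ.filter fun z => N i z = true ∧ N j z = false).card := by
  have h1 := cnt_eq hij hik hjk M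
  have h2 := cnt_eq hij hik hjk N
  rw [h.1.1, h.2] at h1
  simp only [h.1.2] at h1
  exact_mod_cast h1.trans h2.symm

/-- the local modification -/
def op (i j : Fin 3) (c c' z : C) (N : Mat C) : Mat C := fun t w =>
  if t = i then N i (Equiv.swap z c w) else if t = j then N j (Equiv.swap c' z w)
  else N t (Equiv.swap c c' w)

omit hij hik hjk in
theorem op_i (c c' z : C) (N : Mat C) : op i j c c' z N i = fun w => N i (Equiv.swap z c w) := by
  ext w; simp [op]

omit hik hjk in
theorem op_j (c c' z : C) (N : Mat C) : op i j c c' z N j = fun w => N j (Equiv.swap c' z w) := by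
  ext w; simp [op, hij.symm]

omit hij in
theorem op_k (c c' z : C) (N : Mat C) : op i j c c' z N k = fun w => N k (Equiv.swap c c' w) := by
  ext w; simp [op, hik.symm, hjk.symm]

theorem op_invol (c c' z : C) : Function.Involutive (op i j c c' z) := by
  intro N
  ext t w
  rcases cases3 hij hik hjk t with rfl | rfl | rfl
  · simp [op_i]
  · simp [op_j hij]
  · simp [op_k hik hjk]

theorem rowsum_op (c c' z : C) (N : Mat C) (t : Fin 3) :
    rowsum N t = rowsum (op i j c c' z N) t := by
  rcases cases3 hij hik hjk t with rfl | rfl | rfl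
  · simp only [rowsum, op_i, sum_bv_swap]
  · simp only [rowsum, op_j hij, sum_bv_swap]
  · simp only [rowsum, op_k hik hjk, sum_bv_swap]

theorem r0_op1 {c c' : C} (hc : c ≠ c') {N : Mat C}
    (h : bv (N i c') + bv (N k c') = bv (N i c) + bv (N k c)) : r0 N (op i j c c' c' N) := by
  refine ⟨rowsum_op hij hik hjk c c' c' N, fun w => ?_⟩
  rw [colsum3 hij hik hjk, colsum3 hij hik hjk, op_i, op_j hij, op_k hik hjk]
  by_cases h1 : w = c
  · subst h1; simp; linarith
  by_cases h2 : w = c'
  · subst h2; simp; linarith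
  simp [Equiv.swap_apply_of_ne_of_ne h1 h2, Equiv.swap_apply_of_ne_of_ne h2 h1]

theorem r0_op2 {c c' z : C} (hc : c ≠ c') (hz : z ≠ c) (hz' : z ≠ c') {N : Mat C}
    (h : bv (N i z) + bv (N k c') = bv (N i c) + bv (N k c))
    (h' : bv (N j z) + bv (N k c) = bv (N j c') + bv (N k c'))
    (h'' : bv (N i c) + bv (N j c') = bv (N i z) + bv (N j z)) : r0 N (op i j c c' z N) := by
  refine ⟨rowsum_op hij hik hjk c c' z N, fun w => ?_⟩
  rw [colsum3 hij hik hjk, colsum3 hij hik hjk, op_i, op_j hij, op_k hik hjk]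
  by_cases h1 : w = c
  · subst h1; simp [Equiv.swap_apply_of_ne_of_ne hc hz.symm]; linarith
  by_cases h2 : w = c'
  · subst h2; simp [Equiv.swap_apply_of_ne_of_ne hz'.symm hc.symm]; linarith
  by_cases h3 : w = z
  · subst h3; simp [Equiv.swap_apply_of_ne_of_ne h1 h2]; linarith
  simp [Equiv.swap_apply_of_ne_of_ne h1 h2, Equiv.swap_apply_of_ne_of_ne h3 h1,
    Equiv.swap_apply_of_ne_of_ne h2 h3]

theorem part_bound {A B : Mat C} (hAB : r0 A B) {c c' : C} (hA : A k c = true)
    (hA' : A k c' = false) (hB : B k = fun w => A k (Equiv.swap c c' w)) (hs : colsum A c = 1)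
    (hs' : colsum A c' = 2) (ψ : Mat C → ℝ) (l : ℝ)
    (hψ : ∀ N N', r0 N N' → (Mv i N N' ∧ Sm j N N' ∨ Sm i N N' ∧ Mv j N N') → ψ N' ≤ ψ N + l)
    (β : Bool) :
    ∑ N ∈ (cls (rr k) B).filter (fun N => N i c = true ∧ N i c' = β), ψ N ≤
      ((cls (rr k) B).filter (fun N => N i c = true ∧ N i c' = β)).card * (P (rr k) ψ A + l) := by
  have hc : c ≠ c' := by rintro rfl; simp [hA] at hA'
  have hBc : B k c = false := by rw [hB]; simp [hA']
  have hBc' : B k c' = true := by rw [hB]; simp [hA]
  have fA : ∀ N, rr k A N → N i c = false ∧ N j c = false ∧ N i c' = true ∧ N j c' = true ∧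
      N k c = true ∧ N k c' = false := by
    intro N hN
    have e1 := hN.1.2 c
    have e2 := hN.1.2 c'
    rw [hs, colsum3 hij hik hjk, ← hN.2, hA] at e1
    rw [hs', colsum3 hij hik hjk, ← hN.2, hA'] at e2
    rw [← hN.2, hA, hA']
    revert e1 e2
    cases N i c <;> cases N j c <;> cases N i c' <;> cases N j c' <;> simp
  have fB : ∀ N, rr k B N → N j c = !N i c ∧ N j c' = !N i c' ∧
      N k c = false ∧ N k c' = true := by
    intro N hN
    have e1 := hN.1.2 c
    have e2 := hN.1.2 c'
    rw [← hAB.2, hs, colsum3 hij hik hjk, ← hN.2, hBc] at e1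
    rw [← hAB.2, hs', colsum3 hij hik hjk, ← hN.2, hBc'] at e2
    rw [← hN.2, hBc, hBc']
    revert e1 e2
    cases N i c <;> cases N j c <;> cases N i c' <;> cases N j c' <;> simp
  have toB : ∀ N z, rr k A N → r0 N (op i j c c' z N) → rr k B (op i j c c' z N) := by
    intro N z hN h
    refine ⟨r0_equiv.trans (r0_equiv.symm hAB) (r0_equiv.trans hN.1 h), ?_⟩
    rw [op_k hik hjk, hB, hN.2]
  have toA : ∀ N z, rr k B N → r0 N (op i j c c' z N) → rr k A (op i j c c' z N) := by
    intro N z hN h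
    refine ⟨r0_equiv.trans hAB (r0_equiv.trans hN.1 h), ?_⟩
    rw [op_k hik hjk, ← hN.2, hB]; ext w; simp
  have hne : (cls (rr k) A).Nonempty := ⟨A, mem_cls.2 ((rr_equiv k).refl A)⟩
  rw [P_apply]
  cases β
  · refine dc _ _ (fun _ => {c'}) (fun _ => {c'}) 1 1 one_pos (fun z => op i j c c' z)
      (fun z => op_invol hij hik hjk c c' z) hne (fun _ _ => rfl) (fun _ _ => rfl) ?_ ?_ ψ l ?_
    · intro N hN z hz
      rw [Finset.mem_singleton] at hz; subst hz
      obtain ⟨a1, a2, a3, a4, a5, a6⟩ := fA N (mem_cls.1 hN)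
      simp only [Finset.mem_filter, mem_cls, Finset.mem_singleton, and_true]
      refine ⟨toB N _ (mem_cls.1 hN) (r0_op1 hij hik hjk hc (by simp [*])), ?_⟩
      simp [op_i, *]
    · intro N hN z hz
      rw [Finset.mem_singleton] at hz; subst hz
      simp only [Finset.mem_filter, mem_cls] at hN
      obtain ⟨hN, b1, b2⟩ := hN
      obtain ⟨a1, a2, a5, a6⟩ := fB N hN
      simp only [mem_cls, Finset.mem_singleton, and_true]
      exact toA N _ hN (r0_op1 hij hik hjk hc (by simp [*]))
    · intro N hN z hz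
      rw [Finset.mem_singleton] at hz; subst hz
      obtain ⟨a1, a2, a3, a4, a5, a6⟩ := fA N (mem_cls.1 hN)
      exact hψ _ _ (r0_op1 hij hik hjk hc (by simp [*]))
        (Or.inl ⟨⟨_, _, op_i _ _ _ _⟩, ⟨_, _, rfl, op_j hij _ _ _ _⟩⟩)
  · by_cases hQ : ((cls (rr k) B).filter (fun N => N i c = true ∧ N i c' = true)) = ∅
    · rw [hQ]; simp
    obtain ⟨N0, hN0⟩ := Finset.nonempty_iff_ne_empty.2 hQ
    simp only [Finset.mem_filter, mem_cls] at hN0
    have hb : 0 < (univ.filter fun z => B j z = true ∧ B i z = false).card := by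
      have h1 := cnt_eq hij.symm hjk hik B
      have h2 := cnt_eq hij.symm hjk hik A
      have h3 : (univ.filter fun z => colsum B z - bv (B k z) = 2).card <
          (univ.filter fun z => colsum A z - bv (A k z) = 2).card := by
        refine Finset.card_lt_card ⟨fun z hz => ?_, fun hsub => ?_⟩
        · simp only [Finset.mem_filter, Finset.mem_univ, true_and] at hz ⊢
          by_cases h1 : z = c
          · subst h1; rw [← hAB.2, hs, hBc] at hz; simp at hz
          by_cases h2 : z = c'
          · subst h2; rw [hs', hA']; simp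
          rw [← hAB.2, hB] at hz
          simpa [Equiv.swap_apply_of_ne_of_ne h1 h2] using hz
        · have : c' ∈ (univ.filter fun z => colsum A z - bv (A k z) = 2) := by simp [hs', hA']
          have := (Finset.mem_filter.1 (hsub this)).2
          rw [← hAB.2, hs', hBc'] at this; simp at this
      rw [← hAB.1] at h1
      omega
    refine dc _ _ (fun N => univ.filter fun z => N i z = true ∧ N j z = false)
      (fun N => univ.filter fun z => N j z = true ∧ N i z = false) _ _ hb (fun z => op i j c c' z)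
      (fun z => op_invol hij hik hjk c c' z) hne
      (fun N hN => (cnt_congr hij hik hjk (mem_cls.1 hN)).symm)
      (fun N hN => (cnt_congr hij.symm hjk hik (mem_cls.1 (Finset.mem_filter.1 hN).1)).symm)
      ?_ ?_ ψ l ?_
    · intro N hN z hz
      obtain ⟨a1, a2, a3, a4, a5, a6⟩ := fA N (mem_cls.1 hN)
      simp only [Finset.mem_filter, mem_cls, Finset.mem_univ, true_and] at hz ⊢
      obtain ⟨z1, z2⟩ := hz
      have hzc : z ≠ c := by rintro rfl; simp [a1] at z1
      have hzc' : z ≠ c' := by rintro rfl; simp [a4] at z2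
      refine ⟨⟨toB N _ (mem_cls.1 hN) (r0_op2 hij hik hjk hc hzc hzc' (by simp [*]) (by simp [*])
        (by simp [*])), ?_⟩, ?_⟩
      · simp [op_i, Equiv.swap_apply_of_ne_of_ne hzc'.symm hc.symm, *]
      · simp [op_i, op_j hij, *]
    · intro N hN z hz
      simp only [Finset.mem_filter, mem_cls, Finset.mem_univ, true_and] at hN hz ⊢
      obtain ⟨hN, b1, b2⟩ := hN
      obtain ⟨a1, a2, a5, a6⟩ := fB N hN
      obtain ⟨z1, z2⟩ := hz
      have hzc : z ≠ c := by rintro rfl; simp [b1] at z2
      have hzc' : z ≠ c' := by rintro rfl; simp [b2] at z2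
      refine ⟨toA N _ hN (r0_op2 hij hik hjk hc hzc hzc' (by simp [*]) (by simp [*])
        (by simp [*])), ?_⟩
      simp [op_i, op_j hij, *]
    · intro N hN z hz
      obtain ⟨a1, a2, a3, a4, a5, a6⟩ := fA N (mem_cls.1 hN)
      simp only [Finset.mem_filter, Finset.mem_univ, true_and] at hz
      obtain ⟨z1, z2⟩ := hz
      have hzc : z ≠ c := by rintro rfl; simp [a1] at z1
      have hzc' : z ≠ c' := by rintro rfl; simp [a4] at z2
      refine hψ _ _ (r0_op2 hij hik hjk hc hzc hzc' (by simp [*]) (by simp [*]) (by simp [*])) ?_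
      cases hk : N k z
      · refine Or.inr ⟨⟨_, _, ?_, op_i _ _ _ _⟩, ⟨_, _, op_j hij _ _ _ _⟩⟩
        simp [colsum3 hij hik hjk, *]
      · refine Or.inl ⟨⟨_, _, op_i _ _ _ _⟩, ⟨_, _, ?_, op_j hij _ _ _ _⟩⟩
        simp [colsum3 hij hik hjk, *]

theorem cross_bound {A B : Mat C} (hAB : r0 A B) {c c' : C} (hA : A k c = true)
    (hA' : A k c' = false) (hB : B k = fun w => A k (Equiv.swap c c' w)) (hs : colsum A c = 1)
    (hs' : colsum A c' = 2) (ψ : Mat C → ℝ) (l : ℝ)
    (hψ : ∀ N N', r0 N N' → (Mv i N N' ∧ Sm j N N' ∨ Sm i N N' ∧ Mv j N N') → ψ N' ≤ ψ N + l) :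
    P (rr k) ψ B ≤ P (rr k) ψ A + l := by
  have p1 := part_bound hij hik hjk hAB hA hA' hB hs hs' ψ l hψ
  have p2 := part_bound hij.symm hjk hik hAB hA hA' hB hs hs' ψ l
    (fun N N' h h' => hψ N N' h (by tauto))
  have hBc : B k c = false := by rw [hB]; simp [hA']
  have split : ∀ F : Mat C → ℝ, ∑ N ∈ cls (rr k) B, F N =
      ∑ N ∈ (cls (rr k) B).filter (fun N => N i c = true ∧ N i c' = true), F N +
      ∑ N ∈ (cls (rr k) B).filter (fun N => N i c = true ∧ N i c' = false), F N +
      ∑ N ∈ (cls (rr k) B).filter (fun N => N j c = true ∧ N j c' = true), F N +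
      ∑ N ∈ (cls (rr k) B).filter (fun N => N j c = true ∧ N j c' = false), F N := by
    intro F
    simp only [Finset.sum_filter, ← Finset.sum_add_distrib]
    refine Finset.sum_congr rfl fun N hN => ?_
    have hN := mem_cls.1 hN
    have e1 := hN.1.2 c
    rw [← hAB.2, hs, colsum3 hij hik hjk, ← hN.2, hBc] at e1
    revert e1
    cases N i c <;> cases N j c <;> cases N i c' <;> cases N j c' <;> simp
  rw [P_apply (rr k) ψ B, div_le_iff₀ (card_cls_pos (rr_equiv k) B), split ψ]
  have := split (fun _ => 1)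
  simp only [Finset.sum_const, nsmul_eq_mul, mul_one] at this
  rw [this]
  have := p1 true; have := p1 false; have := p2 true; have := p2 false
  linarith

theorem conn_rows {α : Type*} (g : Mat C → α) (hg : ∀ M N, r0 M N → Mv i M N → g N = g M)
    {X Y : Mat C} (h : rr k X Y) : g Y = g X := by
  classical
  let K : Finset C := univ.filter fun w => X i w ≠ X j w
  have hK : ∀ N, rr k X N → ∀ w, (w ∈ K → N j w = !N i w) ∧
      (w ∉ K → N i w = X i w ∧ N j w = X i w) := by
    intro N hN w
    have e := hN.1.2 w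
    rw [colsum3 hij hik hjk, colsum3 hij hik hjk, hN.2] at e
    simp only [K, Finset.mem_filter, Finset.mem_univ, true_and]
    revert e
    cases N i w <;> cases N j w <;> cases X i w <;> cases X j w <;> cases N k w <;> simp
  let sw : C → C → Mat C → Mat C := fun x y N t w => if t = k then N k w else N t (Equiv.swap x y w)
  have swi : ∀ x y N, sw x y N i = fun w => N i (Equiv.swap x y w) := by
    intro x y N; ext w; simp [sw, hik]
  have swj : ∀ x y N, sw x y N j = fun w => N j (Equiv.swap x y w) := by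
    intro x y N; ext w; simp [sw, hjk]
  have swk : ∀ x y N, sw x y N k = N k := by
    intro x y N; ext w; simp [sw]
  have hsw : ∀ x ∈ K, ∀ y ∈ K, ∀ N, rr k X N → r0 N (sw x y N) := by
    intro x hx y hy N hN
    refine ⟨fun t => ?_, fun w => ?_⟩
    · rcases cases3 hij hik hjk t with rfl | rfl | rfl
      · simp only [rowsum, swi, sum_bv_swap]
      · simp only [rowsum, swj, sum_bv_swap]
      · simp only [rowsum, swk]
    · rw [colsum3 hij hik hjk, colsum3 hij hik hjk, swi, swj, swk]
      have ex := (hK N hN x).1 hx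
      have ey := (hK N hN y).1 hy
      simp only [Equiv.swap_apply_def]
      split_ifs with h1 h2
      · subst h1; rw [ex, ey]; cases N i w <;> cases N i y <;> simp
      · subst h2; rw [ex, ey]; cases N i w <;> cases N i x <;> simp
      · rfl
  let S : Slice {N : Mat C // rr k X N} C :=
    { K := K
      z := fun N w => N.1 i w
      τ := fun x y N => if h : x ∈ K ∧ y ∈ K then
        ⟨sw x y N.1, r0_equiv.trans N.2.1 (hsw x h.1 y h.2 N.1 N.2), by rw [swk]; exact N.2.2⟩
        else N
      a := (univ.filter fun z => X i z = true ∧ X j z = false).card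
      hτ := by
        intro x hx y hy N w _
        simp only [hx, hy, and_self, dif_pos, swi]
      inj := by
        intro N N' h
        refine Subtype.ext (funext fun t => funext fun w => ?_)
        have e1 := hK N.1 N.2 w
        have e2 := hK N'.1 N'.2 w
        rcases cases3 hij hik hjk t with rfl | rfl | rfl
        · by_cases hw : w ∈ K
          · exact h w hw
          · rw [(e1.2 hw).1, (e2.2 hw).1]
        · by_cases hw : w ∈ K
          · rw [e1.1 hw, e2.1 hw, h w hw]
          · rw [(e1.2 hw).2, (e2.2 hw).2]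
        · rw [← N.2.2, ← N'.2.2]
      cnt := by
        intro N
        rw [cnt_congr hij hik hjk N.2]
        congr 1
        ext w
        have e1 := hK N.1 N.2 w
        simp only [Finset.mem_filter, Finset.mem_univ, true_and]
        by_cases hw : w ∈ K
        · rw [e1.1 hw]; simp [hw]
        · rw [(e1.2 hw).1, (e1.2 hw).2]; simp [hw] }
  refine S.conn (fun N => g N.1) ?_ ⟨Y, h⟩ ⟨X, (rr_equiv k).refl X⟩
  intro x hx y hy N
  have hx' : x ∈ K := hx
  have hy' : y ∈ K := hy
  simp only [S, hx', hy', and_self, dif_pos]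
  exact hg _ _ (hsw x hx y hy N.1 N.2) ⟨x, y, swi _ _ _⟩

end

theorem tri_eigen (lam : ℝ) (h2 : 2 < lam) (h3 : lam < 3) (f : Mat C → ℝ)
    (hf : ∑ i, P (rr i) f = lam • f) : f = 0 := by
  classical
  set g : Fin 3 → Mat C → ℝ := fun i => P (rr i) f with hg
  have ginv : ∀ i M N, rr i M N → g i N = g i M := fun i M N h =>
    (P_congr (rr_equiv i) f h).symm
  have geig : ∀ {i j k : Fin 3}, i ≠ j → i ≠ k → j ≠ k → ∀ M,
      P (rr k) (g i + g j) M = (lam - 1) * g k M := by
    intro i j k hij hik hjk M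
    have := congrArg (P (rr k)) hf
    rw [sum3 hij hik hjk, map_add, map_smul, P_idem (rr_equiv k)] at this
    have := congrFun this M
    simp only [Pi.add_apply, Pi.smul_apply, smul_eq_mul] at this
    simp only [hg]
    linarith
  -- same-type moves
  have same : ∀ t M a b, colsum M a = colsum M b → g t (cs a b M) = g t M := by
    by_contra hc
    push Not at hc
    obtain ⟨t0, M0, a0, b0, h0, hne⟩ := hc
    obtain ⟨⟨k, M, a, b⟩, hmem, hmax⟩ := Finset.exists_max_image
      ((univ : Finset (Fin 3 × Mat C × C × C)).filter fun p => colsum p.2.1 p.2.2.1 =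
        colsum p.2.1 p.2.2.2)
      (fun p => g p.1 (cs p.2.2.1 p.2.2.2 p.2.1) - g p.1 p.2.1) ⟨(t0, M0, a0, b0), by simp [h0]⟩
    simp only [Finset.mem_filter, Finset.mem_univ, true_and] at hmem
    set l := g k (cs a b M) - g k M with hl
    have hmax' : ∀ t N x y, colsum N x = colsum N y → g t (cs x y N) - g t N ≤ l :=
      fun t N x y h => hmax (t, N, x, y) (by simp [h])
    have hlpos : 0 < l := by
      have e1 := hmax' t0 M0 a0 b0 h0
      have e2 := hmax' t0 (cs a0 b0 M0) a0 b0 (by simp [colsum_cs, h0])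
      rw [cs_invol] at e2
      rcases lt_or_gt_of_ne hne with h | h <;> linarith
    have hrr : ∀ t N, colsum N a = colsum N b → N t a = N t b → g t (cs a b N) = g t N :=
      fun t N h h' => ginv t _ _ ⟨r0_cs h, (comp_swap_eq h').symm⟩
    have hk : M k a ≠ M k b := by
      intro h; rw [hl, hrr k M hmem h] at hlpos; simp at hlpos
    obtain ⟨i, j, hij, hik, hjk⟩ := exists3 k
    have e1 := geig hij hik hjk (cs a b M)
    have e2 := geig hij hik hjk M
    rw [P_invol (cs_invol a b) (rr_cs a b k)] at e1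
    have e3 : P (rr k) ((fun N => (g i + g j) (cs a b N)) - (g i + g j)) M ≤ l := by
      refine P_le (rr_equiv k) fun N hN => ?_
      have hN' : colsum N a = colsum N b := by rw [← hN.1.2, ← hN.1.2, hmem]
      simp only [Pi.sub_apply, Pi.add_apply]
      have : N i a = N i b ∨ N j a = N j b := by
        have hk' := hk
        rw [hN.2] at hk'
        rw [colsum3 hij hik hjk, colsum3 hij hik hjk] at hN'
        revert hk' hN'
        cases N i a <;> cases N j a <;> cases N k a <;> cases N i b <;> cases N j b <;>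
          cases N k b <;> simp
      rcases this with h | h
      · rw [hrr i N hN' h]; linarith [hmax' j N a b hN']
      · rw [hrr j N hN' h]; linarith [hmax' i N a b hN']
    rw [map_sub, Pi.sub_apply, e1, e2] at e3
    nlinarith
  have hSm : ∀ t N N', r0 N N' → Sm t N N' → g t N' = g t N := by
    rintro t N N' h ⟨a, b, h1, h2⟩
    rw [← same t N a b h1]
    exact ginv t _ _ ⟨r0_equiv.trans (r0_equiv.symm (r0_cs h1)) h, h2.symm⟩
  have cross : ∀ t M N, r0 M N → Mv t M N → g t N = g t M := by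
    by_contra hc
    push Not at hc
    obtain ⟨t0, M0, N0, h0, h0', hne⟩ := hc
    obtain ⟨⟨k, A, B⟩, hmem, hmax⟩ := Finset.exists_max_image
      ((univ : Finset (Fin 3 × Mat C × Mat C)).filter fun p => r0 p.2.1 p.2.2 ∧ Mv p.1 p.2.1 p.2.2)
      (fun p => g p.1 p.2.2 - g p.1 p.2.1) ⟨(t0, M0, N0), by simp [h0, h0']⟩
    simp only [Finset.mem_filter, Finset.mem_univ, true_and] at hmem
    set l := g k B - g k A with hl
    have hmax' : ∀ t N N', r0 N N' → Mv t N N' → g t N' - g t N ≤ l :=
      fun t N N' h h' => hmax (t, N, N') (by simp [h, h'])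
    have hlpos : 0 < l := by
      have e1 := hmax' t0 M0 N0 h0 h0'
      have e2 := hmax' t0 N0 M0 (r0_equiv.symm h0) h0'.symm
      rcases lt_or_gt_of_ne hne with h | h <;> linarith
    obtain ⟨i, j, hij, hik, hjk⟩ := exists3 k
    obtain ⟨hAB, c, c', hB⟩ := hmem
    have hψ1 : ∀ N N', r0 N N' → (Mv i N N' ∧ Sm j N N' ∨ Sm i N N' ∧ Mv j N N') →
        (g i + g j) N' ≤ (g i + g j) N + l := by
      rintro N N' h (⟨h1, h2⟩ | ⟨h1, h2⟩)
      · simp only [Pi.add_apply, hSm j N N' h h2]; linarith [hmax' i N N' h h1]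
      · simp only [Pi.add_apply, hSm i N N' h h1]; linarith [hmax' j N N' h h2]
    have hψ2 : ∀ N N', r0 N N' → (Mv i N N' ∧ Sm j N N' ∨ Sm i N N' ∧ Mv j N N') →
        (-(g i + g j)) N' ≤ (-(g i + g j)) N + l := by
      rintro N N' h (⟨h1, h2⟩ | ⟨h1, h2⟩)
      · simp only [Pi.neg_apply, Pi.add_apply, hSm j N N' h h2]
        linarith [hmax' i N' N (r0_equiv.symm h) h1.symm]
      · simp only [Pi.neg_apply, Pi.add_apply, hSm i N N' h h1]
        linarith [hmax' j N' N (r0_equiv.symm h) h2.symm]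
    have main : ∀ c c', (B k = fun w => A k (Equiv.swap c c' w)) → A k c = true → A k c' = false →
        P (rr k) (g i + g j) B ≤ P (rr k) (g i + g j) A + l := by
      intro c c' hB hA hA'
      have hBc : B k c = false := by rw [hB]; simp [hA']
      have hBc' : B k c' = true := by rw [hB]; simp [hA]
      have hne : colsum A c ≠ colsum A c' := by
        intro h
        rw [hl, hSm k A B hAB ⟨c, c', h, hB⟩] at hlpos; simp at hlpos
      have hcases : colsum A c = 1 ∧ colsum A c' = 2 ∨ colsum A c = 2 ∧ colsum A c' = 1 := by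
        have e1 := hAB.2 c
        have e2 := hAB.2 c'
        simp only [colsum3 hij hik hjk, hA, hA', hBc, hBc'] at e1 e2 hne ⊢
        revert e1 e2 hne
        cases A i c <;> cases A j c <;> cases A i c' <;> cases A j c' <;> cases B i c <;>
          cases B j c <;> cases B i c' <;> cases B j c' <;> simp
      rcases hcases with ⟨s1, s2⟩ | ⟨s1, s2⟩
      · exact cross_bound hij hik hjk hAB hA hA' hB s1 s2 _ l hψ1
      · have := cross_bound hij hik hjk (r0_equiv.symm hAB) hBc' hBc
          (by rw [hB]; ext w; simp [Equiv.swap_comm c']) (by rw [← hAB.2, s2])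
          (by rw [← hAB.2, s1]) _ l hψ2
        rw [map_neg] at this
        simp only [Pi.neg_apply] at this
        linarith
    have hle : P (rr k) (g i + g j) B ≤ P (rr k) (g i + g j) A + l := by
      cases hA : A k c <;> cases hA' : A k c'
      · rw [comp_swap_eq (hA.trans hA'.symm)] at hB
        rw [hl, ginv k A B ⟨hAB, hB.symm⟩] at hlpos; simp at hlpos
      · exact main c' c (by rw [hB, Equiv.swap_comm]) hA' hA
      · exact main c c' hB hA hA'
      · rw [comp_swap_eq (hA.trans hA'.symm)] at hB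
        rw [hl, ginv k A B ⟨hAB, hB.symm⟩] at hlpos; simp at hlpos
    rw [geig hij hik hjk, geig hij hik hjk] at hle
    nlinarith
  have hgf : ∀ k, g k = f := by
    intro k
    obtain ⟨i, j, hij, hik, hjk⟩ := exists3 k
    ext M
    have e1 := geig hij hik hjk M
    rw [P_eq_of_const (rr_equiv k) (c := g i M + g j M) fun N hN => by
      rw [Pi.add_apply, conn_rows hij hik hjk (g i) (cross i) hN,
        conn_rows hij.symm hjk hik (g j) (cross j) hN]] at e1
    have e2 := congrFun hf M
    rw [sum3 hij hik hjk] at e2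
    simp only [Pi.add_apply, Pi.smul_apply, smul_eq_mul] at e2
    have : lam * (g k M - f M) = 0 := by simp only [hg] at e1 ⊢; linarith
    rcases mul_eq_zero.1 this with h | h <;> linarith
  ext M
  have e2 := congrFun hf M
  rw [Fin.sum_univ_three] at e2
  have a0 := congrFun (hgf 0) M
  have a1 := congrFun (hgf 1) M
  have a2 := congrFun (hgf 2) M
  simp only [Pi.add_apply, Pi.smul_apply, smul_eq_mul, hg] at e2 a0 a1 a2
  have : (3 - lam) * f M = 0 := by linarith
  rcases mul_eq_zero.1 this with h | h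
  · linarith
  · simpa using h

theorem inner_h {Ω : Type*} [Fintype Ω] {r : Ω → Ω → Prop} (hr : Equivalence r) (f : Ω → ℝ) :
    ∑ x, f x * (f x - P r f x) = ∑ x, (f x - P r f x) ^ 2 := by
  have h := P_selfadj hr f (P r f)
  rw [P_idem hr] at h
  have : ∀ x, (f x - P r f x) ^ 2 = f x * (f x - P r f x) - f x * P r f x + P r f x * P r f x := by
    intro x; ring
  simp only [this, Finset.sum_add_distrib, Finset.sum_sub_distrib, h]
  ring

/-- the three-row inequality -/
theorem tri (f : Mat C → ℝ) :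
    0 ≤ ∑ M, ((f M - P (rr 0) f M) * (f M - P (rr 1) f M) +
      (f M - P (rr 0) f M) * (f M - P (rr 2) f M) + (f M - P (rr 1) f M) * (f M - P (rr 2) f M)) := by
  have key := spec_nonneg ((3 : ℝ) • LinearMap.id - (P (rr (C := C) 0) + P (rr 1) + P (rr 2))) ?_
    1 (-1) 0 ?_ f
  · simp only [LinearMap.sub_apply, LinearMap.smul_apply, LinearMap.id_apply, LinearMap.add_apply,
      Pi.sub_apply, Pi.add_apply, Pi.smul_apply, smul_eq_mul] at key
    have a0 := inner_h (rr_equiv 0) f
    have a1 := inner_h (rr_equiv 1) f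
    have a2 := inner_h (rr_equiv 2) f
    have e1 : ∑ M, f M * (3 * f M - (P (rr 0) f M + P (rr 1) f M + P (rr 2) f M)) =
        ∑ M, f M * (f M - P (rr 0) f M) + ∑ M, f M * (f M - P (rr 1) f M) +
          ∑ M, f M * (f M - P (rr 2) f M) := by
      simp only [← Finset.sum_add_distrib]
      exact Finset.sum_congr rfl fun _ _ => by ring
    have e2 : ∑ M, (3 * f M - (P (rr 0) f M + P (rr 1) f M + P (rr 2) f M)) ^ 2 =
        ∑ M, (f M - P (rr 0) f M) ^ 2 + ∑ M, (f M - P (rr 1) f M) ^ 2 +
          ∑ M, (f M - P (rr 2) f M) ^ 2 + 2 * ∑ M, ((f M - P (rr 0) f M) * (f M - P (rr 1) f M) +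
      (f M - P (rr 0) f M) * (f M - P (rr 2) f M) + (f M - P (rr 1) f M) * (f M - P (rr 2) f M)) := by
      simp only [Finset.mul_sum, ← Finset.sum_add_distrib]
      exact Finset.sum_congr rfl fun _ _ => by ring
    rw [e1, e2, a0, a1, a2] at key
    linarith
  · intro f g
    simp only [LinearMap.sub_apply, LinearMap.smul_apply, LinearMap.id_apply, LinearMap.add_apply,
      Pi.sub_apply, Pi.add_apply, Pi.smul_apply, smul_eq_mul, sub_mul, add_mul, mul_sub, mul_add,
      Finset.sum_sub_distrib, Finset.sum_add_distrib, P_selfadj (rr_equiv _)]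
    congr 1
    exact Finset.sum_congr rfl fun _ _ => by ring
  · intro μ f hf0 hf
    by_contra hlt
    have hlt : μ ^ 2 - μ < 0 := by linarith [not_le.1 hlt]
    have h0 : 0 < μ := by nlinarith
    have h1 : μ < 1 := by nlinarith
    refine hf0 (tri_eigen (3 - μ) (by linarith) (by linarith) f ?_)
    rw [Fin.sum_univ_three]
    simp only [LinearMap.sub_apply, LinearMap.smul_apply, LinearMap.id_apply,
      LinearMap.add_apply] at hf
    rw [sub_smul, ← hf]; abel

end Crest.Agent.R299
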