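import Mathlib
import Crest.Agent.R299.Three

/-! Graphs with a fixed degree sequence, block resampling, and the triple inequality. -/

set_option autoImplicit false
set_option linter.unusedSectionVars false
open Finset

namespace Crest.Agent.R299

theorem transfer {Ω M ι : Type*} [Fintype Ω] [Fintype M] {r0 : Ω → Ω → Prop} {s0 : M → M → Prop}
    (hr0 : Equivalence r0) (hs0 : Equivalence s0) (φ : Ω → M) (r : ι → Ω → Ω → Prop)
    (s : ι → M → M → Prop) (ha : ∀ x y, r0 x y → s0 (φ x) (φ y))
    (hb : ∀ x y, r0 x y → φ x = φ y → x = y) (hc : ∀ x m, s0 (φ x) m → ∃ y, r0 x y ∧ φ y = m)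
    (hd : ∀ i x y, r i x y ↔ r0 x y ∧ s i (φ x) (φ y)) (he : ∀ i a b, s i a b → s0 a b)
    (Ψ : ℝ → (ι → ℝ) → ℝ) (hΨ : Ψ 0 0 = 0)
    (h : ∀ g : M → ℝ, 0 ≤ ∑ m, Ψ (g m) (fun i => P (s i) g m)) (f : Ω → ℝ) :
    0 ≤ ∑ x, Ψ (f x) (fun i => P (r i) f x) := by
  classical
  refine sum_nonneg_of_cls hr0 fun x0 => ?_
  let g : M → ℝ := fun m => if h : ∃ y, r0 x0 y ∧ φ y = m then f h.choose else 0
  have hg : ∀ y, r0 x0 y → g (φ y) = f y := by
    intro y hy
    have h : ∃ y', r0 x0 y' ∧ φ y' = φ y := ⟨y, hy, rfl⟩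
    simp only [g, dif_pos h]
    congr 1
    exact hb _ _ (hr0.trans (hr0.symm h.choose_spec.1) hy) h.choose_spec.2
  have hg0 : ∀ m, ¬ s0 (φ x0) m → g m = 0 := by
    intro m hm
    refine dif_neg ?_
    rintro ⟨y, hy, rfl⟩
    exact hm (ha _ _ hy)
  have hP : ∀ i y, r0 x0 y → P (s i) g (φ y) = P (r i) f y := by
    intro i y hy
    rw [P_bij (r := r i) (x := y) φ (fun z hz => ((hd i y z).1 hz).2)
      (fun z z' hz hz' e => hb _ _ (hr0.trans (hr0.symm ((hd i y z).1 hz).1) ((hd i y z').1 hz').1) e)
      (fun m hm => by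
        obtain ⟨z, hz, rfl⟩ := hc y m (he i _ _ hm)
        exact ⟨z, (hd i y z).2 ⟨hz, hm⟩, rfl⟩) g]
    exact P_local fun z hz => hg z (hr0.trans hy ((hd i y z).1 hz).1)
  refine (h g).trans (le_of_eq ?_)
  rw [← Finset.sum_subset (Finset.subset_univ (cls s0 (φ x0)))]
  · symm
    refine Finset.sum_bij (fun y _ => φ y) (fun y hy => mem_cls.2 (ha _ _ (mem_cls.1 hy)))
      (fun y hy z hz e => hb _ _ (hr0.trans (hr0.symm (mem_cls.1 hy)) (mem_cls.1 hz)) e) ?_ ?_
    · intro m hm
      obtain ⟨y, hy, e⟩ := hc x0 m (mem_cls.1 hm)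
      exact ⟨y, mem_cls.2 hy, e⟩
    · intro y hy
      rw [hg y (mem_cls.1 hy)]
      simp only [hP _ y (mem_cls.1 hy)]
  · intro m _ hm
    rw [mem_cls] at hm
    rw [hg0 m hm]
    have : (fun i => P (s i) g m) = 0 := by
      ext i
      rw [P_local (g := 0) fun y hy => hg0 y fun h => hm (hs0.trans h (hs0.symm (he i _ _ hy)))]
      simp
    rw [this, hΨ]

variable {V : Type*} [Fintype V] [DecidableEq V]

/-- simple graphs with degree sequence `d` -/
structure Gr (d : V → ℕ) where
  A : V → V → Bool
  symm : ∀ a b, A a b = A b a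
  diag : ∀ a, A a a = false
  deg : ∀ a, ∑ b, bv (A a b) = d a

variable {d : V → ℕ}

theorem Gr.ext' {X Y : Gr d} (h : ∀ a b, X.A a b = Y.A a b) : X = Y := by
  cases X; cases Y; congr; ext a b; exact h a b

instance : Finite (Gr d) :=
  Finite.of_injective (fun X : Gr d => X.A) fun _ _ h => Gr.ext' fun a b => congrFun (congrFun h a) b

noncomputable instance : Fintype (Gr d) := Fintype.ofFinite _

/-- agreement outside the edge set `S` -/
def rel (S : V → V → Prop) (X Y : Gr d) : Prop := ∀ a b, ¬ S a b → X.A a b = Y.A a b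

theorem rel_equiv (S : V → V → Prop) : Equivalence (rel (d := d) S) :=
  ⟨fun _ _ _ _ => rfl, fun h a b hab => (h a b hab).symm,
    fun h h' a b hab => (h a b hab).trans (h' a b hab)⟩

theorem rel_comm {S S' : V → V → Prop} (hS' : ∀ a b, S' a b → S' b a)
    (h : ∀ a b, S a b → ¬ S' a b) (f : Gr d → ℝ) :
    P (rel S) (P (rel S') f) = P (rel S') (P (rel S) f) := by
  classical
  refine P_comm (rel_equiv S) (rel_equiv S') ?_ ?_ f
  · intro X Y h1 h2
    refine Gr.ext' fun a b => ?_
    by_cases hab : S a b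
    · exact h2 a b (h a b hab)
    · exact h1 a b hab
  · intro X Y Z h1 h2
    refine ⟨⟨fun a b => if S' a b then Z.A a b else Y.A a b, ?_, ?_, ?_⟩, ?_, ?_⟩
    · intro a b
      by_cases hab : S' a b
      · rw [if_pos hab, if_pos (hS' a b hab), Z.symm]
      · rw [if_neg hab, if_neg fun h' => hab (hS' b a h'), Y.symm]
    · intro a; simp [Z.diag, Y.diag]
    · intro a
      have : ∀ b, bv (if S' a b then Z.A a b else Y.A a b) =
          bv (Y.A a b) + bv (Z.A a b) - bv (X.A a b) := by
        intro b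
        split_ifs with hab
        · rw [h1 a b fun h' => h a b h' hab]; ring
        · rw [h2 a b hab]; ring
      simp only [this, Finset.sum_sub_distrib, Finset.sum_add_distrib, Gr.deg]
      ring
    · intro a b hab; simp [hab]
    · intro a b hab
      by_cases hab' : S' a b
      · simp [hab']
      · simp only [hab', if_false]
        rw [← h2 a b hab', h1 a b hab]

/-- edges touching `u` or `v` -/
def touch (u v a b : V) : Prop := a = u ∨ a = v ∨ b = u ∨ b = v

theorem touch_symm {u v a b : V} (h : touch u v a b) : touch u v b a := by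
  unfold touch at *; tauto

theorem touch_comm (u v : V) : touch u v = touch v u := by
  ext a b; unfold touch; tauto

theorem sum_two {p q : V} (hpq : p ≠ q) (F : V → ℤ) :
    ∑ b, F b = F p + F q + ∑ b ∈ (univ.erase p).erase q, F b := by
  rw [← Finset.add_sum_erase _ _ (Finset.mem_univ p),
    ← Finset.add_sum_erase _ _ (Finset.mem_erase.2 ⟨hpq.symm, Finset.mem_univ q⟩), add_assoc]

theorem sum_eq_two {p q : V} (hpq : p ≠ q) {F G : V → ℤ} (h : ∀ b, b ≠ p → b ≠ q → F b = G b) :
    ∑ b, F b - ∑ b, G b = F p + F q - (G p + G q) := by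
  rw [sum_two hpq F, sum_two hpq G, Finset.sum_congr rfl (g := G) fun b hb => by
    simp only [Finset.mem_erase] at hb; exact h b hb.2.1 hb.1]
  ring

theorem col_P {u v : V} (huv : u ≠ v) {X Y : Gr d} (h : rel (touch u v) X Y) {c : V} (hu : c ≠ u)
    (hv : c ≠ v) : bv (X.A u c) + bv (X.A v c) = bv (Y.A u c) + bv (Y.A v c) := by
  have := sum_eq_two huv (F := fun b => bv (X.A c b)) (G := fun b => bv (Y.A c b)) fun b h1 h2 => by
    rw [h c b (by simp [touch, *])]
  rw [X.deg, Y.deg] at this
  rw [X.symm u, X.symm v, Y.symm u, Y.symm v]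
  linarith

theorem edge_P {u v : V} (huv : u ≠ v) {X Y : Gr d} (h : rel (touch u v) X Y) :
    X.A u v = Y.A u v := by
  have := sum_eq_two huv (F := fun b => bv (X.A u b) + bv (X.A v b))
    (G := fun b => bv (Y.A u b) + bv (Y.A v b)) fun b h1 h2 => col_P huv h h1 h2
  simp only [Finset.sum_add_distrib, Gr.deg, Gr.diag] at this
  rw [X.symm v u, Y.symm v u] at this
  revert this
  cases X.A u v <;> cases Y.A u v <;> simp

theorem rel_self {u : V} {X Y : Gr d} (h : rel (touch u u) X Y) : X = Y := by
  have key : ∀ c, X.A u c = Y.A u c := by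
    intro c
    by_cases hc : c = u
    · rw [hc, X.diag, Y.diag]
    have e1 := Finset.add_sum_erase univ (fun b => bv (X.A c b)) (Finset.mem_univ u)
    have e2 := Finset.add_sum_erase univ (fun b => bv (Y.A c b)) (Finset.mem_univ u)
    rw [X.deg] at e1
    rw [Y.deg, ← Finset.sum_congr rfl (f := fun b => bv (X.A c b)) fun b hb => by
      rw [h c b (by simp [touch, hc, (Finset.mem_erase.1 hb).1])]] at e2
    rw [X.symm, Y.symm]
    have : bv (X.A c u) = bv (Y.A c u) := by linarith
    revert this
    cases X.A c u <;> cases Y.A c u <;> simp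
  refine Gr.ext' fun a b => ?_
  by_cases ha : a = u
  · rw [ha, key]
  by_cases hb : b = u
  · rw [hb, X.symm, Y.symm, key]
  exact h a b (by simp [touch, ha, hb])

section triple
variable (t : Fin 3 → V)

open Classical in
/-- index of a vertex in the triple -/
noncomputable def idx (a : V) : Option (Fin 3) := if h : ∃ i, t i = a then some h.choose else none

variable {t} in
theorem idx_t (ht : Function.Injective t) (i : Fin 3) : idx t (t i) = some i := by
  have h : ∃ j, t j = t i := ⟨i, rfl⟩
  simp only [idx, dif_pos h]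
  rw [ht h.choose_spec]

variable {t} in
theorem idx_none {a : V} (h : ∀ i, t i ≠ a) : idx t a = none := by
  simp only [idx]
  rw [dif_neg]
  rintro ⟨i, hi⟩; exact h i hi

open Classical in
/-- the three-row matrix of a graph -/
noncomputable def loc (A : V → V → Bool) : Mat (Option V) := fun i o =>
  match o with
  | none => !A (t (i + 1)) (t (i + 2))
  | some c => if ∀ j, t j ≠ c then A (t i) c else false

/-- the graph of a three-row matrix -/
noncomputable def ext3 (A : V → V → Bool) (M : Mat (Option V)) : V → V → Bool := fun a b =>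
  match idx t a, idx t b with
  | some i, some j => if i = j then false else !M (-(i + j)) none
  | some i, none => M i (some b)
  | none, some j => M j (some a)
  | none, none => A a b

variable {t} (ht : Function.Injective t)
include ht

open Classical in
theorem sumT (F : V → ℤ) :
    ∑ b, F b = ∑ j, F (t j) + ∑ b, if ∀ j, t j ≠ b then F b else 0 := by
  rw [← Finset.sum_filter, ← Finset.sum_filter_add_sum_filter_not univ (fun b => ∀ j, t j ≠ b),
    add_comm]
  congr 1
  symm
  refine Finset.sum_bij (fun j _ => t j) (fun j _ => by simp) (fun i _ j _ h => ht h) ?_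
    (fun _ _ => rfl)
  intro b hb
  simpa using hb

theorem deg_in {A : V → V → Bool} (hs : ∀ a b, A a b = A b a) (hd : ∀ a, A a a = false)
    (i : Fin 3) : ∑ b, bv (A (t i) b) = 2 - colsum (loc t A) none + rowsum (loc t A) i := by
  classical
  rw [sumT ht, rowsum, Fintype.sum_option, colsum]
  have e : ∀ b, bv (loc t A i (some b)) = if ∀ j, t j ≠ b then bv (A (t i) b) else 0 := by
    intro b; simp only [loc]; split_ifs <;> rfl
  have nb : ∀ b : Bool, bv (!b) = 1 - bv b := by decide
  simp only [e]
  generalize (∑ b, if ∀ j, t j ≠ b then bv (A (t i) b) else 0) = s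
  simp only [loc, nb, Fin.sum_univ_three]
  fin_cases i <;> simp [hd, hs (t 1) (t 0), hs (t 2) (t 0), hs (t 2) (t 1)] <;> ring

open Classical in
theorem deg_out {A : V → V → Bool} (hs : ∀ a b, A a b = A b a) {c : V} (hc : ∀ j, t j ≠ c) :
    ∑ b, bv (A c b) = colsum (loc t A) (some c) + ∑ b, if ∀ j, t j ≠ b then bv (A c b) else 0 := by
  rw [sumT ht, colsum]
  congr 1
  refine Finset.sum_congr rfl fun j _ => ?_
  simp [loc, hc, hs c]

omit ht in
theorem colsum_dummy (A : V → V → Bool) {c : V} (hc : ¬ ∀ j, t j ≠ c) :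
    colsum (loc t A) (some c) = 0 := by
  simp only [colsum, loc, if_neg hc]; simp

/-- edges touching the triple -/
def touch3 (t : Fin 3 → V) (a b : V) : Prop := (∃ i, t i = a) ∨ ∃ i, t i = b

theorem loc_r0 {X Y : Gr d} (h : rel (touch3 t) X Y) : r0 (loc t X.A) (loc t Y.A) := by
  classical
  have h1 : ∀ c, colsum (loc t X.A) (some c) = colsum (loc t Y.A) (some c) := by
    intro c
    by_cases hc : ∀ j, t j ≠ c
    · have e1 := deg_out ht X.symm hc
      have e2 := deg_out ht Y.symm hc
      rw [X.deg] at e1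
      rw [Y.deg, ← Finset.sum_congr rfl (f := fun b => if ∀ j, t j ≠ b then bv (X.A c b) else 0)
        fun b _ => ?_] at e2
      · linarith
      split_ifs with hb
      · rw [h c b (by simp [touch3, hb, hc])]
      · rfl
    · rw [colsum_dummy _ hc, colsum_dummy _ hc]
  have tot : ∀ M : Mat (Option V), ∑ i, rowsum M i = colsum M none + ∑ c, colsum M (some c) := by
    intro M
    simp only [rowsum]
    rw [Finset.sum_comm, Fintype.sum_option]; rfl
  have h2 : colsum (loc t X.A) none = colsum (loc t Y.A) none := by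
    have a := tot (loc t X.A)
    have b := tot (loc t Y.A)
    simp only [h1] at a
    rw [Fin.sum_univ_three] at a b
    have x0 := deg_in ht X.symm X.diag 0
    have x1 := deg_in ht X.symm X.diag 1
    have x2 := deg_in ht X.symm X.diag 2
    have y0 := deg_in ht Y.symm Y.diag 0
    have y1 := deg_in ht Y.symm Y.diag 1
    have y2 := deg_in ht Y.symm Y.diag 2
    rw [Gr.deg] at x0 x1 x2 y0 y1 y2
    linarith
  refine ⟨fun i => ?_, fun o => ?_⟩
  · have x0 := deg_in ht X.symm X.diag i
    have y0 := deg_in ht Y.symm Y.diag i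
    rw [Gr.deg] at x0 y0
    linarith
  · cases o
    · exact h2
    · exact h1 _

omit ht in
theorem loc_inj {X Y : Gr d} (h : rel (touch3 t) X Y) (e : loc t X.A = loc t Y.A) : X = Y := by
  have e1 : ∀ i, X.A (t (i + 1)) (t (i + 2)) = Y.A (t (i + 1)) (t (i + 2)) := by
    intro i
    have := congrFun (congrFun e i) none
    simpa [loc] using this
  have e2 : ∀ i c, (∀ j, t j ≠ c) → X.A (t i) c = Y.A (t i) c := by
    intro i c hc
    have := congrFun (congrFun e i) (some c)
    simpa [loc, hc] using this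
  have e3 : ∀ i j, X.A (t i) (t j) = Y.A (t i) (t j) := by
    intro i j
    have a0 := e1 0
    have a1 := e1 1
    have a2 := e1 2
    fin_cases i <;> fin_cases j <;>
      simp_all [Gr.diag, X.symm (t 1) (t 0), X.symm (t 2) (t 0), X.symm (t 2) (t 1),
        Y.symm (t 1) (t 0), Y.symm (t 2) (t 0), Y.symm (t 2) (t 1)]
  refine Gr.ext' fun a b => ?_
  by_cases ha : ∃ i, t i = a <;> by_cases hb : ∃ i, t i = b
  · obtain ⟨i, rfl⟩ := ha; obtain ⟨j, rfl⟩ := hb; exact e3 i j
  · obtain ⟨i, rfl⟩ := ha; exact e2 i b (by simpa using hb)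
  · obtain ⟨i, rfl⟩ := hb; rw [X.symm, Y.symm]; exact e2 i a (by simpa using ha)
  · exact h a b (by simp only [touch3]; tauto)

theorem loc_surj (X : Gr d) (M : Mat (Option V)) (h : r0 (loc t X.A) M) :
    ∃ Y, rel (touch3 t) X Y ∧ loc t Y.A = M := by
  classical
  have hs : ∀ a b, ext3 t X.A M a b = ext3 t X.A M b a := by
    intro a b
    simp only [ext3]
    rcases idx t a with _ | i <;> rcases idx t b with _ | j <;> simp only
    · exact X.symm a b
    · rw [add_comm]; simp only [eq_comm]
  have hd : ∀ a, ext3 t X.A M a a = false := by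
    intro a
    simp only [ext3]
    rcases idx t a with _ | i <;> simp [X.diag]
  have hl : loc t (ext3 t X.A M) = M := by
    ext i o
    rcases o with _ | c
    · simp only [loc, ext3, idx_t ht]
      fin_cases i <;> simp <;> rfl
    · simp only [loc]
      split_ifs with hc
      · simp only [ext3, idx_t ht, idx_none hc]
      · have := h.2 (some c)
        rw [colsum_dummy _ hc, colsum, Fin.sum_univ_three] at this
        have h3 : M 0 (some c) = false ∧ M 1 (some c) = false ∧ M 2 (some c) = false := by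
          revert this
          cases M 0 (some c) <;> cases M 1 (some c) <;> cases M 2 (some c) <;> simp
        fin_cases i <;> simp [h3]
  have ho : ∀ a b, (∀ j, t j ≠ a) → (∀ j, t j ≠ b) → ext3 t X.A M a b = X.A a b := by
    intro a b ha hb
    simp only [ext3, idx_none ha, idx_none hb]
  refine ⟨⟨ext3 t X.A M, hs, hd, fun a => ?_⟩, ?_, hl⟩
  · by_cases ha : ∀ j, t j ≠ a
    · rw [deg_out ht hs ha, hl, ← h.2, ← X.deg, deg_out ht X.symm ha]
      congr 1
      refine Finset.sum_congr rfl fun b _ => ?_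
      split_ifs with hb
      · rw [ho a b ha hb]
      · rfl
    · push Not at ha
      obtain ⟨i, rfl⟩ := ha
      rw [deg_in ht hs hd, hl, ← h.1, ← h.2, ← deg_in ht X.symm X.diag, X.deg]
  · intro a b hab
    simp only [touch3, not_or, not_exists] at hab
    exact (ho a b hab.1 hab.2).symm

theorem loc_rr (i : Fin 3) (X Y : Gr d) : rel (touch (t (i + 1)) (t (i + 2))) X Y ↔
    rel (touch3 t) X Y ∧ rr i (loc t X.A) (loc t Y.A) := by
  have n1 : i ≠ i + 1 := by revert i; decide
  have n2 : i ≠ i + 2 := by revert i; decide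
  have n3 : i + 1 ≠ i + 2 := by revert i; decide
  constructor
  · intro h
    have h3 : rel (touch3 t) X Y := by
      intro a b hab
      refine h a b fun h' => hab ?_
      rcases h' with rfl | rfl | rfl | rfl
      · exact Or.inl ⟨_, rfl⟩
      · exact Or.inl ⟨_, rfl⟩
      · exact Or.inr ⟨_, rfl⟩
      · exact Or.inr ⟨_, rfl⟩
    refine ⟨h3, loc_r0 ht h3, ?_⟩
    ext o
    rcases o with _ | c
    · simp only [loc]; rw [edge_P (ht.ne n3) h]
    · simp only [loc]
      split_ifs with hc
      · rw [h _ _ (by simp [touch, ht.ne n1, ht.ne n2, (hc _).symm])]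
      · rfl
  · rintro ⟨h, -, e⟩ a b hab
    simp only [touch, not_or] at hab
    have e2 : ∀ c, (∀ j, t j ≠ c) → X.A (t i) c = Y.A (t i) c := by
      intro c hc
      have := congrFun e (some c)
      simpa [loc, hc] using this
    have hc : ∀ c, c ≠ t (i + 1) → c ≠ t (i + 2) → c = t i ∨ ∀ j, t j ≠ c := by
      intro c h1 h2
      by_cases h0 : c = t i
      · exact Or.inl h0
      · refine Or.inr fun j => ?_
        rcases cases3 n1 n2 n3 j with rfl | rfl | rfl
        · exact Ne.symm h0
        · exact Ne.symm h1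
        · exact Ne.symm h2
    rcases hc a hab.1 hab.2.1 with rfl | ha <;> rcases hc b hab.2.2.1 hab.2.2.2 with rfl | hb
    · rw [X.diag, Y.diag]
    · exact e2 b hb
    · rw [X.symm, Y.symm]; exact e2 a ha
    · exact h a b (by simp [touch3, ha, hb])

end triple

/-- the heat-bath residual for the pair `u, v` -/
noncomputable def hh (u v : V) (f : Gr d → ℝ) (X : Gr d) : ℝ := f X - P (rel (touch u v)) f X

theorem hh_comm (u v : V) (f : Gr d → ℝ) : hh u v f = hh v u f := by
  unfold hh; rw [touch_comm]

theorem hh_self (u : V) (f : Gr d → ℝ) (X : Gr d) : hh u u f X = 0 := by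
  unfold hh
  rw [P_eq_of_const (rel_equiv _) (c := f X) fun Y hY => by rw [rel_self hY], sub_self]

theorem triple_ineq {u v w : V} (huv : u ≠ v) (huw : u ≠ w) (hvw : v ≠ w) (f : Gr d → ℝ) :
    0 ≤ ∑ X, hh u v f X * hh u w f X + ∑ X, hh v w f X * hh v u f X +
      ∑ X, hh w u f X * hh w v f X := by
  let t : Fin 3 → V := ![u, v, w]
  have ht : Function.Injective t := by
    intro i j h
    fin_cases i <;> fin_cases j <;> simp_all [t]
  have := transfer (rel_equiv (touch3 t)) r0_equiv (fun X : Gr d => loc t X.A)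
    (fun i => rel (touch (t (i + 1)) (t (i + 2)))) rr (fun _ _ => loc_r0 ht)
    (fun _ _ => loc_inj) (fun X M => loc_surj ht X M) (loc_rr ht) (fun _ _ _ h => h.1)
    (fun a b => (a - b 0) * (a - b 1) + (a - b 0) * (a - b 2) + (a - b 1) * (a - b 2))
    (by simp) tri f
  refine this.trans (le_of_eq ?_)
  rw [hh_comm v u, hh_comm w v, hh_comm u w]
  simp only [← Finset.sum_add_distrib]
  refine Finset.sum_congr rfl fun X _ => ?_
  have e0 : touch (t (0 + 1)) (t (0 + 2)) = touch v w := rfl
  have e1 : touch (t (1 + 1)) (t (1 + 2)) = touch w u := rfl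
  have e2 : touch (t (2 + 1)) (t (2 + 2)) = touch u v := rfl
  simp only [e0, e1, e2, hh]
  ring

end Crest.Agent.R299
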