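import Mathlib
import Crest.Agent.R299.Graph

/-! Switches and the inequality for two disjoint pairs. -/

set_option autoImplicit false
set_option linter.unusedSectionVars false
open Finset

namespace Crest.Agent.R299

variable {V : Type*} [Fintype V] [DecidableEq V] {d : V → ℕ}

instance (u v a b : V) : Decidable (touch u v a b) := by unfold touch; infer_instance

/-- the four vertices are distinct -/
def Dist (u v x y : V) : Prop := u ≠ v ∧ x ≠ y ∧ x ≠ u ∧ x ≠ v ∧ y ≠ u ∧ y ≠ v

theorem Dist.symm {u v x y : V} (h : Dist u v x y) : Dist x y u v := by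
  obtain ⟨h1, h2, h3, h4, h5, h6⟩ := h
  exact ⟨h2, h1, h3.symm, h5.symm, h4.symm, h6.symm⟩

/-- a switch is available on the block `{u,v} × {x,y}` -/
def dst (u v x y : V) (X : Gr d) : Prop :=
  Dist u v x y ∧ X.A u x = X.A v y ∧ X.A u y = X.A v x ∧ X.A u x ≠ X.A u y

theorem dst.symm {u v x y : V} {X : Gr d} (h : dst u v x y X) : dst x y u v X := by
  obtain ⟨h0, h1, h2, h3⟩ := h
  refine ⟨h0.symm, ?_, ?_, ?_⟩
  · rw [X.symm x, X.symm y, h1]
  · rw [X.symm x, X.symm y, h2]
  · rw [X.symm x u, X.symm x v, ← h2]; exact h3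

theorem dst_comm (u v x y : V) : dst (d := d) u v x y = dst x y u v := by
  ext X; exact ⟨dst.symm, dst.symm⟩

/-- the block -/
def blk (u v x y a b : V) : Prop := touch u v a b ∧ touch x y a b

instance (u v x y a b : V) : Decidable (blk u v x y a b) := by unfold blk; infer_instance

theorem blk_symm {u v x y a b : V} (h : blk u v x y a b) : blk u v x y b a :=
  ⟨touch_symm h.1, touch_symm h.2⟩

theorem blk_comm (u v x y : V) : blk u v x y = blk x y u v := by
  ext a b; exact and_comm

theorem blk_iff {u v x y : V} (h : Dist u v x y) (a b : V) : blk u v x y a b ↔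
    ((a = u ∨ a = v) ∧ (b = x ∨ b = y)) ∨ ((b = u ∨ b = v) ∧ (a = x ∨ a = y)) := by
  obtain ⟨h1, h2, h3, h4, h5, h6⟩ := h
  unfold blk touch
  constructor
  · rintro ⟨rfl | rfl | rfl | rfl, e | e | e | e⟩ <;> simp_all
  · tauto

/-- degree check for a graph that is modified on the block -/
theorem deg_blk {u v x y : V} (h : Dist u v x y) (W : V → V → Bool) (Y Z : Gr d)
    (h1 : ∀ a, a = u ∨ a = v → (∀ b, b ≠ x → b ≠ y → W a b = Y.A a b) ∧
      bv (W a x) + bv (W a y) = bv (Y.A a x) + bv (Y.A a y))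
    (h2 : ∀ a, a = x ∨ a = y → (∀ b, b ≠ u → b ≠ v → W a b = Z.A a b) ∧
      bv (W a u) + bv (W a v) = bv (Z.A a u) + bv (Z.A a v))
    (h3 : ∀ a, a ≠ u → a ≠ v → a ≠ x → a ≠ y → ∑ b, bv (W a b) = d a) (a : V) :
    ∑ b, bv (W a b) = d a := by
  by_cases ha : a = u ∨ a = v
  · have := sum_eq_two h.2.1 (F := fun b => bv (W a b)) (G := fun b => bv (Y.A a b))
      fun b hx hy => by rw [(h1 a ha).1 b hx hy]
    rw [Y.deg, (h1 a ha).2] at this
    linarith
  by_cases ha' : a = x ∨ a = y
  · have := sum_eq_two h.1 (F := fun b => bv (W a b)) (G := fun b => bv (Z.A a b))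
      fun b hx hy => by rw [(h2 a ha').1 b hx hy]
    rw [Z.deg, (h2 a ha').2] at this
    linarith
  push Not at ha ha'
  exact h3 a ha.1 ha.2 ha'.1 ha'.2

open Classical in
/-- the switch -/
noncomputable def τ (u v x y : V) (X : Gr d) : Gr d :=
  if h : dst u v x y X then
    { A := fun a b => if blk u v x y a b then !X.A a b else X.A a b
      symm := by
        intro a b
        by_cases hab : blk u v x y a b
        · rw [if_pos hab, if_pos (blk_symm hab), X.symm]
        · rw [if_neg hab, if_neg fun h' => hab (blk_symm h'), X.symm]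
      diag := by
        intro a
        obtain ⟨⟨h1, h2, h3, h4, h5, h6⟩, -⟩ := id h
        rw [if_neg, X.diag]
        rw [blk_iff h.1]
        rintro (⟨rfl | rfl, e | e⟩ | ⟨rfl | rfl, e | e⟩) <;> simp_all
      deg := by
        obtain ⟨⟨h1, h2, h3, h4, h5, h6⟩, e1, e2, e3⟩ := id h
        refine deg_blk h.1 _ X X ?_ ?_ ?_
        · rintro a (rfl | rfl)
          · refine ⟨fun b hx hy => by simp [blk_iff h.1, *, Ne.symm], ?_⟩
            simp only [blk_iff h.1, true_or, or_true, true_and, if_true]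
            revert e3; cases X.A a x <;> cases X.A a y <;> simp
          · refine ⟨fun b hx hy => by simp [blk_iff h.1, *, Ne.symm], ?_⟩
            simp only [blk_iff h.1, true_or, or_true, true_and, if_true]
            rw [e1, e2] at e3
            revert e3; cases X.A a x <;> cases X.A a y <;> simp
        · rintro a (rfl | rfl)
          · refine ⟨fun b hx hy => by simp [blk_iff h.1, *, Ne.symm], ?_⟩
            simp only [blk_iff h.1, true_or, or_true, true_and, if_true]
            rw [e2, X.symm u, X.symm v] at e3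
            revert e3; cases X.A a u <;> cases X.A a v <;> simp
          · refine ⟨fun b hx hy => by simp [blk_iff h.1, *, Ne.symm], ?_⟩
            simp only [blk_iff h.1, true_or, or_true, true_and, if_true]
            rw [e1, X.symm u, X.symm v] at e3
            revert e3; cases X.A a u <;> cases X.A a v <;> simp
        · intro a a1 a2 a3 a4
          rw [← X.deg]
          refine Finset.sum_congr rfl fun b _ => ?_
          simp [blk_iff h.1, *] }
  else X

variable {u v x y : V}

theorem τ_pos {X : Gr d} (h : dst u v x y X) (a b : V) :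
    (τ u v x y X).A a b = if blk u v x y a b then !X.A a b else X.A a b := by
  simp only [τ, dif_pos h]

theorem τ_neg {X : Gr d} (h : ¬ dst u v x y X) : τ u v x y X = X := by
  simp only [τ, dif_neg h]

theorem τ_rel (X : Gr d) : rel (blk u v x y) X (τ u v x y X) := by
  intro a b hab
  by_cases h : dst u v x y X
  · rw [τ_pos h, if_neg hab]
  · rw [τ_neg h]

theorem rel_mono {S S' : V → V → Prop} (h : ∀ a b, S a b → S' a b) {X Y : Gr d} (e : rel S X Y) :
    rel S' X Y := fun a b hab => e a b fun h' => hab (h a b h')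

theorem τ_rel1 (X : Gr d) : rel (touch u v) X (τ u v x y X) :=
  rel_mono (fun _ _ h => h.1) (τ_rel X)

theorem dst_τ {X : Gr d} (h : dst u v x y X) : dst u v x y (τ u v x y X) := by
  obtain ⟨h0, h1, h2, h3⟩ := id h
  refine ⟨h0, ?_⟩
  simp only [τ_pos h, blk_iff h0, true_or, or_true, true_and, if_true]
  rw [h1, h2] at h3
  simp [h1, h2, h3]

theorem τ_invol : Function.Involutive (τ (d := d) u v x y) := by
  intro X
  by_cases h : dst u v x y X
  · refine Gr.ext' fun a b => ?_
    rw [τ_pos (dst_τ h), τ_pos h]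
    split_ifs <;> simp
  · rw [τ_neg h, τ_neg h]

theorem dst_τ_iff {X : Gr d} : dst u v x y (τ u v x y X) ↔ dst u v x y X :=
  ⟨fun h => by have := dst_τ h; rwa [τ_invol] at this, dst_τ⟩

theorem τ_comm (u v x y : V) : τ (d := d) u v x y = τ x y u v := by
  ext1 X
  by_cases h : dst u v x y X
  · refine Gr.ext' fun a b => ?_
    rw [τ_pos h, τ_pos h.symm]
    simp only [blk_comm u v x y]
  · rw [τ_neg h, τ_neg fun h' => h h'.symm]

/-- parity of the block -/
def odd (u v x y : V) (X : Gr d) : Bool := (X.A u x ^^ X.A u y) ^^ (X.A v x ^^ X.A v y)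

theorem odd_comm (X : Gr d) : odd x y u v X = odd u v x y X := by
  unfold odd
  rw [X.symm x u, X.symm x v, X.symm y u, X.symm y v]
  cases X.A u x <;> cases X.A u y <;> cases X.A v x <;> cases X.A v y <;> rfl

theorem odd_rel (h : Dist u v x y) {X Y : Gr d} (e : rel (touch u v) X Y) :
    odd u v x y X = odd u v x y Y := by
  have e1 := col_P h.1 e h.2.2.1 h.2.2.2.1
  have e2 := col_P h.1 e h.2.2.2.2.1 h.2.2.2.2.2
  unfold odd
  revert e1 e2
  generalize X.A u x = a1, X.A u y = a2, X.A v x = a3, X.A v y = a4, Y.A u x = b1, Y.A u y = b2,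
    Y.A v x = b3, Y.A v y = b4
  revert a1 a2 a3 a4 b1 b2 b3 b4
  decide

theorem bool_diamond : ∀ a1 a2 a3 a4 b1 b2 b3 b4 c1 c2 c3 c4 : Bool,
    ((a1 ^^ a2) ^^ (a3 ^^ a4)) = true → bv a1 + bv a3 = bv b1 + bv b3 →
    bv a2 + bv a4 = bv b2 + bv b4 → bv a1 + bv a2 = bv c1 + bv c2 → bv a3 + bv a4 = bv c3 + bv c4 →
    ∃ w1 w2 w3 w4 : Bool, bv w1 + bv w2 = bv b1 + bv b2 ∧ bv w3 + bv w4 = bv b3 + bv b4 ∧
      bv w1 + bv w3 = bv c1 + bv c3 ∧ bv w2 + bv w4 = bv c2 + bv c4 := by
  decide +kernel

theorem odd_uniq (h : Dist u v x y) {X Y : Gr d} (ho : odd u v x y X = true)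
    (e : rel (touch u v) X Y) (e' : rel (touch x y) X Y) : X = Y := by
  have e1 := col_P h.1 e h.2.2.1 h.2.2.2.1
  have e2 := col_P h.1 e h.2.2.2.2.1 h.2.2.2.2.2
  have e3 := col_P h.2.1 e' h.2.2.1.symm h.2.2.2.2.1.symm
  rw [X.symm x, X.symm y, Y.symm x, Y.symm y] at e3
  have key : X.A u x = Y.A u x ∧ X.A u y = Y.A u y ∧ X.A v x = Y.A v x ∧ X.A v y = Y.A v y := by
    unfold odd at ho
    revert ho e1 e2 e3
    generalize X.A u x = a1, X.A u y = a2, X.A v x = a3, X.A v y = a4, Y.A u x = b1, Y.A u y = b2,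
      Y.A v x = b3, Y.A v y = b4
    revert a1 a2 a3 a4 b1 b2 b3 b4
    decide
  refine Gr.ext' fun a b => ?_
  by_cases hab : blk u v x y a b
  · rw [blk_iff h] at hab
    rcases hab with ⟨rfl | rfl, rfl | rfl⟩ | ⟨rfl | rfl, rfl | rfl⟩ <;>
      first | simp only [key] | (rw [X.symm, Y.symm]; simp only [key])
  · by_cases h1 : touch u v a b
    · exact e' a b fun h2 => hab ⟨h1, h2⟩
    · exact e a b h1

theorem odd_diamond (h : Dist u v x y) {X Y Z : Gr d} (ho : odd u v x y X = true)
    (e : rel (touch u v) X Y) (e' : rel (touch x y) X Z) :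
    ∃ W, rel (touch x y) Y W ∧ rel (touch u v) Z W := by
  have e1 := col_P h.1 e h.2.2.1 h.2.2.2.1
  have e2 := col_P h.1 e h.2.2.2.2.1 h.2.2.2.2.2
  have e3 := col_P h.2.1 e' h.2.2.1.symm h.2.2.2.2.1.symm
  have e4 := col_P h.2.1 e' h.2.2.2.1.symm h.2.2.2.2.2.symm
  rw [X.symm x, X.symm y, Z.symm x, Z.symm y] at e3 e4
  obtain ⟨w1, w2, w3, w4, f1, f2, f3, f4⟩ := bool_diamond _ _ _ _ _ _ _ _ _ _ _ _ ho e1 e2 e3 e4
  obtain ⟨h1, h2, h3, h4, h5, h6⟩ := id h
  let β : V → V → Bool := fun a b => if a = u then (if b = x then w1 else w2) else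
    (if b = x then w3 else w4)
  let W : V → V → Bool := fun a b => if (a = u ∨ a = v) ∧ (b = x ∨ b = y) then β a b else
    if (b = u ∨ b = v) ∧ (a = x ∨ a = y) then β b a else if touch x y a b then Z.A a b else Y.A a b
  have hW : ∀ a b, ¬ blk u v x y a b → W a b = if touch x y a b then Z.A a b else Y.A a b := by
    intro a b hab
    rw [blk_iff h, not_or] at hab
    simp only [W, if_neg hab.1, if_neg hab.2]
  refine ⟨⟨W, ?_, ?_, ?_⟩, ?_, ?_⟩
  · intro a b
    by_cases hab : blk u v x y a b
    · rw [blk_iff h] at hab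
      rcases hab with ⟨rfl | rfl, rfl | rfl⟩ | ⟨rfl | rfl, rfl | rfl⟩ <;> simp [W, *, Ne.symm]
    · rw [hW a b hab, hW b a fun h' => hab (blk_symm h')]
      by_cases ht : touch x y a b
      · rw [if_pos ht, if_pos (touch_symm ht), Z.symm]
      · rw [if_neg ht, if_neg fun h' => ht (touch_symm h'), Y.symm]
  · intro a
    rw [hW]
    · simp [Z.diag, Y.diag]
    · rw [blk_iff h]
      rintro (⟨rfl | rfl, e | e⟩ | ⟨rfl | rfl, e | e⟩) <;> simp_all
  · refine deg_blk h _ Y Z ?_ ?_ ?_
    · rintro a (rfl | rfl)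
      · exact ⟨fun b hx hy => by simp [W, touch, *, Ne.symm], by simp [W, β, *, Ne.symm]⟩
      · exact ⟨fun b hx hy => by simp [W, touch, *, Ne.symm], by simp [W, β, *, Ne.symm]⟩
    · rintro a (rfl | rfl)
      · exact ⟨fun b hx hy => by simp [W, touch, *, Ne.symm],
          by simp [W, β, *, Ne.symm, Z.symm a]⟩
      · exact ⟨fun b hx hy => by simp [W, touch, *, Ne.symm],
          by simp [W, β, *, Ne.symm, Z.symm a]⟩
    · intro a a1 a2 a3 a4
      have : ∀ b, bv (W a b) = bv (Y.A a b) + bv (Z.A a b) - bv (X.A a b) := by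
        intro b
        rw [hW a b (by simp [blk_iff h, *])]
        split_ifs with hab
        · rw [e a b]
          · ring
          · simp only [touch, a1, a2, a3, a4, false_or] at hab ⊢
            rcases hab with rfl | rfl <;> simp [*]
        · rw [e' a b hab]; ring
      simp only [this, Finset.sum_sub_distrib, Finset.sum_add_distrib, Gr.deg]
      ring
  · intro a b hab
    show _ = W a b
    rw [hW a b fun h' => hab h'.2, if_neg hab]
  · intro a b hab
    show _ = W a b
    rw [hW a b fun h' => hab h'.1]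
    split_ifs with h'
    · rfl
    · rw [← e' a b h', e a b hab]

end Crest.Agent.R299
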