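import Mathlib
import Crest.Agent.R299.Pair

/-! The inequality for two disjoint pairs. -/

set_option autoImplicit false
set_option linter.unusedSectionVars false
open Finset

namespace Crest.Agent.R299

section abstract
variable {Ω : Type*} [Fintype Ω] {r r' s : Ω → Ω → Prop}

theorem res_nonneg (hr : Equivalence r) (hr' : Equivalence r')
    (hc : ∀ f, P r (P r' f) = P r' (P r f)) (f : Ω → ℝ) :
    0 ≤ ∑ x, (f x - P r f x) * (f x - P r' f x) := by
  refine inner_proj_nonneg (LinearMap.id - P r) (LinearMap.id - P r') ?_ ?_ ?_ ?_ ?_ f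
  · intro f g
    simp only [LinearMap.sub_apply, LinearMap.id_apply, Pi.sub_apply, sub_mul, mul_sub,
      Finset.sum_sub_distrib, P_selfadj hr]
  · intro f g
    simp only [LinearMap.sub_apply, LinearMap.id_apply, Pi.sub_apply, sub_mul, mul_sub,
      Finset.sum_sub_distrib, P_selfadj hr']
  · intro f; simp [P_idem hr]
  · intro f; simp [P_idem hr']
  · intro f; simp only [LinearMap.sub_apply, LinearMap.id_apply, map_sub, hc]; abel

theorem res_nonneg2 (hr : Equivalence r) (hr' : Equivalence r') (hs : Equivalence s)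
    (hle : ∀ x y, r' x y → s x y)
    (hc : ∀ f, P r (P r' f) = P r' (P r f)) (hc' : ∀ f, P r (P s f) = P s (P r f)) (f : Ω → ℝ) :
    0 ≤ ∑ x, (f x - P r f x) * (P r' f x - P s f x) := by
  refine inner_proj_nonneg (LinearMap.id - P r) (P r' - P s) ?_ ?_ ?_ ?_ ?_ f
  · intro f g
    simp only [LinearMap.sub_apply, LinearMap.id_apply, Pi.sub_apply, sub_mul, mul_sub,
      Finset.sum_sub_distrib, P_selfadj hr]
  · intro f g
    simp only [LinearMap.sub_apply, Pi.sub_apply, sub_mul, mul_sub,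
      Finset.sum_sub_distrib, P_selfadj hr', P_selfadj hs]
  · intro f; simp [P_idem hr]
  · intro f; simp [P_idem hr', P_idem hs, P_P_left hr' hs hle, P_P_right hr' hs hle]
  · intro f; simp only [LinearMap.sub_apply, LinearMap.id_apply, map_sub, hc, hc']; abel

theorem sector_equiv (hr : Equivalence r) {o : Ω → Bool} (ho : ∀ x y, r x y → o x = o y) :
    Equivalence fun x y => x = y ∨ (o x = true ∧ r x y) := by
  refine ⟨fun _ => Or.inl rfl, ?_, ?_⟩
  · rintro x y (rfl | ⟨a, b⟩)
    · exact Or.inl rfl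
    · exact Or.inr ⟨ho x y b ▸ a, hr.symm b⟩
  · rintro x y z (rfl | ⟨a, b⟩) (rfl | ⟨a', b'⟩)
    · exact Or.inl rfl
    · exact Or.inr ⟨a', b'⟩
    · exact Or.inr ⟨a, b⟩
    · exact Or.inr ⟨a, hr.trans b b'⟩

theorem sector_P (hr : Equivalence r) {o : Ω → Bool} (ho : ∀ x y, r x y → o x = o y)
    (f : Ω → ℝ) (x : Ω) : P (fun x y => x = y ∨ (o x = true ∧ r x y)) f x =
      if o x = true then P r f x else f x := by
  split_ifs with h
  · refine P_eq_of_cls_eq fun y => ⟨?_, fun a => Or.inr ⟨h, a⟩⟩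
    rintro (rfl | a)
    · exact hr.refl _
    · exact a.2
  · refine P_eq_of_const (sector_equiv hr ho) ?_
    rintro y (rfl | a)
    · rfl
    · exact absurd a.1 h

theorem sector_nonneg (hr : Equivalence r) (hr' : Equivalence r') {o : Ω → Bool}
    (ho : ∀ x y, r x y → o x = o y) (ho' : ∀ x y, r' x y → o x = o y)
    (h1 : ∀ x y, o x = true → r x y → r' x y → x = y)
    (h2 : ∀ x y z, o x = true → r x y → r' x z → ∃ w, r' y w ∧ r z w) (f : Ω → ℝ) :
    0 ≤ ∑ x, if o x = true then (f x - P r f x) * (f x - P r' f x) else 0 := by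
  have := res_nonneg (sector_equiv hr ho) (sector_equiv hr' ho')
    (P_comm (sector_equiv hr ho) (sector_equiv hr' ho') ?_ ?_) f
  · refine this.trans (le_of_eq (Finset.sum_congr rfl fun x _ => ?_))
    rw [sector_P hr ho, sector_P hr' ho']
    split_ifs <;> simp
  · rintro x y (rfl | a) (e | b)
    · rfl
    · rfl
    · exact e
    · exact h1 x y a.1 a.2 b.2
  · rintro x y z (rfl | a) (rfl | b)
    · exact ⟨x, Or.inl rfl, Or.inl rfl⟩
    · exact ⟨z, Or.inr b, Or.inl rfl⟩
    · exact ⟨y, Or.inl rfl, Or.inr a⟩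
    · obtain ⟨w, c, e⟩ := h2 x y z a.1 a.2 b.2
      exact ⟨w, Or.inr ⟨ho x y a.2 ▸ a.1, c⟩, Or.inr ⟨ho' x z b.2 ▸ a.1, e⟩⟩

end abstract

variable {V : Type*} [Fintype V] [DecidableEq V] {d : V → ℕ}

/-- resampling the pair `u,v` conditioned on the availability of the switch -/
def rM (u v x y : V) (X Y : Gr d) : Prop :=
  rel (touch u v) X Y ∧ (dst u v x y X ↔ dst u v x y Y)

theorem rM_equiv (u v x y : V) : Equivalence (rM (d := d) u v x y) :=
  ⟨fun X => ⟨(rel_equiv _).refl X, Iff.rfl⟩, fun h => ⟨(rel_equiv _).symm h.1, h.2.symm⟩,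
    fun h h' => ⟨(rel_equiv _).trans h.1 h'.1, h.2.trans h'.2⟩⟩

/-- edges touching `u,v` outside the block -/
def tR (u v x y a b : V) : Prop := touch u v a b ∧ ¬ touch x y a b

open Classical in
/-- deviation on the switchable part -/
noncomputable def dev (u v x y : V) (f : Gr d → ℝ) (X : Gr d) : ℝ :=
  if dst u v x y X then P (rM u v x y) f X - P (rel (touch u v)) f X else 0

/-- even part -/
noncomputable def ev (u v x y : V) (f : Gr d → ℝ) (X : Gr d) : ℝ :=
  if odd u v x y X = true then 0 else f X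

/-- symmetrised even part -/
noncomputable def sy (u v x y : V) (f : Gr d → ℝ) (X : Gr d) : ℝ :=
  (ev u v x y f X + ev u v x y f (τ u v x y X)) / 2

variable {u v x y : V}

theorem ev_comm (f : Gr d → ℝ) : ev x y u v f = ev u v x y f := by
  ext X; simp only [ev, odd_comm]

theorem sy_comm (f : Gr d → ℝ) : sy x y u v f = sy u v x y f := by
  ext X; simp only [sy, ev_comm, τ_comm x y u v]

theorem dst_even {X : Gr d} (h : dst u v x y X) : ¬ odd u v x y X = true := by
  obtain ⟨-, h1, h2, -⟩ := h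
  unfold odd
  rw [h1, h2]
  cases X.A v x <;> cases X.A v y <;> simp

theorem sy_τ (f : Gr d → ℝ) (X : Gr d) : sy u v x y f (τ u v x y X) = sy u v x y f X := by
  simp only [sy, τ_invol X]; ring

theorem ev_sub (f : Gr d → ℝ) (X : Gr d) :
    ev u v x y f X - ev u v x y f (τ u v x y X) = f X - f (τ u v x y X) := by
  by_cases h : dst u v x y X
  · simp only [ev, if_neg (dst_even h), if_neg (dst_even (dst_τ h))]
  · simp [τ_neg h]

theorem P_sy {r : Gr d → Gr d → Prop} (hr : Equivalence r) (h : ∀ X, r X (τ u v x y X))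
    (f : Gr d → ℝ) : P r (sy u v x y f) = P r (ev u v x y f) := by
  have : sy u v x y f = (1 / 2 : ℝ) • (ev u v x y f + fun X => ev u v x y f (τ u v x y X)) := by
    ext X; simp only [sy, Pi.smul_apply, Pi.add_apply, smul_eq_mul]; ring
  rw [this, map_smul, map_add, P_comp_invol hr τ_invol h]
  ext X; simp only [Pi.smul_apply, Pi.add_apply, smul_eq_mul]; ring

theorem hh_ev (h : Dist u v x y) (f : Gr d → ℝ) (X : Gr d) :
    hh u v (ev u v x y f) X = if odd u v x y X = true then 0 else hh u v f X := by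
  unfold hh
  split_ifs with ho
  · rw [P_eq_of_const (rel_equiv _) (c := 0) fun Y hY => by simp [ev, ← odd_rel h hY, ho]]
    simp [ev, ho]
  · rw [P_local (g := f) fun Y hY => by simp only [ev, ← odd_rel h hY, if_neg ho]]
    simp only [ev, if_neg ho]

theorem hh_sy (f : Gr d → ℝ) (X : Gr d) :
    hh u v (ev u v x y f) X = hh u v (sy u v x y f) X + (f X - f (τ u v x y X)) / 2 := by
  unfold hh
  rw [P_sy (rel_equiv _) τ_rel1, ← ev_sub, sy]
  ring

theorem sum_τ (F : Gr d → ℝ) : ∑ X, F (τ u v x y X) = ∑ X, F X :=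
  Equiv.sum_comp (τ_invol (u := u) (v := v) (x := x) (y := y)).toPerm F

theorem hh_orth (f : Gr d → ℝ) :
    ∑ X, hh u v (sy u v x y f) X * (f X - f (τ u v x y X)) = 0 := by
  have h1 := sum_τ (u := u) (v := v) (x := x) (y := y)
    fun X => hh u v (sy u v x y f) X * (f X - f (τ u v x y X))
  have h2 : ∀ X, hh u v (sy u v x y f) (τ u v x y X) *
      (f (τ u v x y X) - f (τ u v x y (τ u v x y X))) =
      -(hh u v (sy u v x y f) X * (f X - f (τ u v x y X))) := by
    intro X
    rw [τ_invol X, hh, hh, sy_τ, ← P_congr (rel_equiv _) _ (τ_rel1 X)]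
    ring
  simp only [h2, Finset.sum_neg_distrib] at h1
  linarith

theorem tR_le {X Y : Gr d} (e : rel (tR u v x y) X Y) : rel (touch u v) X Y :=
  rel_mono (fun _ _ h => h.1) e

theorem tR_blk {X Y : Gr d} (e : rel (tR u v x y) X Y) : X.A u x = Y.A u x ∧ X.A u y = Y.A u y ∧
    X.A v x = Y.A v x ∧ X.A v y = Y.A v y :=
  ⟨e _ _ (by simp [tR, touch]), e _ _ (by simp [tR, touch]), e _ _ (by simp [tR, touch]),
    e _ _ (by simp [tR, touch])⟩

theorem tR_of (h : Dist u v x y) {X Y : Gr d} (e : rel (touch u v) X Y)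
    (key : X.A u x = Y.A u x ∧ X.A u y = Y.A u y ∧ X.A v x = Y.A v x ∧ X.A v y = Y.A v y) :
    rel (tR u v x y) X Y := by
  intro a b hab
  by_cases h1 : touch u v a b
  · have hb : blk u v x y a b := ⟨h1, by by_contra h2; exact hab ⟨h1, h2⟩⟩
    rw [blk_iff h] at hb
    rcases hb with ⟨rfl | rfl, rfl | rfl⟩ | ⟨rfl | rfl, rfl | rfl⟩ <;>
      first | simp only [key] | (rw [X.symm, Y.symm]; simp only [key])
  · exact e a b h1

theorem tR_rM {X Y : Gr d} (e : rel (tR u v x y) X Y) : rM u v x y X Y := by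
  obtain ⟨e1, e2, e3, e4⟩ := tR_blk e
  exact ⟨tR_le e, by simp only [dst, e1, e2, e3, e4]⟩

theorem tR_τ (X Y : Gr d) (e : rel (tR u v x y) X Y) :
    rel (tR u v x y) (τ u v x y X) (τ u v x y Y) := by
  by_cases h : dst u v x y X
  · intro a b hab
    rw [τ_pos h, τ_pos ((tR_rM e).2.1 h), e a b hab]
  · rw [τ_neg h, τ_neg fun h' => h ((tR_rM e).2.2 h')]; exact e

theorem F_dst (f : Gr d → ℝ) {X : Gr d} (hX : dst u v x y X) :
    P (rel (tR u v x y)) (sy u v x y f) X - P (rel (touch u v)) (sy u v x y f) X =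
      dev u v x y f X := by
  have h := hX.1
  rw [dev, if_pos hX, P_sy (rel_equiv _) τ_rel1]
  congr 1
  · have e1 : P (rM u v x y) f X = P (rM u v x y) (ev u v x y f) X :=
      P_local fun Y hY => by simp only [ev, if_neg (dst_even (hY.2.1 hX))]
    rw [e1, ← P_sy (rM_equiv u v x y) fun Y => ⟨τ_rel1 Y, dst_τ_iff.symm⟩,
      ← P_P_right (rel_equiv (tR u v x y)) (rM_equiv u v x y) fun _ _ => tR_rM]
    refine (P_eq_of_const (rM_equiv u v x y) fun Y hY => ?_).symm
    have hY' := hY.2.1 hX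
    have c1 := col_P h.1 hY.1 h.2.2.1 h.2.2.2.1
    have c2 := col_P h.1 hY.1 h.2.2.2.2.1 h.2.2.2.2.2
    by_cases e : X.A u x = Y.A u x
    · refine (P_congr (rel_equiv _) _ (tR_of h hY.1 ?_)).symm
      obtain ⟨-, a1, a2, a3⟩ := hX
      obtain ⟨-, b1, b2, b3⟩ := hY'
      revert a1 a2 a3 b1 b2 b3 e
      generalize X.A u x = a1, X.A u y = a2, X.A v x = a3, X.A v y = a4, Y.A u x = b1, Y.A u y = b2,
        Y.A v x = b3, Y.A v y = b4
      revert a1 a2 a3 a4 b1 b2 b3 b4
      decide
    · have e2 : rel (tR u v x y) (τ u v x y X) Y := by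
        refine tR_of h ((rel_equiv _).trans ((rel_equiv _).symm (τ_rel1 X)) hY.1) ?_
        simp only [τ_pos hX, blk_iff h, true_or, or_true, true_and, if_true]
        obtain ⟨-, a1, a2, a3⟩ := hX
        obtain ⟨-, b1, b2, b3⟩ := hY'
        revert a1 a2 a3 b1 b2 b3 e
        generalize X.A u x = a1, X.A u y = a2, X.A v x = a3, X.A v y = a4, Y.A u x = b1,
          Y.A u y = b2, Y.A v x = b3, Y.A v y = b4
        revert a1 a2 a3 a4 b1 b2 b3 b4
        decide
      rw [← P_congr (rel_equiv _) _ e2, P_invol τ_invol tR_τ]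
      simp only [sy_τ]
  · exact P_local fun Y hY => by simp only [ev, ← odd_rel h hY, if_neg (dst_even hX)]

theorem F_odd (h : Dist u v x y) (f : Gr d → ℝ) {X : Gr d} (hX : odd u v x y X = true) :
    P (rel (tR u v x y)) (sy u v x y f) X - P (rel (touch u v)) (sy u v x y f) X = 0 := by
  have : ∀ Y, rel (touch u v) X Y → sy u v x y f Y = 0 := by
    intro Y hY
    have e := odd_rel h hY
    simp [sy, ev, ← odd_rel h (τ_rel1 Y), ← e, hX]
  rw [P_eq_of_const (rel_equiv _) (c := 0) fun Y hY => this Y (tR_le hY),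
    P_eq_of_const (rel_equiv _) (c := 0) this, sub_self]

theorem F_col (h : Dist u v x y) (g : Gr d → ℝ) {X : Gr d} (h1 : X.A u x = X.A v x)
    (h2 : X.A u y = X.A v y) :
    P (rel (tR u v x y)) g X - P (rel (touch u v)) g X = 0 := by
  rw [P_eq_of_cls_eq (r' := rel (touch u v)) fun Y => ⟨tR_le, fun hY => tR_of h hY ?_⟩, sub_self]
  have c1 := col_P h.1 hY h.2.2.1 h.2.2.2.1
  have c2 := col_P h.1 hY h.2.2.2.2.1 h.2.2.2.2.2
  revert h1 h2 c1 c2
  generalize X.A u x = a1, X.A u y = a2, X.A v x = a3, X.A v y = a4, Y.A u x = b1,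
    Y.A u y = b2, Y.A v x = b3, Y.A v y = b4
  revert a1 a2 a3 a4 b1 b2 b3 b4
  decide

theorem tR_symm {a b : V} (h : tR u v x y a b) : tR u v x y b a :=
  ⟨touch_symm h.1, fun h' => h.2 (touch_symm h')⟩

theorem pair_ineq (h : Dist u v x y) (f : Gr d → ℝ) :
    (∑ X, (f X - f (τ u v x y X)) ^ 2) / 4 -
      (∑ X, dev u v x y f X ^ 2 + ∑ X, dev x y u v f X ^ 2) / 2 ≤
      ∑ X, hh u v f X * hh x y f X := by
  have hodd := sector_nonneg (rel_equiv (touch u v)) (rel_equiv (touch x y)) (o := odd u v x y)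
    (fun X Y e => odd_rel h e) (fun X Y e => by rw [← odd_comm, odd_rel h.symm e, odd_comm])
    (fun X Y ho => odd_uniq h ho) (fun X Y Z ho => odd_diamond h ho) f
  set g := sy u v x y f with hg
  have e1 : ∑ X, hh u v f X * hh x y f X = ∑ X, (if odd u v x y X = true then
      (f X - P (rel (touch u v)) f X) * (f X - P (rel (touch x y)) f X) else 0) +
      ∑ X, (hh u v g X + (f X - f (τ u v x y X)) / 2) *
        (hh x y g X + (f X - f (τ u v x y X)) / 2) := by
    rw [← Finset.sum_add_distrib]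
    refine Finset.sum_congr rfl fun X _ => ?_
    have a := hh_sy (u := x) (v := y) (x := u) (y := v) f X
    rw [sy_comm, τ_comm] at a
    rw [← hh_sy, ← a, hh_ev h, hh_ev h.symm, odd_comm X]
    split_ifs <;> simp [hh]
  have e2 := hh_orth (u := u) (v := v) (x := x) (y := y) f
  have e3 := hh_orth (u := x) (v := y) (x := u) (y := v) f
  rw [sy_comm, τ_comm] at e3
  have e4 : ∑ X, (hh u v g X + (f X - f (τ u v x y X)) / 2) *
        (hh x y g X + (f X - f (τ u v x y X)) / 2) = ∑ X, hh u v g X * hh x y g X +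
        (∑ X, hh u v g X * (f X - f (τ u v x y X))) / 2 +
        (∑ X, hh x y g X * (f X - f (τ u v x y X))) / 2 +
        (∑ X, (f X - f (τ u v x y X)) ^ 2) / 4 := by
    simp only [Finset.sum_div, ← Finset.sum_add_distrib]
    exact Finset.sum_congr rfl fun X _ => by ring
  have n1 := res_nonneg (rel_equiv (tR u v x y)) (rel_equiv (tR x y u v))
    (rel_comm (fun _ _ => tR_symm) fun _ _ a b => b.2 a.1) g
  have n2 := res_nonneg2 (rel_equiv (tR u v x y)) (rel_equiv (tR x y u v)) (rel_equiv (touch x y))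
    (fun _ _ => tR_le) (rel_comm (fun _ _ => tR_symm) fun _ _ a b => b.2 a.1)
    (rel_comm (fun _ _ => touch_symm) fun _ _ a => a.2) g
  have n3 := res_nonneg2 (rel_equiv (tR x y u v)) (rel_equiv (tR u v x y)) (rel_equiv (touch u v))
    (fun _ _ => tR_le) (rel_comm (fun _ _ => tR_symm) fun _ _ a b => b.2 a.1)
    (rel_comm (fun _ _ => touch_symm) fun _ _ a => a.2) g
  have n4 : -((∑ X, dev u v x y f X ^ 2 + ∑ X, dev x y u v f X ^ 2) / 2) ≤
      ∑ X, (P (rel (tR u v x y)) g X - P (rel (touch u v)) g X) *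
        (P (rel (tR x y u v)) g X - P (rel (touch x y)) g X) := by
    rw [← Finset.sum_add_distrib, Finset.sum_div, ← Finset.sum_neg_distrib]
    refine Finset.sum_le_sum fun X _ => ?_
    by_cases hX : dst u v x y X
    · have a := F_dst f hX.symm
      rw [sy_comm] at a
      rw [F_dst f hX, a]
      nlinarith [sq_nonneg (dev u v x y f X + dev x y u v f X)]
    have hz : (P (rel (tR u v x y)) g X - P (rel (touch u v)) g X) *
        (P (rel (tR x y u v)) g X - P (rel (touch x y)) g X) = 0 := by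
      by_cases ho : odd u v x y X = true
      · rw [F_odd h f ho, zero_mul]
      have : (X.A u x = X.A v x ∧ X.A u y = X.A v y) ∨ (X.A u x = X.A u y ∧ X.A v x = X.A v y) := by
        simp only [dst, h, true_and] at hX
        unfold odd at ho
        revert hX ho
        generalize X.A u x = a1, X.A u y = a2, X.A v x = a3, X.A v y = a4
        revert a1 a2 a3 a4
        decide
      rcases this with ⟨a, b⟩ | ⟨a, b⟩
      · rw [F_col h g a b, zero_mul]
      · rw [F_col h.symm g (by rw [X.symm x, X.symm y, a]) (by rw [X.symm x, X.symm y, b]),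
          mul_zero]
    rw [hz]
    nlinarith [sq_nonneg (dev u v x y f X), sq_nonneg (dev x y u v f X)]
  have e5 : ∑ X, hh u v g X * hh x y g X =
      ∑ X, (g X - P (rel (tR u v x y)) g X) * (g X - P (rel (tR x y u v)) g X) +
      ∑ X, (g X - P (rel (tR u v x y)) g X) * (P (rel (tR x y u v)) g X - P (rel (touch x y)) g X) +
      ∑ X, (g X - P (rel (tR x y u v)) g X) * (P (rel (tR u v x y)) g X - P (rel (touch u v)) g X) +
      ∑ X, (P (rel (tR u v x y)) g X - P (rel (touch u v)) g X) *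
        (P (rel (tR x y u v)) g X - P (rel (touch x y)) g X) := by
    simp only [← Finset.sum_add_distrib, hh]
    exact Finset.sum_congr rfl fun X _ => by ring
  rw [e1, e4, e2, e3, e5]
  linarith

end Crest.Agent.R299
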