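import Mathlib
import Crest.Agent.R299.Pair2

/-! Slices inside a pair class. -/

set_option autoImplicit false
set_option linter.unusedSectionVars false
open Finset

namespace Crest.Agent.R299

variable {V : Type*} [Fintype V] [DecidableEq V] {d : V → ℕ} {u v : V}

/-- the free columns -/
def KK (u v : V) (X : Gr d) : Finset V := univ.filter fun w => w ≠ u ∧ w ≠ v ∧ X.A u w ≠ X.A v w

theorem mem_KK {X : Gr d} {w : V} : w ∈ KK u v X ↔ w ≠ u ∧ w ≠ v ∧ X.A u w ≠ X.A v w := by
  simp [KK]

theorem KK_rel (huv : u ≠ v) {X N : Gr d} (h : rel (touch u v) X N) (w : V) :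
    (w ∈ KK u v X → N.A v w = !N.A u w) ∧ (w ∉ KK u v X → N.A u w = X.A u w) := by
  rw [mem_KK]
  by_cases h1 : w = u
  · simp [h1, Gr.diag]
  by_cases h2 : w = v
  · simp [h2, edge_P huv h]
  have := col_P huv h h1 h2
  revert this
  cases X.A u w <;> cases X.A v w <;> cases N.A u w <;> cases N.A v w <;> simp [h1, h2]

theorem dst_KK (huv : u ≠ v) {X N : Gr d} (h : rel (touch u v) X N) (x y : V) :
    dst u v x y N ↔ x ∈ KK u v X ∧ y ∈ KK u v X ∧ N.A u x ≠ N.A u y := by
  constructor
  · rintro ⟨⟨-, h2, h3, h4, h5, h6⟩, e1, e2, e3⟩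
    have c1 := col_P huv h h3 h4
    have c2 := col_P huv h h5 h6
    simp only [mem_KK, ne_eq, h3, h4, h5, h6, not_false_eq_true, true_and]
    revert e1 e2 e3 c1 c2
    generalize X.A u x = a1, X.A u y = a2, X.A v x = a3, X.A v y = a4, N.A u x = b1,
      N.A u y = b2, N.A v x = b3, N.A v y = b4
    revert a1 a2 a3 a4 b1 b2 b3 b4
    decide
  · rintro ⟨hx, hy, e⟩
    have c1 := (KK_rel huv h x).1 hx
    have c2 := (KK_rel huv h y).1 hy
    rw [mem_KK] at hx hy
    refine ⟨⟨huv, fun h' => e (by rw [h']), hx.1, hx.2.1, hy.1, hy.2.1⟩, ?_⟩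
    rw [c1, c2]
    revert e
    cases N.A u x <;> cases N.A u y <;> simp

theorem card_filter_bv (K : Finset V) (z : V → Bool) :
    ((K.filter fun w => z w = true).card : ℤ) = ∑ w ∈ K, bv (z w) := by
  simp only [bv]; rw [Finset.sum_boole]

/-- the slice attached to a pair class -/
noncomputable def slc (huv : u ≠ v) (X : Gr d) : Slice {N : Gr d // rel (touch u v) X N} V where
  K := KK u v X
  z N w := N.1.A u w
  τ x y N := ⟨τ u v x y N.1, (rel_equiv _).trans N.2 (τ_rel1 _)⟩
  a := ((KK u v X).filter fun w => X.A u w = true).card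
  hτ := by
    intro x hx y hy N w hw
    by_cases h : dst u v x y N.1
    · rw [mem_KK] at hw
      have e := h.2.2.2
      simp only [τ_pos h, blk_iff h.1, true_or, true_and, hw.1, hw.2.1, false_and,
        or_false, Equiv.swap_apply_def]
      by_cases h1 : w = x
      · subst h1
        simp only [true_or, if_true]
        revert e; cases N.1.A u w <;> cases N.1.A u y <;> simp
      by_cases h2 : w = y
      · subst h2
        simp only [or_true, if_true, if_neg h1]
        revert e; cases N.1.A u w <;> cases N.1.A u x <;> simp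
      simp [h1, h2]
    · simp only [τ_neg h]
      rw [dst_KK huv N.2] at h
      simp only [hx, hy, true_and, not_not] at h
      rw [Equiv.swap_apply_def]
      split_ifs with h1 h2
      · rw [h1, h]
      · rw [h2, h]
      · rfl
  inj := by
    intro N N' h
    have e : rel (touch u v) N.1 N'.1 := (rel_equiv _).trans ((rel_equiv _).symm N.2) N'.2
    have e1 : ∀ w, N.1.A u w = N'.1.A u w := by
      intro w
      by_cases hw : w ∈ KK u v X
      · exact h w hw
      · rw [(KK_rel huv N.2 w).2 hw, (KK_rel huv N'.2 w).2 hw]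
    have e2 : ∀ w, N.1.A v w = N'.1.A v w := by
      intro w
      by_cases h1 : w = u
      · rw [h1, Gr.symm, e1, Gr.symm]
      by_cases h2 : w = v
      · rw [h2, Gr.diag, Gr.diag]
      have := col_P huv e h1 h2
      rw [e1] at this
      revert this
      cases N.1.A v w <;> cases N'.1.A v w <;> simp
    refine Subtype.ext (Gr.ext' fun a b => ?_)
    by_cases hab : touch u v a b
    · rcases hab with rfl | rfl | rfl | rfl
      · exact e1 b
      · exact e2 b
      · rw [Gr.symm, e1, Gr.symm]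
      · rw [Gr.symm, e2, Gr.symm]
    · exact e a b hab
  cnt := by
    intro N
    have e1 := Finset.sum_add_sum_compl (KK u v X) fun w => bv (N.1.A u w)
    have e2 := Finset.sum_add_sum_compl (KK u v X) fun w => bv (X.A u w)
    rw [Gr.deg] at e1 e2
    rw [Finset.sum_congr rfl (s₁ := (KK u v X)ᶜ) (g := fun w => bv (X.A u w)) fun w hw => by
      rw [(KK_rel huv N.2 w).2 (Finset.mem_compl.1 hw)]] at e1
    have : (((KK u v X).filter fun w => N.1.A u w = true).card : ℤ) =
        ((KK u v X).filter fun w => X.A u w = true).card := by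
      rw [card_filter_bv, card_filter_bv]; linarith
    exact_mod_cast this

open Classical in
theorem sum_cls {Ω : Type*} [Fintype Ω] (r : Ω → Ω → Prop) (X : Ω) (F : Ω → ℝ) :
    ∑ Y ∈ cls r X, F Y = ∑ N : {N // r X N}, F N.1 :=
  Finset.sum_subtype _ (fun _ => mem_cls) F

open Classical in
theorem cls_gap (huv : u ≠ v) (f : Gr d → ℝ) (X : Gr d) :
    4 * (KK u v X).card * ∑ Y ∈ cls (rel (touch u v)) X, hh u v f Y ^ 2 ≤
      ∑ Y ∈ cls (rel (touch u v)) X, ∑ x, ∑ y, (f Y - f (τ u v x y Y)) ^ 2 ∧
    ∑ Y ∈ cls (rel (touch u v)) X, ∑ x, ∑ y, dev u v x y f Y ^ 2 ≤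
      (KK u v X).card * ∑ Y ∈ cls (rel (touch u v)) X, hh u v f Y ^ 2 := by
  set m := P (rel (touch u v)) f X with hm
  have hh' : ∀ N : {N : Gr d // rel (touch u v) X N}, hh u v f N.1 = f N.1 - m := by
    intro N; rw [hh, ← P_congr (rel_equiv _) f N.2]
  have h0 : ∑ N : {N : Gr d // rel (touch u v) X N}, hh u v f N.1 = 0 := by
    simp only [hh']
    rw [← sum_cls (rel (touch u v)) X fun Y => f Y - m, Finset.sum_sub_distrib, Finset.sum_const,
      nsmul_eq_mul, hm, P_apply, mul_div_cancel₀ _ (card_cls_pos (rel_equiv _) X).ne', sub_self]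
  simp only [sum_cls]
  constructor
  · refine ((slc huv X).gap _ h0).trans ?_
    rw [Finset.sum_comm (s := univ) (t := univ)]
    refine (Finset.sum_le_sum fun x _ => ?_).trans (Finset.sum_le_sum_of_subset_of_nonneg
      (Finset.subset_univ _) fun _ _ _ => Finset.sum_nonneg fun _ _ =>
        Finset.sum_nonneg fun _ _ => sq_nonneg _)
    rw [Finset.sum_comm (s := univ) (t := univ)]
    refine (Finset.sum_le_sum fun y _ => ?_).trans (Finset.sum_le_sum_of_subset_of_nonneg
      (Finset.subset_univ _) fun _ _ _ => Finset.sum_nonneg fun _ _ => sq_nonneg _)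
    refine le_of_eq (Finset.sum_congr rfl fun N _ => ?_)
    rw [hh', hh']
    simp [slc]
  · refine le_trans (le_of_eq ?_) ((slc huv X).deg2 _ h0)
    rw [Finset.sum_comm (s := univ) (t := univ)]
    symm
    refine Finset.sum_subset_zero_on_sdiff (Finset.subset_univ _) (fun x hx => ?_) fun x hx => ?_
    · refine Finset.sum_eq_zero fun N _ => Finset.sum_eq_zero fun y _ => ?_
      rw [dev, if_neg, sq, mul_zero]
      rw [dst_KK huv N.2]
      exact fun h => (Finset.mem_sdiff.1 hx).2 h.1
    rw [Finset.sum_comm (s := univ) (t := univ)]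
    refine Finset.sum_subset_zero_on_sdiff (Finset.subset_univ _) (fun y hy => ?_) fun y hy => ?_
    · refine Finset.sum_eq_zero fun N _ => ?_
      rw [dev, if_neg, sq, mul_zero]
      rw [dst_KK huv N.2]
      exact fun h => (Finset.mem_sdiff.1 hy).2 h.2.1
    have hs : ∀ N, N ∈ (slc huv X).spl x y ↔ dst u v x y N.1 := by
      intro N
      rw [dst_KK huv N.2]
      simp only [Slice.spl, Finset.mem_filter, Finset.mem_univ, true_and]
      exact ⟨fun h => ⟨hx, hy, h⟩, fun h => h.2.2⟩
    have hd : ∀ N ∈ (slc huv X).spl x y, dev u v x y f N.1 =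
        (∑ N ∈ (slc huv X).spl x y, hh u v f N.1) / ((slc huv X).spl x y).card := by
      intro N hN
      have hpos : (0 : ℝ) < ((slc huv X).spl x y).card := by
        exact_mod_cast Finset.card_pos.2 ⟨N, hN⟩
      have hS : ∀ F : Gr d → ℝ, ∑ Y ∈ cls (rM u v x y) N.1, F Y =
          ∑ N ∈ (slc huv X).spl x y, F N.1 := by
        intro F
        symm
        refine Finset.sum_bij (fun N _ => N.1) ?_ (fun _ _ _ _ h => Subtype.ext h) ?_ fun _ _ => rfl
        · intro N' hN'
          exact mem_cls.2 ⟨(rel_equiv _).trans ((rel_equiv _).symm N.2) N'.2,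
            by simp [← hs, hN, hN']⟩
        · intro Y hY
          rw [mem_cls] at hY
          exact ⟨⟨Y, (rel_equiv _).trans N.2 hY.1⟩, (hs _).2 (hY.2.1 ((hs _).1 hN)), rfl⟩
      have hc : ((cls (rM u v x y) N.1).card : ℝ) = ((slc huv X).spl x y).card := by
        simpa using hS fun _ => 1
      rw [dev, if_pos ((hs N).1 hN), ← P_congr (rel_equiv _) f N.2, P_apply, hS, hc]
      simp only [hh', Finset.sum_sub_distrib, Finset.sum_const, nsmul_eq_mul]
      field_simp
      rfl
    rw [← Finset.sum_subset (Finset.subset_univ ((slc huv X).spl x y)) fun N _ hN => by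
      rw [dev, if_neg (by rwa [← hs]), sq, mul_zero],
      Finset.sum_congr rfl fun N hN => congrArg (· ^ 2) (hd N hN), Finset.sum_const, nsmul_eq_mul]
    by_cases hc : (((slc huv X).spl x y).card : ℝ) = 0
    · simp [hc]
    · field_simp

theorem disj_nonneg (u v : V) (f : Gr d → ℝ) :
    0 ≤ ∑ x, ∑ y, ((∑ X, (f X - f (τ u v x y X)) ^ 2) / 4 - ∑ X, dev u v x y f X ^ 2) := by
  by_cases huv : u = v
  · refine Finset.sum_nonneg fun x _ => Finset.sum_nonneg fun y _ => ?_
    have : ∀ X, dev u v x y f X = 0 := fun X => if_neg fun h => h.1.1 huv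
    simp only [this]
    simpa using div_nonneg (Finset.sum_nonneg fun _ _ => sq_nonneg _) (by norm_num)
  have := sum_nonneg_of_cls (rel_equiv (touch u v))
    (F := fun Y => (∑ x, ∑ y, (f Y - f (τ u v x y Y)) ^ 2) / 4 - ∑ x, ∑ y, dev u v x y f Y ^ 2)
    fun X => by
      obtain ⟨a, b⟩ := cls_gap huv f X
      rw [Finset.sum_sub_distrib, ← Finset.sum_div]
      linarith
  refine this.trans (le_of_eq ?_)
  simp only [Finset.sum_div, ← Finset.sum_sub_distrib]
  rw [Finset.sum_comm]
  refine Finset.sum_congr rfl fun x _ => ?_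
  rw [Finset.sum_comm]

theorem hh_le (u v : V) (f : Gr d → ℝ) :
    4 * ∑ X, hh u v f X ^ 2 ≤ ∑ x, ∑ y, ∑ X, (f X - f (τ u v x y X)) ^ 2 := by
  by_cases huv : u = v
  · subst huv
    simp only [hh_self]
    simpa using Finset.sum_nonneg fun _ _ => Finset.sum_nonneg fun _ _ =>
      Finset.sum_nonneg fun _ _ => sq_nonneg _
  have := sum_nonneg_of_cls (rel_equiv (touch u v))
    (F := fun Y => (∑ x, ∑ y, (f Y - f (τ u v x y Y)) ^ 2) - 4 * hh u v f Y ^ 2)
    fun X => by
      have a := (cls_gap huv f X).1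
      rw [Finset.sum_sub_distrib, ← Finset.mul_sum]
      have hn : 0 ≤ ∑ Y ∈ cls (rel (touch u v)) X, hh u v f Y ^ 2 :=
        Finset.sum_nonneg fun _ _ => sq_nonneg _
      rcases (KK u v X).eq_empty_or_nonempty with h | h
      · have : ∀ Y ∈ cls (rel (touch u v)) X, hh u v f Y ^ 2 = 0 := by
          intro Y hY
          rw [mem_cls] at hY
          rw [hh, P_eq_of_const (rel_equiv _) (c := f Y) fun Z hZ => ?_]
          · simp
          have := (slc huv X).inj ⟨Y, hY⟩ ⟨Z, (rel_equiv _).trans hY hZ⟩ fun w hw => by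
            simp [slc, h] at hw
          exact congrArg f (Subtype.ext_iff.1 this).symm
        rw [Finset.sum_eq_zero this]
        rw [h] at a
        simpa using a
      · have : (1 : ℝ) ≤ (KK u v X).card := by exact_mod_cast h.card_pos
        nlinarith
  rw [Finset.sum_sub_distrib, ← Finset.mul_sum, sub_nonneg] at this
  refine this.trans (le_of_eq ?_)
  rw [Finset.sum_comm]
  refine Finset.sum_congr rfl fun x _ => ?_
  rw [Finset.sum_comm]

end Crest.Agent.R299
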