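import Mathlib
import Crest.Agent.R299.Cls

/-! Bochner inequality, connectivity, and the Poincaré inequality for switches. -/

set_option autoImplicit false
set_option linter.unusedSectionVars false
open Finset

namespace Crest.Agent.R299

variable {V : Type*} [Fintype V] [DecidableEq V] {d : V → ℕ}

instance (u v x y : V) : Decidable (Dist u v x y) := by unfold Dist; infer_instance

theorem sum4_swap (F : V → V → V → V → ℝ) :
    ∑ u, ∑ v, ∑ x, ∑ y, F u v x y = ∑ x, ∑ y, ∑ u, ∑ v, F u v x y := by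
  calc ∑ u, ∑ v, ∑ x, ∑ y, F u v x y = ∑ p : V × V, ∑ q : V × V, F p.1 p.2 q.1 q.2 := by
        simp only [Fintype.sum_prod_type]
    _ = ∑ q : V × V, ∑ p : V × V, F p.1 p.2 q.1 q.2 := Finset.sum_comm
    _ = _ := by simp only [Fintype.sum_prod_type]

theorem disj_sum (f : Gr d → ℝ) :
    0 ≤ ∑ u, ∑ v, ∑ x, ∑ y, if Dist u v x y then ∑ X, hh u v f X * hh x y f X else 0 := by
  have h1 : ∑ u, ∑ v, ∑ x, ∑ y, ((∑ X, (f X - f (τ u v x y X)) ^ 2) / 4 -
      (∑ X, dev u v x y f X ^ 2 + ∑ X, dev x y u v f X ^ 2) / 2) ≤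
      ∑ u, ∑ v, ∑ x, ∑ y, if Dist u v x y then ∑ X, hh u v f X * hh x y f X else 0 := by
    refine Finset.sum_le_sum fun u _ => Finset.sum_le_sum fun v _ => Finset.sum_le_sum fun x _ =>
      Finset.sum_le_sum fun y _ => ?_
    split_ifs with h
    · exact pair_ineq h f
    · have a : ∀ X : Gr d, τ u v x y X = X := fun X => τ_neg fun h' => h h'.1
      have b : ∀ X, dev u v x y f X = 0 := fun X => if_neg fun h' => h h'.1
      have c : ∀ X, dev x y u v f X = 0 := fun X => if_neg fun h' => h h'.1.symm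
      simp [a, b, c]
  refine le_trans ?_ h1
  have h2 := sum4_swap fun u v x y => ∑ X, dev u v x y f X ^ 2
  have h3 : 0 ≤ ∑ u, ∑ v, ∑ x, ∑ y,
      ((∑ X, (f X - f (τ u v x y X)) ^ 2) / 4 - ∑ X, dev u v x y f X ^ 2) :=
    Finset.sum_nonneg fun u _ => Finset.sum_nonneg fun v _ => disj_nonneg u v f
  simp only [add_div, Finset.sum_sub_distrib, Finset.sum_add_distrib, ← Finset.sum_div] at h3 ⊢
  linarith

theorem tri_sum (f : Gr d → ℝ) :
    0 ≤ ∑ u, ∑ v, ∑ w, if u ≠ v ∧ u ≠ w ∧ v ≠ w then ∑ X, hh u v f X * hh u w f X else 0 := by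
  set b : V → V → V → ℝ := fun u v w =>
    if u ≠ v ∧ u ≠ w ∧ v ≠ w then ∑ X, hh u v f X * hh u w f X else 0 with hb
  have h1 : ∑ u, ∑ v, ∑ w, b v w u = ∑ u, ∑ v, ∑ w, b u v w := by
    rw [Finset.sum_comm]
    exact Finset.sum_congr rfl fun _ _ => Finset.sum_comm
  have h2 : ∑ u, ∑ v, ∑ w, b w u v = ∑ u, ∑ v, ∑ w, b u v w := by
    symm
    rw [Finset.sum_comm]
    exact Finset.sum_congr rfl fun _ _ => Finset.sum_comm
  have h3 : 0 ≤ ∑ u, ∑ v, ∑ w, (b u v w + b v w u + b w u v) := by
    refine Finset.sum_nonneg fun u _ => Finset.sum_nonneg fun v _ => Finset.sum_nonneg fun w _ => ?_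
    by_cases h : u ≠ v ∧ u ≠ w ∧ v ≠ w
    · simp only [hb]
      rw [if_pos h, if_pos ⟨h.2.2, h.1.symm, h.2.1.symm⟩, if_pos ⟨h.2.1.symm, h.2.2.symm, h.1⟩]
      exact triple_ineq h.1 h.2.1 h.2.2 f
    · simp only [hb]
      rw [if_neg h, if_neg fun h' => h ⟨h'.2.1.symm, h'.2.2.symm, h'.1⟩,
        if_neg fun h' => h ⟨h'.2.2, h'.1.symm, h'.2.1.symm⟩]
      simp
  simp only [Finset.sum_add_distrib] at h3
  show 0 ≤ ∑ u, ∑ v, ∑ w, b u v w
  linarith

theorem split_pair {u v : V} (huv : u ≠ v) (a : V → V → ℝ) (h0 : ∀ x, a x x = 0)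
    (hs : ∀ x y, a x y = a y x) :
    ∑ x, ∑ y, a x y = ∑ x, ∑ y, (if Dist u v x y then a x y else 0) +
      2 * ∑ w, (if u ≠ v ∧ u ≠ w ∧ v ≠ w then a u w else 0) +
      2 * ∑ w, (if v ≠ u ∧ v ≠ w ∧ u ≠ w then a v w else 0) + 2 * a u v := by
  have key : ∀ x y, a x y = (if Dist u v x y then a x y else 0) +
      (if x = u then (if u ≠ v ∧ u ≠ y ∧ v ≠ y then a u y else 0) else 0) +
      (if y = u then (if u ≠ v ∧ u ≠ x ∧ v ≠ x then a u x else 0) else 0) +
      (if x = v then (if v ≠ u ∧ v ≠ y ∧ u ≠ y then a v y else 0) else 0) +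
      (if y = v then (if v ≠ u ∧ v ≠ x ∧ u ≠ x then a v x else 0) else 0) +
      (if y = v then (if x = u then a u v else 0) else 0) +
      (if y = u then (if x = v then a u v else 0) else 0) := by
    intro x y
    have hvu := huv.symm
    by_cases h1 : x = u
    · subst h1
      by_cases h3 : y = x
      · subst h3; simp [Dist, h0, huv]
      by_cases h4 : y = v
      · subst h4; simp [Dist, huv, hvu]
      simp [Dist, huv, h3, h4, Ne.symm h3, Ne.symm h4]
    by_cases h2 : x = v
    · subst h2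
      by_cases h3 : y = u
      · subst h3; simp [Dist, huv, hvu, hs x y]
      by_cases h4 : y = x
      · subst h4; simp [Dist, h0, hvu]
      simp [Dist, hvu, h3, h4, Ne.symm h3, Ne.symm h4]
    by_cases h3 : y = u
    · subst h3; simp [Dist, huv, h1, h2, Ne.symm h1, Ne.symm h2, hs x y]
    by_cases h4 : y = v
    · subst h4; simp [Dist, hvu, h1, h2, Ne.symm h1, Ne.symm h2, hs x y]
    by_cases h5 : x = y
    · subst h5; simp [Dist, h0, h1, h2]
    simp [Dist, huv, h1, h2, h3, h4, h5]
  rw [Finset.sum_congr rfl fun x _ => Finset.sum_congr rfl fun y _ => key x y]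
  simp only [Finset.sum_add_distrib, Finset.sum_ite_eq', Finset.mem_univ, if_true]
  rw [Finset.sum_comm (f := fun x y => if x = u then _ else 0),
    Finset.sum_comm (f := fun x y => if x = v then _ else 0)]
  simp only [Finset.sum_ite_eq', Finset.mem_univ, if_true]
  ring

theorem bochner (f : Gr d → ℝ) :
    2 * ∑ u, ∑ v, ∑ X, hh u v f X ^ 2 ≤ ∑ X, (∑ u, ∑ v, hh u v f X) ^ 2 := by
  have e1 : ∑ X, (∑ u, ∑ v, hh u v f X) ^ 2 =
      ∑ u, ∑ v, ∑ x, ∑ y, ∑ X, hh u v f X * hh x y f X := by
    simp only [sq, Finset.sum_mul, Finset.mul_sum]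
    rw [Finset.sum_comm]
    refine Finset.sum_congr rfl fun u _ => ?_
    rw [Finset.sum_comm]
    refine Finset.sum_congr rfl fun v _ => ?_
    rw [Finset.sum_comm]
    refine Finset.sum_congr rfl fun x _ => ?_
    rw [Finset.sum_comm]
    simp only [mul_comm]
  have e2 : ∀ u v, ∑ x, ∑ y, ∑ X, hh u v f X * hh x y f X =
      ∑ x, ∑ y, (if Dist u v x y then ∑ X, hh u v f X * hh x y f X else 0) +
      2 * ∑ w, (if u ≠ v ∧ u ≠ w ∧ v ≠ w then ∑ X, hh u v f X * hh u w f X else 0) +
      2 * ∑ w, (if v ≠ u ∧ v ≠ w ∧ u ≠ w then ∑ X, hh v u f X * hh v w f X else 0) +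
      2 * ∑ X, hh u v f X ^ 2 := by
    intro u v
    by_cases huv : u = v
    · subst huv; simp [hh_self]
    rw [split_pair huv (fun x y => ∑ X, hh u v f X * hh x y f X) (fun x => by simp [hh_self])
      fun x y => by rw [hh_comm x y], hh_comm v u]
    simp only [sq]
  have a := disj_sum f
  have b := tri_sum f
  have c := b
  rw [Finset.sum_comm] at c
  simp only [e1, e2, Finset.sum_add_distrib, ← Finset.mul_sum]
  linarith

theorem exists_switch (U : Finset V) {X : Gr d} {v x y : V} (hv : v ∈ U) (hx : x ∈ U) (hy : y ∈ U)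
    (hyv : y ≠ v) (h1 : X.A v x = true) (h2 : X.A v y = false)
    (h : ∑ c ∈ U, bv (X.A x c) ≤ ∑ c ∈ U, bv (X.A y c)) : ∃ w ∈ U, dst v w x y X := by
  have hxv : x ≠ v := by rintro rfl; simp [X.diag] at h1
  have hxy : x ≠ y := by rintro rfl; simp [h1] at h2
  by_contra hc
  push Not at hc
  have e1 : ∑ c ∈ U, bv (X.A y c) = ∑ c ∈ U, bv (X.A y (Equiv.swap x y c)) := by
    symm
    refine Finset.sum_equiv (Equiv.swap x y) (fun c => ?_) fun _ _ => rfl
    rw [Equiv.swap_apply_def]
    split_ifs with a b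
    · simp [a, hx, hy]
    · simp [b, hx, hy]
    · rfl
  have : ∑ c ∈ U, bv (X.A y (Equiv.swap x y c)) < ∑ c ∈ U, bv (X.A x c) := by
    refine Finset.sum_lt_sum (fun c hcU => ?_) ⟨v, hv, ?_⟩
    · rw [Equiv.swap_apply_def]
      split_ifs with a b
      · rw [a, X.diag, X.diag]
      · rw [b, X.symm]
      · by_cases e : c = v
        · rw [e, X.symm y, X.symm x, h1, h2]; simp
        have := hc c hcU
        simp only [dst, Dist, h1, h2, X.symm c] at this
        revert this
        cases X.A y c <;> cases X.A x c <;> simp [*, Ne.symm]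
    · rw [Equiv.swap_apply_of_ne_of_ne hxv.symm hyv.symm, X.symm y, X.symm x, h1, h2]; simp
  linarith

theorem conn {α : Type*} (f : Gr d → α) (hf : ∀ u v x y X, f (τ u v x y X) = f X) (X Y : Gr d) :
    f X = f Y := by
  suffices H : ∀ U : Finset V, ∀ X Y : Gr d, rel (fun a b => a ∈ U ∧ b ∈ U) X Y → f X = f Y from
    H univ X Y fun a b h => absurd ⟨Finset.mem_univ _, Finset.mem_univ _⟩ h
  intro U
  induction U using Finset.induction_on with
  | empty => intro X Y h; rw [Gr.ext' fun a b => h a b (by simp)]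
  | insert v U' hv ih =>
    set U := insert v U' with hU
    have hvU : v ∈ U := Finset.mem_insert_self _ _
    intro X Y
    induction' hm : (univ.filter fun c => X.A v c ≠ Y.A v c).card using Nat.strong_induction_on
      with m ihm generalizing X Y
    intro h
    by_cases h0 : ∀ c, X.A v c = Y.A v c
    · refine ih X Y fun a b hab => ?_
      by_cases ha : a = v
      · rw [ha, h0]
      by_cases hb : b = v
      · rw [hb, X.symm, Y.symm, h0]
      exact h a b (by simpa [hU, ha, hb] using hab)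
    have hex : ∀ X Y : Gr d, ¬ (∀ c, X.A v c = Y.A v c) → ∃ x, X.A v x = true ∧ Y.A v x = false := by
      intro X Y h0
      by_contra hc
      push Not at hc h0
      obtain ⟨c, h0⟩ := h0
      have : ∑ c, bv (X.A v c) < ∑ c, bv (Y.A v c) := by
        refine Finset.sum_lt_sum (fun c _ => ?_) ⟨c, Finset.mem_univ _, ?_⟩
        · have := hc c
          revert this
          cases X.A v c <;> cases Y.A v c <;> simp
        · have := hc c
          revert this h0
          cases X.A v c <;> cases Y.A v c <;> simp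
      rw [X.deg, Y.deg] at this
      exact lt_irrefl _ this
    obtain ⟨x, x1, x2⟩ := hex X Y h0
    obtain ⟨y, y1, y2⟩ := hex Y X fun h' => h0 fun c => (h' c).symm
    have hxU : x ∈ U := by
      by_contra hx
      have := h v x fun h' => hx h'.2
      simp [x1, x2] at this
    have hyU : y ∈ U := by
      by_contra hy
      have := h v y fun h' => hy h'.2
      simp [y1, y2] at this
    have hxv : x ≠ v := by rintro rfl; simp [X.diag] at x1
    have hyv : y ≠ v := by rintro rfl; simp [Y.diag] at y1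
    have hD : ∀ a, ∑ c ∈ U, bv (X.A a c) = ∑ c ∈ U, bv (Y.A a c) := by
      intro a
      have e1 := Finset.sum_add_sum_compl U fun c => bv (X.A a c)
      have e2 := Finset.sum_add_sum_compl U fun c => bv (Y.A a c)
      rw [Gr.deg] at e1 e2
      rw [Finset.sum_congr rfl (s₁ := Uᶜ) (g := fun c => bv (Y.A a c)) fun c hc => by
        rw [h a c fun h' => Finset.mem_compl.1 hc h'.2]] at e1
      linarith
    have step : ∀ (X Y : Gr d) (x y w : V), x ∈ U → y ∈ U → w ∈ U → X.A v x = true →
        Y.A v x = false → X.A v y = false → Y.A v y = true → dst v w x y X →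
        rel (fun a b => a ∈ U ∧ b ∈ U) X (τ v w x y X) ∧
        (univ.filter fun c => (τ v w x y X).A v c ≠ Y.A v c).card <
          (univ.filter fun c => X.A v c ≠ Y.A v c).card := by
      intro X Y x y w hx hy hw x1 x2 y2 y1 hd
      refine ⟨rel_mono (fun a b hab => ?_) (τ_rel X), Finset.card_lt_card ⟨fun c hc => ?_,
        fun hsub => ?_⟩⟩
      · rw [blk_iff hd.1] at hab
        rcases hab with ⟨rfl | rfl, rfl | rfl⟩ | ⟨rfl | rfl, rfl | rfl⟩ <;> exact ⟨‹_›, ‹_›⟩
      · simp only [Finset.mem_filter, Finset.mem_univ, true_and, τ_pos hd, blk_iff hd.1] at hc ⊢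
        by_cases a : c = x
        · simp [a, x1, x2]
        by_cases b : c = y
        · simp [b, y1, y2]
        rwa [if_neg (by simp [a, b, hd.1.2.2.1.symm, hd.1.2.2.2.2.1.symm])] at hc
      · have := hsub (show x ∈ _ by simp [x1, x2])
        simp [τ_pos hd, blk_iff hd.1, x1, x2] at this
    rcases le_total (∑ c ∈ U, bv (X.A x c)) (∑ c ∈ U, bv (X.A y c)) with hle | hle
    · obtain ⟨w, hw, hd⟩ := exists_switch U hvU hxU hyU hyv x1 y2 hle
      obtain ⟨a, b⟩ := step X Y x y w hxU hyU hw x1 x2 y2 y1 hd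
      rw [← hf v w x y X]
      exact ihm _ (hm ▸ b) _ _ rfl ((rel_equiv _).trans ((rel_equiv _).symm a) h)
    · rw [hD, hD] at hle
      obtain ⟨w, hw, hd⟩ := exists_switch U hvU hyU hxU hxv y1 x2 hle
      obtain ⟨a, b⟩ := step Y X y x w hyU hxU hw y1 y2 x2 x1 hd
      rw [← hf v w y x Y]
      refine ihm _ ?_ _ _ rfl ((rel_equiv _).trans h a)
      simp only [ne_comm (a := X.A _ _)] at hm ⊢
      exact hm ▸ b

theorem poincare_hh (f : Gr d → ℝ) :
    2 * ∑ X, (f X - P (fun _ _ => True) f X) ^ 2 ≤ ∑ u, ∑ v, ∑ X, hh u v f X ^ 2 := by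
  have hE : Equivalence fun _ _ : Gr d => True := ⟨fun _ => trivial, fun _ => trivial,
    fun _ _ => trivial⟩
  let H : (Gr d → ℝ) →ₗ[ℝ] (Gr d → ℝ) := ∑ u, ∑ v, (LinearMap.id - P (rel (touch u v)))
  have hH : ∀ g X, H g X = ∑ u, ∑ v, hh u v g X := by
    intro g X; simp [H, LinearMap.sum_apply, Finset.sum_apply, hh]
  have hin : ∀ g, ∑ X, g X * H g X = ∑ u, ∑ v, ∑ X, hh u v g X ^ 2 := by
    intro g
    simp only [hH, Finset.mul_sum]
    rw [Finset.sum_comm]
    refine Finset.sum_congr rfl fun u _ => ?_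
    rw [Finset.sum_comm]
    exact Finset.sum_congr rfl fun v _ => inner_h (rel_equiv _) g
  have hsa : ∀ g g', ∑ X, H g X * g' X = ∑ X, g X * H g' X := by
    intro g g'
    simp only [hH, Finset.mul_sum, Finset.sum_mul]
    rw [Finset.sum_comm, Finset.sum_comm (f := fun X u => ∑ v, g X * hh u v g' X)]
    refine Finset.sum_congr rfl fun u _ => ?_
    rw [Finset.sum_comm, Finset.sum_comm (f := fun X v => g X * hh u v g' X)]
    refine Finset.sum_congr rfl fun v _ => ?_
    simp only [hh, sub_mul, mul_sub, Finset.sum_sub_distrib, P_selfadj (rel_equiv _)]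
  have hEH : ∀ g, P (fun _ _ => True) (H g) = 0 := by
    intro g
    simp only [H, LinearMap.sum_apply, map_sum, LinearMap.sub_apply, LinearMap.id_apply, map_sub,
      P_P_right (rel_equiv _) hE fun _ _ _ => trivial, sub_self, Finset.sum_const_zero]
  have key := spec_nonneg (H + (2 : ℝ) • P (fun _ _ => True)) ?_ 0 1 (-2) ?_ f
  · simp only [LinearMap.add_apply, LinearMap.smul_apply, Pi.add_apply, Pi.smul_apply, smul_eq_mul,
      mul_add, Finset.sum_add_distrib, hin] at key
    have := inner_h hE f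
    simp only [mul_sub, Finset.sum_sub_distrib, ← sq] at this
    simp only [mul_left_comm _ (2 : ℝ), ← Finset.mul_sum] at key
    linarith
  · intro g g'
    simp only [LinearMap.add_apply, LinearMap.smul_apply, Pi.add_apply, Pi.smul_apply, smul_eq_mul,
      mul_add, add_mul, Finset.sum_add_distrib, hsa, mul_left_comm _ (2 : ℝ), mul_assoc,
      ← Finset.mul_sum, P_selfadj hE]
  · intro μ g hg0 hg
    have e := congrArg (P fun _ _ => True) hg
    simp only [LinearMap.add_apply, LinearMap.smul_apply, map_add, map_smul, hEH, P_idem hE,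
      zero_add] at e hg
    by_cases hm : μ = 2
    · rw [hm]; norm_num
    have e0 : P (fun _ _ => True) g = 0 := by
      have : (2 - μ) • P (fun _ _ => True) g = 0 := by rw [sub_smul, e, sub_self]
      exact (smul_eq_zero.1 this).resolve_left (sub_ne_zero.2 (Ne.symm hm))
    rw [e0, smul_zero, add_zero] at hg
    have b := bochner g
    rw [← hin] at b
    have hi := hin g
    simp only [← hH, hg, Pi.smul_apply, smul_eq_mul, mul_pow, mul_left_comm _ μ, ← sq,
      ← Finset.mul_sum] at b hi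
    have hpos : 0 < ∑ X, g X ^ 2 := by
      obtain ⟨X, hX⟩ := Function.ne_iff.1 hg0
      exact Finset.sum_pos' (fun _ _ => sq_nonneg _) ⟨X, Finset.mem_univ _, by
        have : g X ≠ 0 := hX
        positivity⟩
    have hnn : ∀ u v, 0 ≤ ∑ X, hh u v g X ^ 2 := fun _ _ => Finset.sum_nonneg fun _ _ => sq_nonneg _
    have hμ : 0 ≤ μ := by
      by_contra hlt
      have : 0 ≤ ∑ u, ∑ v, ∑ X, hh u v g X ^ 2 :=
        Finset.sum_nonneg fun u _ => Finset.sum_nonneg fun v _ => hnn u v
      nlinarith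
    have hμ0 : μ ≠ 0 := by
      rintro rfl
      rw [zero_mul, eq_comm, Finset.sum_eq_zero_iff_of_nonneg fun u _ =>
        Finset.sum_nonneg fun v _ => hnn u v] at hi
      have hz : ∀ u v X, hh u v g X = 0 := by
        intro u v X
        have := (Finset.sum_eq_zero_iff_of_nonneg fun v _ => hnn u v).1 (hi u (Finset.mem_univ _)) v
          (Finset.mem_univ _)
        simpa using (Finset.sum_eq_zero_iff_of_nonneg fun _ _ => sq_nonneg _).1 this X
          (Finset.mem_univ _)
      have hc := conn g fun u v x y X => by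
        have a := hz u v X
        have b := hz u v (τ u v x y X)
        rw [hh] at a b
        rw [← P_congr (rel_equiv _) g (τ_rel1 X)] at b
        linarith
      refine hg0 (funext fun X => ?_)
      rw [← e0, P_eq_of_const hE (c := g X) fun Y _ => hc Y X]
    have : 0 < μ := lt_of_le_of_ne hμ hμ0.symm
    by_contra hlt
    have : μ < 2 := by linarith [not_le.1 hlt]
    nlinarith [mul_pos ‹0 < μ› hpos]

theorem poincare_τ (f : Gr d → ℝ) :
    8 * ∑ X, (f X - P (fun _ _ => True) f X) ^ 2 ≤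
      ∑ u, ∑ v, ∑ x, ∑ y, ∑ X, (f X - f (τ u v x y X)) ^ 2 := by
  have a := poincare_hh f
  have b : 4 * ∑ u, ∑ v, ∑ X, hh u v f X ^ 2 ≤
      ∑ u, ∑ v, ∑ x, ∑ y, ∑ X, (f X - f (τ u v x y X)) ^ 2 := by
    simp only [Finset.mul_sum (s := (univ : Finset V))]
    exact Finset.sum_le_sum fun u _ => Finset.sum_le_sum fun v _ => hh_le u v f
  linarith

end Crest.Agent.R299
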