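import Mathlib
import Crest.Prelude.Def_SwitchChain
import Crest.Agent.R299.Boch

/-! Facts on the switch kernel. -/

set_option autoImplicit false
open Finset
open Crest.SwitchChain

namespace Crest.Agent.R299

variable {n : ℕ}

/-- an edge from two distinct vertices -/
def ed (a b : Fin n) (h : a ≠ b) : Edge n := ⟨s(a, b), by simpa using h⟩

theorem ed_surj (e : Edge n) : ∃ a b h, e = ed a b h := by
  obtain ⟨e, he⟩ := e
  induction e using Sym2.ind with
  | _ a b => exact ⟨a, b, by simpa using he, rfl⟩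

@[simp] theorem ed_eq {a b c e : Fin n} {h : a ≠ b} {h' : c ≠ e} :
    ed a b h = ed c e h' ↔ a = c ∧ b = e ∨ a = e ∧ b = c := by
  simp [ed, Subtype.ext_iff]

@[simp] theorem mem_ed {a b v : Fin n} {h : a ≠ b} : v ∈ (ed a b h).1 ↔ v = a ∨ v = b := by
  simp [ed]

theorem pair_eq {α : Type*} [DecidableEq α] {a b c e : α} :
    ({a, b} : Finset α) = {c, e} ↔ a = c ∧ b = e ∨ a = e ∧ b = c := by
  rw [← Finset.coe_inj, Finset.coe_pair, Finset.coe_pair, Set.pair_eq_pair_iff]

theorem card_filter_pair {α : Type*} [DecidableEq α] {a b : α} (h : a ≠ b) (p : α → Prop)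
    [DecidablePred p] : (({a, b} : Finset α).filter p).card = 1 ↔ (p a ↔ ¬ p b) := by
  rw [Finset.filter_insert, Finset.filter_singleton]
  by_cases ha : p a <;> by_cases hb : p b <;> simp [ha, hb, h]

theorem mem_pm {S : Finset (Fin n)} {p q r s : Fin n} (h1 : p ≠ q) (h2 : p ≠ r) (h3 : p ≠ s)
    (h4 : q ≠ r) (h5 : q ≠ s) (h6 : r ≠ s) (hS : ∀ w, w ∈ S ↔ w = p ∨ w = q ∨ w = r ∨ w = s) :
    {ed p q h1, ed r s h6} ∈ pmSet S := by
  have hne : ed p q h1 ≠ ed r s h6 := by simp [h2, h3]
  simp only [pmSet, Finset.mem_filter, Finset.mem_powersetCard, Finset.subset_univ, true_and,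
    Finset.card_pair hne, card_filter_pair hne, mem_ed, hS, Finset.mem_insert, Finset.mem_singleton]
  refine ⟨?_, ?_⟩
  · rintro e (rfl | rfl) v hv <;> rw [mem_ed] at hv <;> tauto
  · rintro v (rfl | rfl | rfl | rfl) <;> simp [*, Ne.symm]

theorem card_pm {S : Finset (Fin n)} (hS : S.card = 4) : (pmSet S).card = 3 := by
  obtain ⟨a, b, c, e, h1, h2, h3, h4, h5, h6, rfl⟩ := Finset.card_eq_four.1 hS
  rw [Finset.card_eq_three]
  refine ⟨{ed a b h1, ed c e h6}, {ed a c h2, ed b e h5}, {ed a e h3, ed b c h4}, ?_, ?_, ?_, ?_⟩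
  · simp [pair_eq, *, Ne.symm]
  · simp [pair_eq, *, Ne.symm]
  · simp [pair_eq, *, Ne.symm]
  ext F
  simp only [Finset.mem_insert, Finset.mem_singleton]
  constructor
  · intro hF
    simp only [pmSet, Finset.mem_filter, Finset.mem_powersetCard, Finset.subset_univ, true_and,
      Finset.card_eq_two] at hF
    obtain ⟨⟨e1, e2, hne, rfl⟩, hA, hB⟩ := hF
    obtain ⟨p, q, hpq, rfl⟩ := ed_surj e1
    obtain ⟨r, s, hrs, rfl⟩ := ed_surj e2
    simp only [card_filter_pair hne, mem_ed] at hB
    have hp := hA (ed p q hpq) (by simp) p (by simp)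
    have hq := hA (ed p q hpq) (by simp) q (by simp)
    have hr := hA (ed r s hrs) (by simp) r (by simp)
    have hs := hA (ed r s hrs) (by simp) s (by simp)
    have p' := (hB p hp).1 (Or.inl rfl)
    have q' := (hB q hq).1 (Or.inr rfl)
    rw [not_or] at p' q'
    obtain ⟨p1, p2⟩ := p'
    obtain ⟨q1, q2⟩ := q'
    simp only [Finset.mem_insert, Finset.mem_singleton] at hp hq hr hs
    simp only [pair_eq, ed_eq]
    clear hA hB hne hS
    rcases hp with rfl | rfl | rfl | rfl <;> rcases hq with rfl | rfl | rfl | rfl <;>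
      (try exact absurd rfl hpq) <;> rcases hr with rfl | rfl | rfl | rfl <;>
      (try exact absurd rfl p1) <;> (try exact absurd rfl q1) <;>
      rcases hs with rfl | rfl | rfl | rfl <;>
      (try exact absurd rfl p2) <;> (try exact absurd rfl q2) <;> (try exact absurd rfl hrs) <;> simp
  · rintro (rfl | rfl | rfl)
    · exact mem_pm h1 h2 h3 h4 h5 h6 (by simp)
    · refine mem_pm h2 h1 h3 h4.symm h6 h5 fun w => ?_
      simp only [Finset.mem_insert, Finset.mem_singleton]; tauto
    · refine mem_pm h3 h1 h2 h5.symm h6.symm h4 fun w => ?_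
      simp only [Finset.mem_insert, Finset.mem_singleton]; tauto

theorem deg_pm {S : Finset (Fin n)} {F : Finset (Edge n)} (hF : F ∈ pmSet S) (v : Fin n) :
    deg F v = if v ∈ S then 1 else 0 := by
  simp only [pmSet, Finset.mem_filter] at hF
  split_ifs with h
  · exact hF.2.2 v h
  · rw [deg, Finset.card_eq_zero, Finset.filter_eq_empty_iff]
    exact fun e he hv => h (hF.2.1 e he v hv)

theorem deg_switch {S : Finset (Fin n)} {E F F' : Finset (Edge n)} (hF : F ∈ pmSet S)
    (hF' : F' ∈ pmSet S) (v : Fin n) : deg (switchResult E F F') v = deg E v := by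
  unfold switchResult
  split_ifs with h
  · have e := (deg_pm hF v).trans (deg_pm hF' v).symm
    unfold deg at *
    rw [Finset.filter_union, Finset.card_union_of_disjoint
      (Finset.disjoint_filter_filter (h.2.symm.mono_left Finset.sdiff_subset)), ← e,
      ← Finset.card_union_of_disjoint (Finset.disjoint_filter_filter Finset.sdiff_disjoint),
      ← Finset.filter_union, Finset.sdiff_union_of_subset h.1]
  · rfl

theorem switch_symm {E E' F F' : Finset (Edge n)} (hne : E ≠ E') (h : switchResult E F F' = E') :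
    switchResult E' F' F = E := by
  unfold switchResult at *
  split_ifs at h with h1
  · subst h
    rw [if_pos ⟨Finset.subset_union_right, Finset.disjoint_union_right.2
      ⟨Finset.disjoint_sdiff, (h1.2.mono_right h1.1).symm⟩⟩]
    ext e
    have a : e ∈ F → e ∈ E := fun h => h1.1 h
    have b : e ∈ F' → e ∉ E := fun h => Finset.disjoint_left.1 h1.2 h
    simp only [Finset.mem_union, Finset.mem_sdiff]
    tauto
  · exact absurd h hne

theorem pc_symm (E E' : Finset (Edge n)) : proposalCount E E' = proposalCount E' E := by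
  by_cases hne : E = E'
  · rw [hne]
  unfold proposalCount
  refine Finset.sum_congr rfl fun S _ => ?_
  rw [Finset.sum_comm' (t' := pmSet S) (s' := fun F => (pmSet S).erase F)
    (by simp only [Finset.mem_erase]; tauto)]
  refine Finset.sum_congr rfl fun F _ => Finset.sum_congr rfl fun F' _ => ?_
  exact if_congr ⟨switch_symm hne, switch_symm (Ne.symm hne)⟩ rfl rfl

theorem pc_zero {d : Fin n → ℕ} {E E' : Finset (Edge n)} (hE : E ∈ realizations d)
    (hE' : E' ∉ realizations d) : proposalCount E E' = 0 := by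
  refine Finset.sum_eq_zero fun S _ => Finset.sum_eq_zero fun F hF =>
    Finset.sum_eq_zero fun F' hF' => if_neg ?_
  rintro rfl
  simp only [realizations, Finset.mem_filter, Finset.mem_univ, true_and] at hE hE'
  exact hE' fun v => by rw [deg_switch hF (Finset.mem_of_mem_erase hF'), hE]

theorem pc_sum {d : Fin n → ℕ} {E : Finset (Edge n)} (hE : E ∈ realizations d) :
    ∑ E' ∈ realizations d, proposalCount E E' = 6 * n.choose 4 := by
  rw [Finset.sum_subset (Finset.subset_univ _) fun E' _ h => pc_zero hE h]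
  unfold proposalCount
  rw [Finset.sum_comm, Finset.sum_congr rfl (g := fun _ => 6)]
  · simp [mul_comm]
  intro S hS
  have hc := card_pm (Finset.mem_powersetCard.1 hS).2
  rw [Finset.sum_comm, Finset.sum_congr rfl (g := fun _ => 2)]
  · simp [hc]
  intro F hF
  rw [Finset.sum_comm]
  simp [Finset.card_erase_of_mem hF, hc]

variable {d : Fin n → ℕ}

/-- edge set of a graph -/
def toG (X : Gr d) : Finset (Edge n) :=
  univ.filter fun e => Sym2.lift ⟨fun a b => X.A a b, X.symm⟩ e.1 = true

@[simp] theorem mem_toG {X : Gr d} {a b : Fin n} {h : a ≠ b} : ed a b h ∈ toG X ↔ X.A a b = true := by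
  simp [toG, ed]

/-- adjacency of an edge set -/
def adj (E : Finset (Edge n)) (a b : Fin n) : Bool := if h : a ≠ b then decide (ed a b h ∈ E) else false

theorem deg_adj (E : Finset (Edge n)) (v : Fin n) : ∑ b, bv (adj E v b) = deg E v := by
  rw [← card_filter_bv, deg]
  congr 1
  have key : ∀ b, b ∈ univ.filter (fun b => adj E v b = true) → v ≠ b := by
    intro b hb h
    simp [adj, h] at hb
  refine Finset.card_bij (fun b hb => ed v b (key b hb)) ?_ ?_ ?_
  · intro b hb
    have := key b hb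
    simpa [adj, this] using hb
  · intro b hb c hc h
    rcases ed_eq.1 h with h | h
    · exact h.2
    · exact absurd h.1 (key c hc)
  · intro e he
    obtain ⟨a, b, h, rfl⟩ := ed_surj e
    simp only [Finset.mem_filter, mem_ed] at he
    rcases he with ⟨he, rfl | rfl⟩
    · exact ⟨b, by simpa [adj, h] using he, rfl⟩
    · have : ed v a h.symm = ed a v h := by simp
      exact ⟨a, by simpa [adj, h.symm, this] using he, this⟩

theorem adj_toG (X : Gr d) (a b : Fin n) : adj (toG X) a b = X.A a b := by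
  unfold adj
  split_ifs with h
  · simp
  · rw [not_not.1 h, X.diag]

theorem toG_mem (X : Gr d) : toG X ∈ realizations d := by
  simp only [realizations, Finset.mem_filter, Finset.mem_univ, true_and]
  intro v
  have := deg_adj (toG X) v
  simp only [adj_toG, X.deg] at this
  exact_mod_cast this.symm

theorem toG_inj : Function.Injective (toG (d := d)) := fun X Y h =>
  Gr.ext' fun a b => by rw [← adj_toG, h, adj_toG]

theorem toG_surj {E : Finset (Edge n)} (hE : E ∈ realizations d) : ∃ X : Gr d, toG X = E := by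
  simp only [realizations, Finset.mem_filter, Finset.mem_univ, true_and] at hE
  refine ⟨⟨adj E, fun a b => ?_, fun a => by simp [adj], fun a => by rw [deg_adj, hE]⟩, ?_⟩
  · by_cases h : a = b
    · rw [h]
    have : ed b a (Ne.symm h) = ed a b h := by simp
    simp [adj, h, Ne.symm h, this]
  · ext e
    obtain ⟨a, b, h, rfl⟩ := ed_surj e
    simp [adj, h]

theorem sum_toG (F : Finset (Edge n) → ℝ) : ∑ X : Gr d, F (toG X) = ∑ E ∈ realizations d, F E :=
  Finset.sum_bij (fun X _ => toG X) (fun X _ => toG_mem X) (fun _ _ _ _ h => toG_inj h)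
    (fun _ hE => by simpa using toG_surj hE) fun _ _ => rfl

theorem pc_pos_aux {u v x y : Fin n} {X : Gr d} (h : dst u v x y X) (h1 : X.A u x = true) :
    1 ≤ proposalCount (toG X) (toG (τ u v x y X)) := by
  obtain ⟨⟨a1, a2, a3, a4, a5, a6⟩, e1, e2, e3⟩ := id h
  have h2 : X.A v y = true := e1 ▸ h1
  have h3 : X.A u y = false := by simpa [h1] using e3
  have h4 : X.A v x = false := e2 ▸ h3
  have hS : ({u, v, x, y} : Finset (Fin n)) ∈ (univ : Finset (Fin n)).powersetCard 4 :=
    Finset.mem_powersetCard.2 ⟨Finset.subset_univ _, Finset.card_eq_four.2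
      ⟨u, v, x, y, a1, a3.symm, a5.symm, a4.symm, a6.symm, a2, rfl⟩⟩
  have hF := mem_pm (S := {u, v, x, y}) a3.symm a1 a5.symm a4 a2 a6.symm fun w => by
    simp only [Finset.mem_insert, Finset.mem_singleton]; tauto
  have hF' := mem_pm (S := {u, v, x, y}) a5.symm a1 a3.symm a6 a2.symm a4.symm fun w => by
    simp only [Finset.mem_insert, Finset.mem_singleton]; tauto
  refine le_trans ?_ (Finset.single_le_sum (fun _ _ => Nat.zero_le _) hS)
  refine le_trans ?_ (Finset.single_le_sum (fun _ _ => Nat.zero_le _) hF)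
  refine le_trans ?_ (Finset.single_le_sum (fun _ _ => Nat.zero_le _)
    (Finset.mem_erase.2 ⟨by simp [pair_eq, *, Ne.symm], hF'⟩))
  rw [if_pos]
  unfold switchResult
  rw [if_pos ⟨by simp [Finset.insert_subset_iff, h1, h2], by simp [h3, h4]⟩]
  ext e
  obtain ⟨a, b, hab, rfl⟩ := ed_surj e
  simp only [Finset.mem_union, Finset.mem_sdiff, mem_toG, Finset.mem_insert, Finset.mem_singleton,
    ed_eq, τ_pos h]
  by_cases hb : blk u v x y a b
  · rw [if_pos hb]
    rw [blk_iff h.1] at hb
    rcases hb with ⟨rfl | rfl, rfl | rfl⟩ | ⟨rfl | rfl, rfl | rfl⟩ <;>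
      first | simp [h1, h2, h3, h4, a1, a2, a3, a4, a5, a6, Ne.symm]; done
            | (rw [X.symm]; simp [h1, h2, h3, h4, a1, a2, a3, a4, a5, a6, Ne.symm])
  · rw [if_neg hb]
    rw [blk_iff h.1] at hb
    tauto

theorem τ_swap {V : Type*} [Fintype V] [DecidableEq V] {d : V → ℕ} {u v x y : V} {X : Gr d}
    (h : dst u v x y X) : dst u v y x X ∧ τ u v y x X = τ u v x y X := by
  obtain ⟨⟨a1, a2, a3, a4, a5, a6⟩, e1, e2, e3⟩ := id h
  have h' : dst u v y x X := ⟨⟨a1, a2.symm, a5, a6, a3, a4⟩, e2, e1, e3.symm⟩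
  refine ⟨h', Gr.ext' fun a b => ?_⟩
  rw [τ_pos h, τ_pos h']
  simp only [blk, touch_comm x y]

theorem pc_pos {u v x y : Fin n} {X : Gr d} (h : dst u v x y X) :
    1 ≤ proposalCount (toG X) (toG (τ u v x y X)) := by
  by_cases h1 : X.A u x = true
  · exact pc_pos_aux h h1
  · rw [← (τ_swap h).2]
    refine pc_pos_aux (τ_swap h).1 ?_
    have := h.2.2.2
    revert this h1
    cases X.A u x <;> cases X.A u y <;> simp

theorem τ_uniq {V : Type*} [Fintype V] [DecidableEq V] {d : V → ℕ} {u v x y v' y' : V} {X : Gr d}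
    (h : dst u v x y X) (h' : dst u v' x y' X) (e : τ u v x y X = τ u v' x y' X) :
    v = v' ∧ y = y' := by
  obtain ⟨a1, a2, a3, a4, a5, a6⟩ := h.1
  obtain ⟨b1, b2, b3, b4, b5, b6⟩ := h'.1
  have e1 := congrArg (fun Z : Gr d => Z.A v x) e
  have e2 := congrArg (fun Z : Gr d => Z.A u y) e
  simp only [τ_pos h, τ_pos h', blk_iff h.1, blk_iff h'.1] at e1 e2
  constructor
  · by_contra hc
    simp [a1.symm, hc, a3, b4] at e1
  · by_contra hc
    simp [a2.symm, hc, a5, a3.symm, b5.symm] at e2

theorem τ_le_pc (f : Gr d → ℝ) (X : Gr d) :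
    ∑ u, ∑ v, ∑ x, ∑ y, (f X - f (τ u v x y X)) ^ 2 ≤
      n ^ 2 * ∑ Y, (proposalCount (toG X) (toG Y) : ℝ) * (f X - f Y) ^ 2 := by
  classical
  have key : ∀ u x, ∑ v, ∑ y, (f X - f (τ u v x y X)) ^ 2 ≤
      ∑ Y, (proposalCount (toG X) (toG Y) : ℝ) * (f X - f Y) ^ 2 := by
    intro u x
    rw [← Fintype.sum_prod_type', ← Finset.sum_subset
      (Finset.subset_univ (univ.filter fun p : Fin n × Fin n => dst u p.1 x p.2 X))
      fun p _ hp => by rw [τ_neg (by simpa using hp)]; simp]
    rw [← Finset.sum_image (s := univ.filter fun p : Fin n × Fin n => dst u p.1 x p.2 X)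
      (g := fun p => τ u p.1 x p.2 X) (f := fun Y => (f X - f Y) ^ 2) fun p hp q hq e =>
        Prod.ext_iff.2 (τ_uniq (by simpa using hp) (by simpa using hq) e)]
    refine le_trans (Finset.sum_le_sum fun Y hY => ?_) (Finset.sum_le_sum_of_subset_of_nonneg
      (Finset.subset_univ _) fun _ _ _ => by positivity)
    obtain ⟨p, hp, rfl⟩ := Finset.mem_image.1 hY
    refine le_mul_of_one_le_left (sq_nonneg _) ?_
    exact_mod_cast pc_pos (by simpa using hp)
  calc ∑ u, ∑ v, ∑ x, ∑ y, (f X - f (τ u v x y X)) ^ 2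
      = ∑ u, ∑ x, ∑ v, ∑ y, (f X - f (τ u v x y X)) ^ 2 :=
        Finset.sum_congr rfl fun _ _ => Finset.sum_comm
    _ ≤ ∑ _u : Fin n, ∑ _x : Fin n, ∑ Y, (proposalCount (toG X) (toG Y) : ℝ) * (f X - f Y) ^ 2 :=
        Finset.sum_le_sum fun u _ => Finset.sum_le_sum fun x _ => key u x
    _ = _ := by simp [sq, mul_assoc]

theorem poincare_pc (f : Finset (Edge n) → ℝ) :
    8 * (((realizations d).card : ℝ) * (∑ G ∈ realizations d, f G ^ 2) -
      (∑ G ∈ realizations d, f G) ^ 2) ≤ n ^ 2 * (realizations d).card *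
      ∑ G ∈ realizations d, ∑ G' ∈ realizations d, (proposalCount G G' : ℝ) * (f G - f G') ^ 2 := by
  have h := poincare_τ fun X : Gr d => f (toG X)
  have h2 : ∑ u, ∑ v, ∑ x, ∑ y, ∑ X : Gr d, (f (toG X) - f (toG (τ u v x y X))) ^ 2 ≤ n ^ 2 *
      ∑ G ∈ realizations d, ∑ G' ∈ realizations d, (proposalCount G G' : ℝ) * (f G - f G') ^ 2 := by
    simp only [← sum_toG, Finset.mul_sum (s := (univ : Finset (Gr d))) (f := fun X => ∑ Y, _)]
    refine le_trans (le_of_eq ?_) (Finset.sum_le_sum fun X _ => τ_le_pc (fun X => f (toG X)) X)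
    symm
    rw [Finset.sum_comm]
    refine Finset.sum_congr rfl fun _ _ => ?_
    rw [Finset.sum_comm]
    refine Finset.sum_congr rfl fun _ _ => ?_
    rw [Finset.sum_comm]
    refine Finset.sum_congr rfl fun _ _ => ?_
    rw [Finset.sum_comm]
  have hc : ((realizations d).card : ℝ) = Fintype.card (Gr d) := by
    simpa using (sum_toG (d := d) fun _ => 1).symm
  have h3 : ((realizations d).card : ℝ) * ∑ X : Gr d,
      (f (toG X) - P (fun _ _ => True) (fun X : Gr d => f (toG X)) X) ^ 2 =
      ((realizations d).card : ℝ) * (∑ G ∈ realizations d, f G ^ 2) -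
      (∑ G ∈ realizations d, f G) ^ 2 := by
    have : ∀ X : Gr d, cls (fun _ _ => True) X = univ := fun X => by ext; simp
    simp only [P_apply, this, ← sum_toG, hc, Finset.card_univ, sub_sq, Finset.sum_add_distrib,
      Finset.sum_sub_distrib, ← Finset.sum_mul, ← Finset.mul_sum, Finset.sum_const, nsmul_eq_mul]
    by_cases h0 : (Fintype.card (Gr d) : ℝ) = 0
    · have : IsEmpty (Gr d) := Fintype.card_eq_zero_iff.1 (by exact_mod_cast h0)
      simp
    · field_simp; ring
  rw [← h3]
  have : (0 : ℝ) ≤ (realizations d).card := Nat.cast_nonneg _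
  nlinarith [mul_le_mul_of_nonneg_left (h.trans h2) this]

end Crest.Agent.R299
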