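import Mathlib

/-! Mixing from a Poincaré inequality for a lazy symmetric chain. -/

set_option autoImplicit false
open Finset

namespace Crest.Agent.R299

variable {α : Type*} [Fintype α] [DecidableEq α] {Ω : Finset α} {Q : α → α → ℝ}
  {K : Matrix α α ℝ}

omit [Fintype α] in
theorem K_apply (hK : ∀ x y, K x y = (if x = y then 1 / 2 else 0) + Q x y / 2) {x : α} (hx : x ∈ Ω)
    (f : α → ℝ) : ∑ y ∈ Ω, K x y * f y = f x / 2 + (∑ y ∈ Ω, Q x y * f y) / 2 := by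
  simp only [hK, add_mul, Finset.sum_add_distrib, ite_mul, zero_mul, Finset.sum_ite_eq, hx, if_true,
    Finset.sum_div]
  congr 1
  · ring
  · exact Finset.sum_congr rfl fun _ _ => by ring

omit [Fintype α] in
theorem dirichlet (hK : ∀ x y, K x y = (if x = y then 1 / 2 else 0) + Q x y / 2)
    (hs : ∀ x y, Q x y = Q y x) (h1 : ∀ x ∈ Ω, ∑ y ∈ Ω, Q x y = 1) (f : α → ℝ) :
    ∑ x ∈ Ω, f x * (f x - ∑ y ∈ Ω, K x y * f y) =
      (∑ x ∈ Ω, ∑ y ∈ Ω, Q x y * (f x - f y) ^ 2) / 4 := by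
  have e1 : ∑ x ∈ Ω, ∑ y ∈ Ω, Q x y * f x ^ 2 = ∑ x ∈ Ω, f x ^ 2 :=
    Finset.sum_congr rfl fun x hx => by rw [← Finset.sum_mul, h1 x hx, one_mul]
  have e2 : ∑ x ∈ Ω, ∑ y ∈ Ω, Q x y * f y ^ 2 = ∑ x ∈ Ω, f x ^ 2 := by
    rw [Finset.sum_comm, ← e1]; simp only [hs]
  have e3 : ∑ x ∈ Ω, ∑ y ∈ Ω, Q x y * (f x - f y) ^ 2 = ∑ x ∈ Ω, ∑ y ∈ Ω, Q x y * f x ^ 2 +
      ∑ x ∈ Ω, ∑ y ∈ Ω, Q x y * f y ^ 2 - 2 * ∑ x ∈ Ω, f x * ∑ y ∈ Ω, Q x y * f y := by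
    simp only [Finset.mul_sum, ← Finset.sum_add_distrib, ← Finset.sum_sub_distrib]
    exact Finset.sum_congr rfl fun _ _ => Finset.sum_congr rfl fun _ _ => by ring
  rw [e3, e1, e2, Finset.sum_congr rfl (g := fun x => f x ^ 2 / 2 - f x * (∑ y ∈ Ω, Q x y * f y) / 2)
    fun x hx => by rw [K_apply hK hx]; ring]
  simp only [Finset.sum_sub_distrib, ← Finset.sum_div]
  ring

omit [Fintype α] in
theorem contract (hK : ∀ x y, K x y = (if x = y then 1 / 2 else 0) + Q x y / 2)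
    (h0 : ∀ x y, 0 ≤ Q x y) (hs : ∀ x y, Q x y = Q y x) (h1 : ∀ x ∈ Ω, ∑ y ∈ Ω, Q x y = 1)
    (g : α → ℝ) : ∑ x ∈ Ω, (∑ y ∈ Ω, K x y * g y) ^ 2 ≤ ∑ x ∈ Ω, g x * ∑ y ∈ Ω, K x y * g y := by
  have e1 : ∑ x ∈ Ω, (∑ y ∈ Ω, Q x y * g y) ^ 2 ≤ ∑ x ∈ Ω, g x ^ 2 := by
    have : ∑ x ∈ Ω, g x ^ 2 = ∑ x ∈ Ω, ∑ y ∈ Ω, Q x y * g y ^ 2 := by
      rw [Finset.sum_comm]
      exact Finset.sum_congr rfl fun x hx => by
        simp only [hs _ x]; rw [← Finset.sum_mul, h1 x hx, one_mul]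
    rw [this]
    refine Finset.sum_le_sum fun x hx => ?_
    have := Finset.sum_sq_le_sum_mul_sum_of_sq_le_mul Ω (r := fun y => Q x y * g y)
      (f := fun y => Q x y) (g := fun y => Q x y * g y ^ 2) (fun y _ => h0 x y)
      (fun y _ => mul_nonneg (h0 x y) (sq_nonneg _)) (fun y _ => le_of_eq (by ring))
    rwa [h1 x hx, one_mul] at this
  have e2 : ∑ x ∈ Ω, g x * ∑ y ∈ Ω, K x y * g y - ∑ x ∈ Ω, (∑ y ∈ Ω, K x y * g y) ^ 2 =
      (∑ x ∈ Ω, g x ^ 2 - ∑ x ∈ Ω, (∑ y ∈ Ω, Q x y * g y) ^ 2) / 4 := by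
    simp only [← Finset.sum_sub_distrib, Finset.sum_div]
    exact Finset.sum_congr rfl fun x hx => by rw [K_apply hK hx]; ring
  linarith

theorem mixing (hK : ∀ x y, K x y = (if x = y then 1 / 2 else 0) + Q x y / 2)
    (h0 : ∀ x y, 0 ≤ Q x y) (hs : ∀ x y, Q x y = Q y x) (h1 : ∀ x ∈ Ω, ∑ y ∈ Ω, Q x y = 1)
    (h2 : ∀ x ∈ Ω, ∀ y, y ∉ Ω → Q x y = 0) {c : ℝ} (hc : 1 ≤ c)
    (hP : ∀ f : α → ℝ, (Ω.card : ℝ) * (∑ x ∈ Ω, f x ^ 2) - (∑ x ∈ Ω, f x) ^ 2 ≤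
      c * Ω.card * ∑ x ∈ Ω, f x * (f x - ∑ y ∈ Ω, K x y * f y)) {x : α} (hx : x ∈ Ω) (t : ℕ) :
    (∀ y, y ∉ Ω → (K ^ t) x y = 0) ∧ ∑ y ∈ Ω, ((K ^ t) x y - 1 / Ω.card) = 0 ∧
      ∑ y ∈ Ω, ((K ^ t) x y - 1 / Ω.card) ^ 2 ≤ (1 - 1 / c) ^ t := by
  have hN : (0 : ℝ) < Ω.card := by exact_mod_cast Finset.card_pos.2 ⟨x, hx⟩
  have hKs : ∀ x y, K x y = K y x := by intro x y; rw [hK, hK, hs]; simp only [eq_comm]
  have hK1 : ∀ x ∈ Ω, ∑ y ∈ Ω, K x y = 1 := by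
    intro x hx
    have := K_apply hK hx fun _ => 1
    simp only [mul_one, h1 x hx] at this
    linarith
  induction t with
  | zero =>
    refine ⟨fun y hy => ?_, ?_, ?_⟩
    · rw [pow_zero, Matrix.one_apply_ne]; rintro rfl; exact hy hx
    · simp only [pow_zero, Matrix.one_apply, Finset.sum_sub_distrib, Finset.sum_ite_eq, hx, if_true,
        Finset.sum_const, nsmul_eq_mul]
      field_simp; ring
    · have : ∀ y, ((K ^ 0) x y - 1 / Ω.card) ^ 2 =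
          (if x = y then 1 - 2 / (Ω.card : ℝ) else 0) + 1 / Ω.card ^ 2 := by
        intro y
        simp only [pow_zero, Matrix.one_apply]
        split_ifs <;> ring
      simp only [this]
      simp only [Finset.sum_add_distrib, Finset.sum_ite_eq, hx, if_true, Finset.sum_const,
        nsmul_eq_mul, pow_zero]
      have : (Ω.card : ℝ) * (1 / Ω.card ^ 2) = 1 / Ω.card := by field_simp
      rw [this]
      have : (0 : ℝ) < 1 / Ω.card := by positivity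
      have : (2 : ℝ) / Ω.card = 2 * (1 / Ω.card) := by ring
      linarith
  | succ t ih =>
    obtain ⟨a, b, e⟩ := ih
    have hm : ∀ y, (K ^ (t + 1)) x y = ∑ z ∈ Ω, K y z * (K ^ t) x z := by
      intro y
      rw [pow_succ, Matrix.mul_apply, ← Finset.sum_subset (Finset.subset_univ Ω)
        fun z _ hz => by rw [a z hz, zero_mul]]
      exact Finset.sum_congr rfl fun z _ => by rw [hKs z y, mul_comm]
    have hg : ∀ y ∈ Ω, (K ^ (t + 1)) x y - 1 / Ω.card =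
        ∑ z ∈ Ω, K y z * ((K ^ t) x z - 1 / Ω.card) := by
      intro y hy
      simp only [hm, mul_sub, Finset.sum_sub_distrib, ← Finset.sum_mul, hK1 y hy, one_mul]
    refine ⟨fun y hy => ?_, ?_, ?_⟩
    · rw [hm]
      refine Finset.sum_eq_zero fun z hz => ?_
      rw [hK, hs, h2 z hz y hy, if_neg (by rintro rfl; exact hy hz)]; simp
    · rw [Finset.sum_congr rfl hg, Finset.sum_comm, ← b]
      refine Finset.sum_congr rfl fun z hz => ?_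
      simp only [hKs _ z]
      rw [← Finset.sum_mul, hK1 z hz, one_mul]
    · rw [Finset.sum_congr rfl fun y hy => congrArg (· ^ 2) (hg y hy)]
      refine (contract hK h0 hs h1 _).trans ?_
      have p := hP fun z => (K ^ t) x z - 1 / Ω.card
      rw [b] at p
      have hsp : ∀ g h : α → ℝ, ∑ y ∈ Ω, g y * (g y - h y) =
          ∑ y ∈ Ω, g y ^ 2 - ∑ y ∈ Ω, g y * h y := by
        intro g h; simp only [mul_sub, Finset.sum_sub_distrib, sq]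
      rw [hsp] at p
      set A := ∑ y ∈ Ω, ((K ^ t) x y - 1 / Ω.card) ^ 2
      set B := ∑ y ∈ Ω, ((K ^ t) x y - 1 / Ω.card) * ∑ z ∈ Ω, K y z * ((K ^ t) x z - 1 / Ω.card)
      have hc0 : 0 < c := by linarith
      have p2 : A ≤ c * (A - B) := by
        refine le_of_mul_le_mul_left ?_ hN
        nlinarith
      have p3 : B ≤ (1 - 1 / c) * A := by
        have : 1 / c * A ≤ A - B := by
          rw [one_div, inv_mul_le_iff₀ hc0]; exact p2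
        linarith
      have p4 : 0 ≤ 1 - 1 / c := by
        rw [sub_nonneg, div_le_one hc0]; exact hc
      rw [pow_succ, mul_comm]
      exact p3.trans (mul_le_mul_of_nonneg_left e p4)

theorem numeric {n : ℕ} (hn : 4 ≤ n) {c N : ℝ} (hc : 1 ≤ c) (hc' : c ≤ (n : ℝ) ^ 6)
    (hN : N ≤ 2 ^ (n ^ 2)) : N * (1 - 1 / c) ^ (2 * n ^ 8) ≤ 1 / 4 := by
  have hc0 : 0 < c := by linarith
  have p4 : 0 ≤ 1 - 1 / c := by rw [sub_nonneg, div_le_one hc0]; exact hc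
  have hn0 : (0 : ℝ) < n := by exact_mod_cast (by omega : 0 < n)
  have e1 : (1 - 1 / c) ^ (n ^ 6) ≤ 1 / 2 := by
    have a : 1 - 1 / c ≤ Real.exp (-(1 / c)) := by linarith [Real.add_one_le_exp (-(1 / c))]
    refine (pow_le_pow_left₀ p4 a _).trans ?_
    rw [← Real.exp_nat_mul]
    have b : ((n ^ 6 : ℕ) : ℝ) * -(1 / c) ≤ -1 := by
      push_cast
      have : 1 ≤ (n : ℝ) ^ 6 * (1 / c) := by
        rw [mul_one_div, le_div_iff₀ hc0]; linarith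
      linarith
    refine (Real.exp_le_exp.2 b).trans ?_
    rw [Real.exp_neg, one_div]
    exact inv_anti₀ (by norm_num) (by linarith [Real.add_one_le_exp (1 : ℝ)])
  have e2 : (1 - 1 / c) ^ (2 * n ^ 8) ≤ (1 / 2) ^ (n ^ 2 + n ^ 2) := by
    rw [show 2 * n ^ 8 = n ^ 6 * (n ^ 2 + n ^ 2) by ring, pow_mul]
    exact pow_le_pow_left₀ (pow_nonneg p4 _) e1 _
  calc N * (1 - 1 / c) ^ (2 * n ^ 8) ≤ 2 ^ (n ^ 2) * (1 / 2) ^ (n ^ 2 + n ^ 2) :=
        mul_le_mul hN e2 (pow_nonneg p4 _) (by positivity)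
    _ = (1 / 2) ^ (n ^ 2) := by rw [pow_add, ← mul_assoc, ← mul_pow]; norm_num
    _ ≤ (1 / 2) ^ 2 := pow_le_pow_of_le_one (by norm_num) (by norm_num) (by nlinarith)
    _ = 1 / 4 := by norm_num

end Crest.Agent.R299
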